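import Vale.Agent.P171.Energy

open MeasureTheory ENNReal Finset

namespace Vale.Agent.P171

/-- Physical space. -/
abbrev E3 := EuclideanSpace ℝ (Fin 3)

/-- Index of cubes. -/
abbrev I3 := Fin 3 → ℤ

/-- The cube containing a point, in the grid of side `s` translated by `t (1,1,1)`. -/
noncomputable def cel (s t : ℝ) (x : E3) : I3 := fun i => ⌊(x i - t) / s⌋

/-- The cube of side `w` with corner `t (1,1,1) + s q`. -/
def cube (s t w : ℝ) (q : I3) : Set E3 := {x | ∀ i, t + s * q i ≤ x i ∧ x i < t + s * q i + w}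

/-- The box `[0,s)^3`. -/
def box (s : ℝ) : Set E3 := {x | ∀ i, 0 ≤ x i ∧ x i < s}

/-- Translation vector. -/
noncomputable def tv (s t : ℝ) (q : I3) : E3 := WithLp.toLp 2 (fun i => t + s * q i)

@[simp] theorem tv_apply (s t : ℝ) (q : I3) (i : Fin 3) : tv s t q i = t + s * q i := rfl

theorem mem_cube_iff_cel {s t : ℝ} (hs : 0 < s) (q : I3) (x : E3) :
    x ∈ cube s t s q ↔ cel s t x = q := by
  unfold cube cel
  rw [Set.mem_ofPred_eq, funext_iff]
  refine forall_congr' fun i => ?_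
  rw [Int.floor_eq_iff, le_div_iff₀ hs, div_lt_iff₀ hs]
  constructor
  · rintro ⟨h1, h2⟩; constructor <;> nlinarith
  · rintro ⟨h1, h2⟩; constructor <;> nlinarith

theorem measurable_coord (i : Fin 3) : Measurable fun x : E3 => x i := by fun_prop

theorem measurableSet_cube (s t w : ℝ) (q : I3) : MeasurableSet (cube s t w q) := by
  have : cube s t w q = ⋂ i, ({x : E3 | t + s * q i ≤ x i} ∩ {x | x i < t + s * q i + w}) := by
    ext x; simp [cube]
  rw [this]
  exact MeasurableSet.iInter fun i => (measurableSet_le measurable_const (measurable_coord i)).inter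
    (measurableSet_lt (measurable_coord i) measurable_const)

theorem box_eq_cube (s : ℝ) : box s = cube 0 0 s 0 := by
  ext x; simp [box, cube]

theorem measurableSet_box (s : ℝ) : MeasurableSet (box s) := by
  rw [box_eq_cube]; exact measurableSet_cube _ _ _ _

theorem measurable_cel (s t : ℝ) : Measurable (cel s t) := by
  unfold cel
  refine measurable_pi_lambda _ fun i => ?_
  exact Int.measurable_floor.comp (((measurable_coord i).sub_const _).div_const _)

theorem cube_disjoint {s t w : ℝ} (hs : 0 < s) (hw : w ≤ s) {q r : I3} (h : q ≠ r) :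
    Disjoint (cube s t w q) (cube s t w r) := by
  rw [Set.disjoint_left]
  intro x h1 h2
  have e1 : cel s t x = q := (mem_cube_iff_cel hs q x).mp fun i => ⟨(h1 i).1, by linarith [(h1 i).2]⟩
  have e2 : cel s t x = r := (mem_cube_iff_cel hs r x).mp fun i => ⟨(h2 i).1, by linarith [(h2 i).2]⟩
  exact h (e1.symm.trans e2)

theorem volume_cube (s t w : ℝ) (hw : 0 ≤ w) (q : I3) :
    volume (cube s t w q) = ENNReal.ofReal (w ^ 3) := by
  have h := (EuclideanSpace.volume_preserving_symm_measurableEquiv_toLp (Fin 3)).measure_preimage_equiv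
    (Set.univ.pi fun i => Set.Ico (t + s * q i) (t + s * q i + w))
  have h2 : (MeasurableEquiv.toLp 2 (Fin 3 → ℝ)).symm ⁻¹'
      (Set.univ.pi fun i => Set.Ico (t + s * q i) (t + s * q i + w)) = cube s t w q := by
    ext x
    simp [cube]
  rw [h2, Real.volume_pi_Ico] at h
  rw [h]
  simp only [add_sub_cancel_left, Finset.prod_const, Finset.card_univ, Fintype.card_fin]
  rw [ENNReal.ofReal_pow hw]

theorem cube_preimage (s t w : ℝ) (q : I3) :
    cube s t w q = (fun x => x + tv s t q) '' box w := by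
  ext x
  simp only [cube, box, Set.mem_image, Set.mem_ofPred_eq]
  constructor
  · intro h
    refine ⟨x - tv s t q, ?_, sub_add_cancel _ _⟩
    intro i
    have := h i
    simp only [PiLp.sub_apply, tv_apply]
    constructor <;> linarith
  · rintro ⟨y, hy, rfl⟩ i
    have := hy i
    simp only [PiLp.add_apply, tv_apply]
    constructor <;> linarith

theorem dist_le_of_coord {x y : E3} {s : ℝ} (hs : 0 ≤ s) (h : ∀ i, |x i - y i| ≤ s) :
    dist x y ≤ 2 * s := by
  rw [EuclideanSpace.dist_eq]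
  refine Real.sqrt_le_iff.mpr ⟨by positivity, ?_⟩
  simp only [Real.dist_eq, sq_abs, Fin.sum_univ_three]
  have h' : ∀ i, (x i - y i) ^ 2 ≤ s ^ 2 := fun i => by
    rw [← sq_abs]
    exact pow_le_pow_left₀ (abs_nonneg _) (h i) 2
  nlinarith [h' 0, h' 1, h' 2, sq_nonneg s]

theorem coord_le_dist (x y : E3) (i : Fin 3) : |x i - y i| ≤ dist x y := by
  have := PiLp.norm_apply_le (x - y) i
  rw [dist_eq_norm]
  simpa using this

theorem cube_dist {s t : ℝ} (hs : 0 < s) {q : I3} {x y : E3} (hx : x ∈ cube s t s q)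
    (hy : y ∈ cube s t s q) : dist x y ≤ 2 * s := by
  refine dist_le_of_coord hs.le fun i => ?_
  have h1 := hx i
  have h2 := hy i
  rw [abs_le]
  constructor <;> linarith

/-! ### Translation invariance -/

theorem ms_map {X Y : Type} {ι : Type} [Fintype ι] (f : X → Y) (x : ι → X) :
    (ms x).map f = ms (f ∘ x) := by
  unfold ms; rw [Multiset.map_map]

theorem Zc_translate (A : Set E3) (τ : E3) (F : Multiset E3 → ℝ≥0∞) (n : ℕ) :
    Zc ((fun x => x + τ) '' A) F n = Zc A (fun m => F (m.map (fun x => x + τ))) n := by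
  unfold Zc
  congr 1
  have h := (measurePreserving_pi (fun _ : Fin n => (volume : Measure E3))
    (fun _ : Fin n => (volume : Measure E3))
    (fun i => measurePreserving_add_right volume τ)).lintegral_comp_emb
      ((MeasurableEquiv.piCongrRight fun _ : Fin n => MeasurableEquiv.addRight τ).measurableEmbedding)
      (fun x => ind ((fun x => x + τ) '' A) x * F (ms x))
  refine h.symm.trans ?_
  refine lintegral_congr fun x => ?_
  congr 1
  · unfold ind
    refine Finset.prod_congr rfl fun i _ => ?_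
    by_cases hx : x i ∈ A
    · rw [Set.indicator_of_mem hx, Set.indicator_of_mem (Set.mem_image_of_mem (fun x => x + τ) hx)]
    · rw [Set.indicator_of_notMem hx, Set.indicator_of_notMem]
      rintro ⟨y, hy, hyx⟩
      exact hx (by rwa [← add_right_cancel hyx])
  · show F (ms (fun i => x i + τ)) = F ((ms x).map (fun x => x + τ))
    rw [ms_map]; rfl

theorem GI_translate (A : Set E3) (τ : E3) (F : Multiset E3 → ℝ≥0∞) :
    GI ((fun x => x + τ) '' A) F = GI A (fun m => F (m.map (fun x => x + τ))) := by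
  unfold GI
  exact tsum_congr fun n => Zc_translate A τ F n

theorem dS_map {X Y : Type} (f : X → Y) (u : Y → Y → ℝ) (m m' : Multiset X) :
    dS u (m.map f) (m'.map f) = dS (fun a b => u (f a) (f b)) m m' := by
  simp [dS, Multiset.map_map]

theorem dg_map {X Y : Type} (f : X → Y) (u : Y → Y → ℝ) (m : Multiset X) :
    dg u (m.map f) = dg (fun a b => u (f a) (f b)) m := by
  simp [dg, Multiset.map_map]

theorem Wt_map {X Y : Type} (f : X → Y) (u : Y → Y → ℝ) (μ : ℝ) (m : Multiset X) :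
    Wt u μ (m.map f) = Wt (fun a b => u (f a) (f b)) μ m := by
  simp only [Wt, En, dS_map, dg_map, Multiset.card_map]

/-! ### Counting cubes -/

theorem ball_vol (x : E3) {r : ℝ} (hr : 0 ≤ r) :
    volume (Metric.closedBall x r) = ENNReal.ofReal (r ^ 3 * (Real.pi * 4 / 3)) := by
  rw [EuclideanSpace.volume_closedBall_fin_three, ← ENNReal.ofReal_pow hr,
    ← ENNReal.ofReal_mul (by positivity)]

/-- Close cubes. -/
def Rup (s t ℓ : ℝ) (q r : I3) : Prop := ∃ x ∈ cube s t s q, ∃ y ∈ cube s t s r, dist x y ≤ ℓ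

theorem Rup_symm {s t ℓ : ℝ} {q r : I3} (h : Rup s t ℓ q r) : Rup s t ℓ r q := by
  obtain ⟨x, hx, y, hy, hd⟩ := h
  exact ⟨y, hy, x, hx, by rwa [dist_comm]⟩

theorem count_up {s t ℓ : ℝ} (hs : 0 < s) (hℓ : 0 ≤ ℓ) (q : I3) (T : Finset I3)
    [DecidablePred (Rup s t ℓ q)] :
    ((T.filter (Rup s t ℓ q)).card : ℝ) * s ^ 3 ≤ (ℓ + 4 * s) ^ 3 * (Real.pi * 4 / 3) := by
  set x0 : E3 := tv s t q with hx0
  have hx0m : x0 ∈ cube s t s q := by
    intro i; simp [hx0, hs]
  have h1 : (⋃ r ∈ T.filter (Rup s t ℓ q), cube s t s r) ⊆ Metric.closedBall x0 (ℓ + 4 * s) := by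
    intro y hy
    simp only [Set.mem_iUnion] at hy
    obtain ⟨r, hr, hy⟩ := hy
    obtain ⟨x, hx, y', hy', hd⟩ := (Finset.mem_filter.mp hr).2
    rw [Metric.mem_closedBall]
    have a1 := cube_dist hs hy hy'
    have a2 := cube_dist hs hx hx0m
    calc dist y x0 ≤ dist y y' + dist y' x + dist x x0 := dist_triangle4 _ _ _ _
      _ ≤ 2 * s + ℓ + 2 * s := by rw [dist_comm y' x]; gcongr
      _ = ℓ + 4 * s := by ring
  have h2 := measure_mono (μ := (volume : Measure E3)) h1
  rw [measure_biUnion_finset, ball_vol x0 (by positivity)] at h2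
  · simp only [volume_cube s t s hs.le, Finset.sum_const, nsmul_eq_mul] at h2
    rw [← ENNReal.ofReal_natCast, ← ENNReal.ofReal_mul (Nat.cast_nonneg _)] at h2
    exact (ENNReal.ofReal_le_ofReal_iff (by positivity)).mp h2
  · intro a _ b _ hab
    exact cube_disjoint hs le_rfl hab
  · intro b _
    exact measurableSet_cube _ _ _ _

/-- Cubes all of whose points are close. -/
def Rlow (s t ℓ : ℝ) (q r : I3) : Prop := ∀ x ∈ cube s t s q, ∀ y ∈ cube s t s r, dist x y ≤ ℓ

open Classical in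
/-- Indices of the cubes that are totally close to the cube `q`. -/
noncomputable def nbr (s t ℓ : ℝ) (q : I3) : Finset I3 :=
  (Fintype.piFinset fun i => Finset.Icc (q i - (⌊ℓ / s⌋₊ : ℤ)) (q i + (⌊ℓ / s⌋₊ : ℤ))).filter
    (Rlow s t ℓ q)

theorem mem_nbr_of_Rlow {s t ℓ : ℝ} (hs : 0 < s) (hℓ : 0 ≤ ℓ) {q r : I3} (h : Rlow s t ℓ q r) :
    r ∈ nbr s t ℓ q := by
  classical
  unfold nbr
  rw [Finset.mem_filter, Fintype.mem_piFinset]
  refine ⟨fun i => ?_, h⟩
  have hx : tv s t q ∈ cube s t s q := by intro i; simp [hs]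
  have hy : tv s t r ∈ cube s t s r := by intro i; simp [hs]
  have h1 := (coord_le_dist (tv s t q) (tv s t r) i).trans (h _ hx _ hy)
  simp only [tv_apply] at h1
  have h2 : |((q i - r i : ℤ) : ℝ)| ≤ ℓ / s := by
    rw [le_div_iff₀ hs]
    have : t + s * (q i : ℝ) - (t + s * (r i : ℝ)) = ((q i - r i : ℤ) : ℝ) * s := by push_cast; ring
    rw [this, abs_mul, abs_of_pos hs] at h1
    exact h1
  have h3 : |q i - r i| ≤ (⌊ℓ / s⌋₊ : ℤ) := by
    rw [Int.natCast_floor_eq_floor (by positivity), Int.le_floor]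
    push_cast at h2 ⊢
    exact h2
  rw [Finset.mem_Icc]
  rw [abs_le] at h3
  constructor <;> linarith [h3.1, h3.2]

theorem count_low {s t ℓ : ℝ} (hs : 0 < s) (hℓ : 4 * s ≤ ℓ) (q : I3) :
    (ℓ - 4 * s) ^ 3 * (Real.pi * 4 / 3) ≤ ((nbr s t ℓ q).card : ℝ) * s ^ 3 := by
  classical
  set x0 : E3 := tv s t q with hx0
  have hx0m : x0 ∈ cube s t s q := by
    intro i; simp [hx0, hs]
  have h1 : Metric.closedBall x0 (ℓ - 4 * s) ⊆ (⋃ r ∈ nbr s t ℓ q, cube s t s r) := by
    intro y hy
    rw [Metric.mem_closedBall] at hy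
    simp only [Set.mem_iUnion]
    have hyc : y ∈ cube s t s (cel s t y) := (mem_cube_iff_cel hs _ _).mpr rfl
    refine ⟨cel s t y, mem_nbr_of_Rlow hs (by linarith) ?_, hyc⟩
    intro x hx y' hy'
    have a1 := cube_dist hs hx hx0m
    have a2 := cube_dist hs hyc hy'
    calc dist x y' ≤ dist x x0 + dist x0 y + dist y y' := dist_triangle4 _ _ _ _
      _ ≤ 2 * s + (ℓ - 4 * s) + 2 * s := by rw [dist_comm x0 y]; gcongr
      _ = ℓ := by ring
  have h2 := measure_mono (μ := (volume : Measure E3)) h1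
  rw [measure_biUnion_finset, ball_vol x0 (by linarith)] at h2
  · simp only [volume_cube s t s hs.le, Finset.sum_const, nsmul_eq_mul] at h2
    rw [← ENNReal.ofReal_natCast, ← ENNReal.ofReal_mul (Nat.cast_nonneg _)] at h2
    exact (ENNReal.ofReal_le_ofReal_iff (by positivity)).mp h2
  · intro a _ b _ hab
    exact cube_disjoint hs le_rfl hab
  · intro b _
    exact measurableSet_cube _ _ _ _

/-- Box of indices. -/
noncomputable def ibox (M : ℕ) : Finset I3 := Fintype.piFinset fun _ => Finset.Ico (0 : ℤ) M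

theorem mem_ibox {M : ℕ} {q : I3} : q ∈ ibox M ↔ ∀ i, 0 ≤ q i ∧ q i < M := by
  simp [ibox, Fintype.mem_piFinset]

theorem card_ibox (M : ℕ) : (ibox M).card = M ^ 3 := by
  simp [ibox, Fintype.card_piFinset]

/-- Unit-cell neighbour relation. -/
def Rc (M : ℕ) (q r : I3) : Prop := ∀ i, |q i - r i| ≤ (M : ℤ)

theorem Rc_symm {M : ℕ} (q r : I3) (h : Rc M q r) : Rc M r q := fun i => by
  rw [abs_sub_comm]; exact h i

theorem count_Rc (M : ℕ) (q : I3) (T : Finset I3) [DecidablePred (Rc M q)] :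
    ((T.filter (Rc M q)).card : ℝ) ≤ (2 * M + 1) ^ 3 := by
  have h1 : T.filter (Rc M q) ⊆ Fintype.piFinset fun i => Finset.Icc (q i - M) (q i + M) := by
    intro r hr
    rw [Fintype.mem_piFinset]
    intro i
    have := (Finset.mem_filter.mp hr).2 i
    rw [abs_le] at this
    rw [Finset.mem_Icc]
    constructor <;> linarith [this.1, this.2]
  have h2 := Finset.card_le_card h1
  rw [Fintype.card_piFinset] at h2
  have h3 : ∀ i : Fin 3, (Finset.Icc (q i - (M:ℤ)) (q i + M)).card = 2 * M + 1 := by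
    intro i
    rw [Int.card_Icc]
    omega
  simp only [h3, Finset.prod_const, Finset.card_univ, Fintype.card_fin] at h2
  exact_mod_cast h2

theorem Rc_of_dist {ℓ : ℝ} {x y : E3} (h : dist x y ≤ ℓ) :
    Rc (⌊ℓ⌋₊ + 1) (cel 1 0 x) (cel 1 0 y) := by
  intro i
  have hℓ : 0 ≤ ℓ := dist_nonneg.trans h
  have h1 := (coord_le_dist x y i).trans h
  simp only [cel, sub_zero, div_one]
  rw [abs_le] at h1
  have h2 := Int.floor_le (x i)
  have h3 := Int.lt_floor_add_one (x i)
  have h4 := Int.floor_le (y i)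
  have h5 := Int.lt_floor_add_one (y i)
  have h6 := Nat.lt_floor_add_one ℓ
  have h7 : ((⌊x i⌋ - ⌊y i⌋ : ℤ) : ℝ) < ((⌊ℓ⌋₊ + 1 + 1 : ℤ) : ℝ) := by
    push_cast; linarith [h1.2]
  have h8 : ((⌊y i⌋ - ⌊x i⌋ : ℤ) : ℝ) < ((⌊ℓ⌋₊ + 1 + 1 : ℤ) : ℝ) := by
    push_cast; linarith [h1.1]
  have h7' := Int.cast_lt.mp h7
  have h8' := Int.cast_lt.mp h8
  rw [abs_le]
  push_cast
  constructor <;> linarith

end Vale.Agent.P171
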