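import Vale.Agent.P171.Final

open MeasureTheory ENNReal Finset Filter Topology

namespace Vale.Agent.P171

theorem pot_eq (a b : E3) : pot AA wi a b = phi (dist a b) := by
  unfold pot nr wi phi
  congr 2

theorem energy_bridge {N : ℕ} (φ : ℝ → ℝ) (x : Fin N → E3) :
    ∑ i, ∑ j ∈ Finset.Ioi i, φ (dist (x i) (x j)) = En (fun a b => φ (dist a b)) (ms x) := by
  unfold En
  rw [dS_ms, dg_ms]
  set f : Fin N → Fin N → ℝ := fun i j => φ (dist (x i) (x j)) with hf
  have hsymm : ∀ i j, f i j = f j i := fun i j => by simp only [hf, dist_comm]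
  have h1 : ∀ i : Fin N, ∑ j, f i j = ∑ j ∈ Finset.Ioi i, f i j + f i i + ∑ j ∈ Finset.Iio i, f i j := by
    intro i
    have h2 : (Finset.univ : Finset (Fin N)) = (Finset.Ioi i ∪ {i}) ∪ Finset.Iio i := by
      ext j
      simp only [Finset.mem_univ, Finset.mem_union, Finset.mem_Ioi, Finset.mem_singleton,
        Finset.mem_Iio, true_iff]
      rcases lt_trichotomy i j with h | h | h
      · exact Or.inl (Or.inl h)
      · exact Or.inl (Or.inr h.symm)
      · exact Or.inr h
    rw [h2, Finset.sum_union, Finset.sum_union, Finset.sum_singleton]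
    · rw [Finset.disjoint_singleton_right, Finset.mem_Ioi]; exact lt_irrefl i
    · rw [Finset.disjoint_left]
      intro j hj hj'
      rw [Finset.mem_Iio] at hj'
      rcases Finset.mem_union.mp hj with h | h
      · exact lt_asymm (Finset.mem_Ioi.mp h) hj'
      · rw [Finset.mem_singleton.mp h] at hj'; exact lt_irrefl i hj'
  have h3 : ∑ i, ∑ j ∈ Finset.Iio i, f i j = ∑ i, ∑ j ∈ Finset.Ioi i, f i j := by
    have e1 : ∑ i, ∑ j ∈ Finset.Iio i, f i j = ∑ i, ∑ j, if j < i then f i j else 0 := by
      refine Finset.sum_congr rfl fun i _ => ?_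
      rw [← Finset.sum_filter]
      refine Finset.sum_congr ?_ fun _ _ => rfl
      ext j; simp
    have e2 : ∑ i, ∑ j ∈ Finset.Ioi i, f i j = ∑ i, ∑ j, if i < j then f i j else 0 := by
      refine Finset.sum_congr rfl fun i _ => ?_
      rw [← Finset.sum_filter]
      refine Finset.sum_congr ?_ fun _ _ => rfl
      ext j; simp
    rw [e1, e2, Finset.sum_comm]
    refine Finset.sum_congr rfl fun i _ => Finset.sum_congr rfl fun j _ => ?_
    rw [hsymm]
  show ∑ i, ∑ j ∈ Finset.Ioi i, f i j = (∑ i, ∑ j, f i j - ∑ i, f i i) / 2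
  simp_rw [h1]
  rw [Finset.sum_add_distrib, Finset.sum_add_distrib, h3]
  ring

/-- The closed box. -/
def CB (L : ℝ) : Set E3 := {x | ∀ i, 0 ≤ x i ∧ x i ≤ L}

theorem measurableSet_CB (L : ℝ) : MeasurableSet (CB L) := by
  have : CB L = ⋂ i, ({x : E3 | 0 ≤ x i} ∩ {x | x i ≤ L}) := by
    ext x; simp [CB]
  rw [this]
  exact MeasurableSet.iInter fun i => (measurableSet_le measurable_const (measurable_coord i)).inter
    (measurableSet_le (measurable_coord i) measurable_const)

theorem box_sub_CB (L : ℝ) : box L ⊆ CB L := fun _ hx i => ⟨(hx i).1, (hx i).2.le⟩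
theorem CB_sub_box (L : ℝ) : CB L ⊆ box (L + 1) := fun _ hx i => ⟨(hx i).1, by linarith [(hx i).2]⟩

theorem phi_measurable : Measurable phi := by
  unfold phi psi
  refine Measurable.sub ?_ ?_
  · exact (Measurable.ite (measurableSet_le measurable_id measurable_const) measurable_const
      measurable_const).const_mul AA
  · have h1 : ∀ n : ℕ, Measurable fun r : ℝ => ∑ j ∈ Finset.range n,
        (bs j * (ls j ^ 3)⁻¹) * (if r ≤ ls j then (1:ℝ) else 0) := fun n =>
      Finset.measurable_sum _ fun j _ => (Measurable.ite (measurableSet_le measurable_id measurable_const)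
        measurable_const measurable_const).const_mul _
    refine measurable_of_tendsto_metrizable h1 ?_
    rw [tendsto_pi_nhds]
    intro r
    exact (term_summable r).hasSum.tendsto_sum_nat

theorem energy_measurable (φ : ℝ → ℝ) (hφ : Measurable φ) (N : ℕ) :
    Measurable fun x : Fin N → E3 => ∑ i, ∑ j ∈ Finset.Ioi i, φ (dist (x i) (x j)) := by
  refine Finset.measurable_sum _ fun i _ => Finset.measurable_sum _ fun j _ => ?_
  exact hφ.comp ((measurable_pi_apply i).dist (measurable_pi_apply j))

theorem Zc_CB_ne_top (μ L : ℝ) (hL : 0 ≤ L) :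
    GI (CB L) (Wt (pot AA wi) μ) ≠ ⊤ := by
  have h1 : GI (CB L) (Wt (pot AA wi) μ) ≤ Xi AA wi μ (L + 1) := GI_mono (CB_sub_box L) fun _ _ => le_rfl
  exact ne_top_of_le_ne_top (Xi_ne_top att_wi AA_pos hk54 (by linarith) μ) h1

theorem Z_bridge {z : ℝ} (hz : 0 < z) (L : ℝ) (N : ℕ) :
    (Zc (CB L) (Wt (pot AA wi) (Real.log z)) N).toReal
      = z ^ N * (((N.factorial : ℕ) : ℝ)⁻¹ * ∫ x in {x : Fin N → E3 | ∀ i k, 0 ≤ x i k ∧ x i k ≤ L},
          Real.exp (-1 * ∑ i, ∑ j ∈ Finset.Ioi i, phi (dist (x i) (x j)))) := by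
  set S : Set (Fin N → E3) := {x : Fin N → E3 | ∀ i k, 0 ≤ x i k ∧ x i k ≤ L} with hS
  have hSm : MeasurableSet S := by
    have : S = ⋂ i, (fun x : Fin N → E3 => x i) ⁻¹' CB L := by
      ext x; simp [hS, CB]
    rw [this]
    exact MeasurableSet.iInter fun i => (measurable_pi_apply i) (measurableSet_CB L)
  have hmeas := energy_measurable phi phi_measurable N
  rw [integral_eq_lintegral_of_nonneg_ae (Filter.Eventually.of_forall fun x => (Real.exp_pos _).le)
    (Real.measurable_exp.comp (hmeas.const_mul (-1))).aestronglyMeasurable]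
  unfold Zc
  have h1 : ∫⁻ x : Fin N → E3, ind (CB L) x * Wt (pot AA wi) (Real.log z) (ms x)
      = ENNReal.ofReal (z ^ N) * ∫⁻ x in S, ENNReal.ofReal
          (Real.exp (-1 * ∑ i, ∑ j ∈ Finset.Ioi i, phi (dist (x i) (x j)))) := by
    have hg : Measurable fun x : Fin N → E3 => ENNReal.ofReal
        (Real.exp (-1 * ∑ i, ∑ j ∈ Finset.Ioi i, phi (dist (x i) (x j)))) :=
      ENNReal.measurable_ofReal.comp (Real.measurable_exp.comp (hmeas.const_mul (-1)))
    rw [← lintegral_const_mul _ hg, ← lintegral_indicator hSm]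
    refine lintegral_congr fun x => ?_
    by_cases hx : x ∈ S
    · rw [Set.indicator_of_mem hx]
      have h2 : ind (CB L) x = 1 := by
        unfold ind
        exact Finset.prod_eq_one fun i _ => Set.indicator_of_mem (show x i ∈ CB L from hx i) _
      rw [h2, one_mul, energy_bridge]
      unfold Wt
      rw [ms_card, Fintype.card_fin, ← ENNReal.ofReal_mul (by positivity)]
      congr 1
      have h3 : z ^ N = Real.exp (Real.log z * N) := by
        rw [mul_comm, Real.exp_nat_mul, Real.exp_log hz]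
      rw [h3, ← Real.exp_add]
      congr 1
      have h4 : pot AA wi = fun a b => phi (dist a b) := by
        funext a b; exact pot_eq a b
      rw [h4]; ring
    · rw [Set.indicator_of_notMem hx]
      have h2 : ind (CB L) x = 0 := by
        rw [hS, Set.mem_ofPred_eq] at hx
        push Not at hx
        obtain ⟨i, k, hik⟩ := hx
        unfold ind
        refine Finset.prod_eq_zero (Finset.mem_univ i) (Set.indicator_of_notMem ?_ _)
        intro hc
        exact absurd (hc k).2 (not_le.mpr (hik (hc k).1))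
      rw [h2, zero_mul]
  rw [h1, ENNReal.toReal_mul, ENNReal.toReal_mul, ENNReal.toReal_ofReal (by positivity),
    ENNReal.toReal_inv, ENNReal.toReal_natCast]
  ring

theorem summable_bridge {z : ℝ} (hz : 0 < z) {L : ℝ} (hL : 0 ≤ L) :
    Summable fun N : ℕ => z ^ N * (((N.factorial : ℕ) : ℝ)⁻¹ *
      ∫ x in {x : Fin N → E3 | ∀ i k, 0 ≤ x i k ∧ x i k ≤ L},
          Real.exp (-1 * ∑ i, ∑ j ∈ Finset.Ioi i, phi (dist (x i) (x j)))) := by
  simp_rw [← Z_bridge hz L]
  exact ENNReal.summable_toReal (Zc_CB_ne_top (Real.log z) L hL)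

theorem tsum_bridge {z : ℝ} (hz : 0 < z) {L : ℝ} (hL : 0 ≤ L) :
    ∑' N : ℕ, z ^ N * (((N.factorial : ℕ) : ℝ)⁻¹ *
      ∫ x in {x : Fin N → E3 | ∀ i k, 0 ≤ x i k ∧ x i k ≤ L},
          Real.exp (-1 * ∑ i, ∑ j ∈ Finset.Ioi i, phi (dist (x i) (x j))))
      = (GI (CB L) (Wt (pot AA wi) (Real.log z))).toReal := by
  simp_rw [← Z_bridge hz L]
  unfold GI
  rw [ENNReal.tsum_toReal_eq]
  intro n
  exact ne_top_of_le_ne_top (Zc_CB_ne_top (Real.log z) L hL) (ENNReal.le_tsum n)

theorem limit_bridge {z : ℝ} (hz : 0 < z) :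
    Tendsto (fun L : ℝ => (L ^ 3)⁻¹ * Real.log (∑' N : ℕ, z ^ N * (((N.factorial : ℕ) : ℝ)⁻¹ *
      ∫ x in {x : Fin N → E3 | ∀ i k, 0 ≤ x i k ∧ x i k ≤ L},
          Real.exp (-1 * ∑ i, ∑ j ∈ Finset.Ioi i, phi (dist (x i) (x j)))))) atTop
      (𝓝 (Pi_ (Real.log z))) := by
  have T1 := Pr_tendsto att_wi wi_tinv AA_pos hk54 (Real.log z)
  have T2 : Tendsto (fun L : ℝ => lf AA wi (Real.log z) (L + 1) / L ^ 3) atTop
      (𝓝 (Pr AA wi (Real.log z))) := by
    have h1 : Tendsto (fun L : ℝ => lf AA wi (Real.log z) (L + 1) / (L + 1) ^ 3) atTop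
        (𝓝 (Pr AA wi (Real.log z))) := T1.comp (tendsto_atTop_add_const_right _ 1 tendsto_id)
    have h2 : Tendsto (fun L : ℝ => ((L + 1) / L) ^ 3) atTop (𝓝 (1 ^ 3)) := by
      refine Tendsto.pow ?_ 3
      have h2 : Tendsto (fun L : ℝ => 1 + 1 / L) atTop (𝓝 (1 + 0)) :=
        tendsto_const_nhds.add (tendsto_const_nhds.div_atTop tendsto_id)
      rw [add_zero] at h2
      refine h2.congr' ?_
      filter_upwards [eventually_gt_atTop 0] with L hL
      field_simp
    have h3 := h1.mul h2
    rw [one_pow, mul_one] at h3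
    refine h3.congr' ?_
    filter_upwards [eventually_gt_atTop 0] with L hL
    field_simp
  refine tendsto_of_tendsto_of_tendsto_of_le_of_le' T1 T2 ?_ ?_
  · filter_upwards [eventually_gt_atTop 0] with L hL
    rw [tsum_bridge hz hL.le, ← div_eq_inv_mul]
    have h1 := ENNReal.toReal_mono (Zc_CB_ne_top (Real.log z) L hL.le)
      (GI_mono (G := Wt (pot AA wi) (Real.log z)) (box_sub_CB L) fun _ _ => le_rfl)
    have h0 : 1 ≤ (GI (box L) (Wt (pot AA wi) (Real.log z))).toReal :=
      one_le_Xi_toReal att_wi AA_pos hk54 hL.le (Real.log z)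
    have h2 := Real.log_le_log (by linarith) h1
    unfold lf Xi
    gcongr
  · filter_upwards [eventually_gt_atTop 0] with L hL
    rw [tsum_bridge hz hL.le, ← div_eq_inv_mul]
    have h1 := ENNReal.toReal_mono (Xi_ne_top att_wi AA_pos hk54 (by linarith) (Real.log z))
      (GI_mono (G := Wt (pot AA wi) (Real.log z)) (CB_sub_box L) fun _ _ => le_rfl)
    have h3 : 1 ≤ (GI (CB L) (Wt (pot AA wi) (Real.log z))).toReal := by
      have := ENNReal.toReal_mono (Zc_CB_ne_top (Real.log z) L hL.le)
        (one_le_GI (A := CB L) (Wt_zero (pot AA wi) (Real.log z)))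
      simpa using this
    have h2 := Real.log_le_log (by linarith) h1
    unfold lf
    gcongr

theorem psi_nonneg (r : ℝ) : 0 ≤ psi r := tsum_nonneg fun j => term_nonneg j r

theorem psi_le (r : ℝ) : psi r ≤ ∑' j, bs j :=
  (term_summable r).tsum_le_tsum (fun j => term_le j r) bs_summable

theorem phi_abs_le (r : ℝ) : |phi r| ≤ AA + ∑' j, bs j := by
  unfold phi
  have h1 := psi_nonneg r
  have h2 := psi_le r
  have h3 := AA_pos
  rw [abs_le]
  split_ifs <;> constructor <;> linarith

theorem phi_stable {N : ℕ} (x : Fin N → E3) :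
    -(AA / 2) * N ≤ ∑ i, ∑ j ∈ Finset.Ioi i, phi (dist (x i) (x j)) := by
  rw [energy_bridge]
  have h4 : pot AA wi = fun a b => phi (dist a b) := by
    funext a b; exact pot_eq a b
  rw [← h4]
  have h1 := superstable att_wi AA_pos.le hk54 (ms x)
  rw [ms_card, Fintype.card_fin] at h1
  have h2 := SQ_nonneg (ms x)
  have h3 := AA_pos
  nlinarith

theorem phi_nonpos {r : ℝ} (hr : 3 ≤ r) : phi r ≤ 0 := by
  unfold phi
  rw [if_neg (by linarith)]
  have := psi_nonneg r
  linarith

theorem ball_piece_integrable (r : ℝ) :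
    Integrable fun x : E3 => (if ‖x‖ ≤ r then (1:ℝ) else 0) := by
  have h1 : (fun x : E3 => (if ‖x‖ ≤ r then (1:ℝ) else 0))
      = (Metric.closedBall (0 : E3) r).indicator fun _ => (1:ℝ) := by
    funext x
    by_cases h : ‖x‖ ≤ r
    · rw [if_pos h, Set.indicator_of_mem (by simpa using h)]
    · rw [if_neg h, Set.indicator_of_notMem (by simpa using h)]
  rw [h1]
  refine (integrable_indicator_iff measurableSet_closedBall).mpr ?_
  exact integrableOn_const (measure_closedBall_lt_top.ne) (by simp)

theorem phi_integrable : Integrable fun x : E3 => phi ‖x‖ := by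
  unfold phi
  refine Integrable.sub ((ball_piece_integrable 2).const_mul AA) ?_
  refine ⟨?_, ?_⟩
  · have : Measurable psi := by
      have h0 := phi_measurable
      have h1 : psi = fun r => AA * (if r ≤ 2 then 1 else 0) - phi r := by
        funext r; unfold phi; ring
      rw [h1]
      exact ((Measurable.ite (measurableSet_le measurable_id measurable_const) measurable_const
        measurable_const).const_mul AA).sub h0
    exact (this.comp measurable_norm).aestronglyMeasurable
  · rw [hasFiniteIntegral_iff_ofReal (Filter.Eventually.of_forall fun x => psi_nonneg _)]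
    have h1 : ∀ x : E3, ENNReal.ofReal (psi ‖x‖)
        = ∑' j, ENNReal.ofReal ((bs j * (ls j ^ 3)⁻¹) * (if ‖x‖ ≤ ls j then (1:ℝ) else 0)) := fun x =>
      ENNReal.ofReal_tsum_of_nonneg (fun j => term_nonneg j _) (term_summable _)
    simp_rw [h1]
    rw [lintegral_tsum]
    · have h2 : ∀ j, ∫⁻ x : E3, ENNReal.ofReal ((bs j * (ls j ^ 3)⁻¹) * (if ‖x‖ ≤ ls j then (1:ℝ) else 0))
          = ENNReal.ofReal (bs j * (Real.pi * 4 / 3)) := by
        intro j
        have hl := ls_ge j
        have hl0 : 0 < ls j := by linarith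
        have h3 : ∀ x : E3, ENNReal.ofReal ((bs j * (ls j ^ 3)⁻¹) * (if ‖x‖ ≤ ls j then (1:ℝ) else 0))
            = (Metric.closedBall (0 : E3) (ls j)).indicator
              (fun _ => ENNReal.ofReal (bs j * (ls j ^ 3)⁻¹)) x := by
          intro x
          by_cases h : ‖x‖ ≤ ls j
          · rw [if_pos h, Set.indicator_of_mem (by simpa using h), mul_one]
          · rw [if_neg h, Set.indicator_of_notMem (by simpa using h), mul_zero, ENNReal.ofReal_zero]
        simp_rw [h3]
        rw [lintegral_indicator measurableSet_closedBall, setLIntegral_const, ball_vol _ hl0.le,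
          ← ENNReal.ofReal_mul (cj_nonneg j)]
        congr 1
        field_simp
      simp_rw [h2]
      rw [← ENNReal.ofReal_tsum_of_nonneg]
      · exact ENNReal.ofReal_lt_top
      · intro j
        have := bs_pos j
        positivity
      · exact bs_summable.mul_right _
    · intro j
      refine (ENNReal.measurable_ofReal.comp (Measurable.const_mul ?_ _)).aemeasurable
      exact Measurable.ite (measurableSet_le measurable_norm measurable_const) measurable_const
        measurable_const

theorem integrableOn_bridge (L : ℝ) (hL : 0 ≤ L) (N : ℕ) :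
    IntegrableOn (fun x : Fin N → E3 =>
      Real.exp (-1 * ∑ i, ∑ j ∈ Finset.Ioi i, phi (dist (x i) (x j))))
      {x : Fin N → E3 | ∀ i k, 0 ≤ x i k ∧ x i k ≤ L} := by
  have hmeas := energy_measurable phi phi_measurable N
  refine Measure.integrableOn_of_bounded (M := Real.exp (AA / 2 * N)) ?_ ?_ ?_
  · refine ne_top_of_le_ne_top ?_ (measure_mono (show _ ⊆ Set.univ.pi fun _ : Fin N => CB L from
      fun x hx i _ => hx i))
    rw [volume_pi, Measure.pi_pi]
    refine ENNReal.prod_ne_top fun i _ => ?_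
    refine ne_top_of_le_ne_top ?_ (measure_mono (CB_sub_box L))
    rw [volume_box _ (by linarith)]
    exact ENNReal.ofReal_ne_top
  · exact (Real.measurable_exp.comp (hmeas.const_mul (-1))).aestronglyMeasurable
  · refine Filter.Eventually.of_forall fun x => ?_
    rw [Real.norm_eq_abs, abs_of_pos (Real.exp_pos _)]
    refine Real.exp_le_exp.mpr ?_
    have := phi_stable x
    linarith

end Vale.Agent.P171
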