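import Mathlib

open MeasureTheory ENNReal Finset

namespace Vale.Agent.P171

/-- The multiset of values of a finite family. -/
def ms {X : Type} {ι : Type} [Fintype ι] (x : ι → X) : Multiset X := Finset.univ.val.map x

section Config
variable {X : Type} [MeasureSpace X] [SigmaFinite (volume : Measure X)]

/-- Product of indicator functions. -/
noncomputable def ind (A : Set X) {ι : Type} [Fintype ι] (x : ι → X) : ℝ≥0∞ :=
  ∏ i, A.indicator (fun _ => (1 : ℝ≥0∞)) (x i)

/-- Measurability of a weight on configurations. -/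
def MeasF (F : Multiset X → ℝ≥0∞) : Prop := ∀ n : ℕ, Measurable fun x : Fin n → X => F (ms x)

/-- Canonical integral. -/
noncomputable def Zc (A : Set X) (F : Multiset X → ℝ≥0∞) (n : ℕ) : ℝ≥0∞ :=
  ((n.factorial : ℝ≥0∞))⁻¹ * ∫⁻ x : Fin n → X, ind A x * F (ms x)

/-- Grand canonical integral. -/
noncomputable def GI (A : Set X) (F : Multiset X → ℝ≥0∞) : ℝ≥0∞ := ∑' n, Zc A F n

/-- Two-block integral. -/
noncomputable def TT (A B : Set X) (F : Multiset X → ℝ≥0∞) (k l : ℕ) : ℝ≥0∞ :=
  ∫⁻ p : (Fin k → X) × (Fin l → X), ind A p.1 * ind B p.2 * F (ms p.1 + ms p.2)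

omit [MeasureSpace X] [SigmaFinite (volume : Measure X)] in
theorem ms_sum_elim {ι κ : Type} [Fintype ι] [Fintype κ] (x : ι → X) (y : κ → X) :
    ms (Sum.elim x y) = ms x + ms y := by
  unfold ms
  have : (Finset.univ : Finset (ι ⊕ κ)).val
      = (Finset.univ : Finset ι).val.map Sum.inl + (Finset.univ : Finset κ).val.map Sum.inr := by
    rw [← Finset.univ_disjSum_univ]
    rfl
  rw [this, Multiset.map_add, Multiset.map_map, Multiset.map_map]
  rfl

omit [MeasureSpace X] [SigmaFinite (volume : Measure X)] in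
theorem ms_comp_equiv {ι κ : Type} [Fintype ι] [Fintype κ] (x : ι → X) (e : κ ≃ ι) :
    ms (x ∘ e) = ms x := by
  unfold ms
  have : (Finset.univ : Finset ι).val = (Finset.univ : Finset κ).val.map e := by
    have := Finset.map_univ_equiv e
    rw [← this]
    rfl
  rw [this, Multiset.map_map]

omit [SigmaFinite (volume : Measure X)] in
theorem measurable_ind {A : Set X} (hA : MeasurableSet A) {ι : Type} [Fintype ι] :
    Measurable fun x : ι → X => ind A x := by
  unfold ind
  refine Finset.measurable_prod _ fun i _ => ?_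
  exact (measurable_const.indicator hA).comp (measurable_pi_apply i)

omit [SigmaFinite (volume : Measure X)] in
theorem MeasF.general {F : Multiset X → ℝ≥0∞} (hF : MeasF F) {ι : Type} [Fintype ι] :
    Measurable fun x : ι → X => F (ms x) := by
  classical
  let e : Fin (Fintype.card ι) ≃ ι := (Fintype.equivFin ι).symm
  have h1 : (fun x : ι → X => F (ms x)) = fun x => F (ms (x ∘ e)) := by
    funext x; rw [ms_comp_equiv]
  rw [h1]
  refine (hF _).comp ?_
  exact measurable_pi_lambda _ fun i => measurable_pi_apply _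

omit [SigmaFinite (volume : Measure X)] in
theorem MeasF.prod {F : Multiset X → ℝ≥0∞} (hF : MeasF F) {ι κ : Type} [Fintype ι] [Fintype κ] :
    Measurable fun p : (ι → X) × (κ → X) => F (ms p.1 + ms p.2) := by
  have h1 : (fun p : (ι → X) × (κ → X) => F (ms p.1 + ms p.2))
      = (fun x : ι ⊕ κ → X => F (ms x)) ∘ fun p => Sum.elim p.1 p.2 := by
    funext p; simp [ms_sum_elim]
  rw [h1]
  refine hF.general.comp ?_
  refine measurable_pi_lambda _ fun i => ?_
  rcases i with i | i
  · exact (measurable_pi_apply i).comp measurable_fst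
  · exact (measurable_pi_apply i).comp measurable_snd

/-- Integration over a family indexed by `Fin N` split along an equivalence. -/
theorem lintegral_split {N k l : ℕ} (e : Fin k ⊕ Fin l ≃ Fin N) (g : (Fin N → X) → ℝ≥0∞)
    (_hg : Measurable g) :
    ∫⁻ x : Fin N → X, g x
      = ∫⁻ p : (Fin k → X) × (Fin l → X), g (Sum.elim p.1 p.2 ∘ e.symm) := by
  have h1 := (volume_measurePreserving_piCongrLeft (fun _ : Fin N => X) e).lintegral_comp_emb
    (MeasurableEquiv.measurableEmbedding _) g
  have h2 := (volume_measurePreserving_sumPiEquivProdPi_symm (fun _ : Fin k ⊕ Fin l => X)).lintegral_comp_emb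
    (MeasurableEquiv.measurableEmbedding _)
    (fun y => g (MeasurableEquiv.piCongrLeft (fun _ : Fin N => X) e y))
  rw [← h1, ← h2]
  refine lintegral_congr fun p => ?_
  congr 1
  funext i
  obtain ⟨j, rfl⟩ := e.surjective i
  rw [MeasurableEquiv.coe_piCongrLeft, Equiv.piCongrLeft_apply_apply]
  simp only [Function.comp, Equiv.symm_apply_apply]
  rcases j with j | j <;> rfl

omit [MeasureSpace X] [SigmaFinite (volume : Measure X)] in
theorem ind_union {A B : Set X} (hd : Disjoint A B) {N : ℕ} (x : Fin N → X) :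
    ind (A ∪ B) x = ∑ S ∈ (Finset.univ : Finset (Fin N)).powerset,
      (∏ i ∈ S, A.indicator (fun _ => (1 : ℝ≥0∞)) (x i))
        * ∏ i ∈ Finset.univ \ S, B.indicator (fun _ => (1 : ℝ≥0∞)) (x i) := by
  unfold ind
  rw [← Finset.prod_add]
  refine Finset.prod_congr rfl fun i _ => ?_
  rw [Set.indicator_union_of_disjoint hd]

theorem Zc_split {A B : Set X} (hA : MeasurableSet A) (hB : MeasurableSet B) (hd : Disjoint A B)
    {F : Multiset X → ℝ≥0∞} (hF : MeasF F) (N : ℕ) :
    Zc (A ∪ B) F N = ∑ p ∈ Finset.HasAntidiagonal.antidiagonal N,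
      ((p.1.factorial : ℝ≥0∞)⁻¹ * (p.2.factorial : ℝ≥0∞)⁻¹) * TT A B F p.1 p.2 := by
  classical
  unfold Zc
  have h1 : ∫⁻ x : Fin N → X, ind (A ∪ B) x * F (ms x)
      = ∑ S ∈ (Finset.univ : Finset (Fin N)).powerset, TT A B F S.card (N - S.card) := by
    have : ∀ x : Fin N → X, ind (A ∪ B) x * F (ms x)
        = ∑ S ∈ (Finset.univ : Finset (Fin N)).powerset,
          ((∏ i ∈ S, A.indicator (fun _ => (1 : ℝ≥0∞)) (x i))
          * ∏ i ∈ Finset.univ \ S, B.indicator (fun _ => (1 : ℝ≥0∞)) (x i)) * F (ms x) := by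
      intro x
      rw [ind_union hd, Finset.sum_mul]
    simp_rw [this]
    rw [lintegral_finsetSum]
    · refine Finset.sum_congr rfl fun S _ => ?_
      have hc : (Sᶜ).card = N - S.card := by
        rw [Finset.card_compl, Fintype.card_fin]
      let e := finSumEquivOfFinset (s := S) rfl hc
      rw [lintegral_split e]
      · unfold TT
        refine lintegral_congr fun p => ?_
        rw [ms_comp_equiv, ms_sum_elim]
        congr 1
        have hS : S = Finset.univ.map ⟨fun j => e (Sum.inl j), e.injective.comp Sum.inl_injective⟩ := by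
          ext i
          simp only [Finset.mem_map, Finset.mem_univ, Function.Embedding.coeFn_mk, true_and]
          constructor
          · intro hi
            obtain ⟨j, hj⟩ := e.surjective i
            rcases j with j | j
            · exact ⟨j, hj⟩
            · exfalso
              have h3 : e (Sum.inr j) ∈ Sᶜ := by
                simp only [e, finSumEquivOfFinset_inr]
                exact Finset.orderEmbOfFin_mem _ _ _
              rw [hj] at h3
              exact (Finset.mem_compl.mp h3) hi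
          · rintro ⟨j, rfl⟩
            simp only [e, finSumEquivOfFinset_inl]
            exact Finset.orderEmbOfFin_mem _ _ _
        have hSc : Finset.univ \ S = Finset.univ.map ⟨fun j => e (Sum.inr j), e.injective.comp Sum.inr_injective⟩ := by
          ext i
          simp only [Finset.mem_map, Finset.mem_univ, Function.Embedding.coeFn_mk, true_and, Finset.mem_sdiff]
          constructor
          · intro hi
            obtain ⟨j, hj⟩ := e.surjective i
            rcases j with j | j
            · exfalso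
              have h3 : e (Sum.inl j) ∈ S := by
                simp only [e, finSumEquivOfFinset_inl]
                exact Finset.orderEmbOfFin_mem _ _ _
              rw [hj] at h3
              exact hi h3
            · exact ⟨j, hj⟩
          · rintro ⟨j, rfl⟩
            simp only [e, finSumEquivOfFinset_inr]
            exact Finset.mem_compl.mp (Finset.orderEmbOfFin_mem _ _ _)
        have key1 : ∀ f : Fin N → ℝ≥0∞, ∏ i ∈ S, f i = ∏ j, f (e (Sum.inl j)) := by
          intro f
          have := Finset.prod_map Finset.univ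
            (⟨fun j => e (Sum.inl j), e.injective.comp Sum.inl_injective⟩ : Fin S.card ↪ Fin N) f
          rw [← hS] at this
          exact this
        have key2 : ∀ f : Fin N → ℝ≥0∞, ∏ i ∈ Finset.univ \ S, f i = ∏ j, f (e (Sum.inr j)) := by
          intro f
          have := Finset.prod_map Finset.univ
            (⟨fun j => e (Sum.inr j), e.injective.comp Sum.inr_injective⟩ : Fin (N - S.card) ↪ Fin N) f
          rw [← hSc] at this
          exact this
        rw [key1, key2]
        simp [ind]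
      · refine Measurable.mul (Measurable.mul ?_ ?_) (hF N)
        · refine Finset.measurable_prod _ fun i _ => ?_
          exact (measurable_const.indicator hA).comp (measurable_pi_apply i)
        · refine Finset.measurable_prod _ fun i _ => ?_
          exact (measurable_const.indicator hB).comp (measurable_pi_apply i)
    · intro S _
      refine Measurable.mul (Measurable.mul ?_ ?_) (hF N)
      · refine Finset.measurable_prod _ fun i _ => ?_
        exact (measurable_const.indicator hA).comp (measurable_pi_apply i)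
      · refine Finset.measurable_prod _ fun i _ => ?_
        exact (measurable_const.indicator hB).comp (measurable_pi_apply i)
  rw [h1, Finset.sum_powerset_apply_card (fun k => TT A B F k (N - k)), Finset.card_univ,
    Fintype.card_fin, Finset.mul_sum, Finset.Nat.sum_antidiagonal_eq_sum_range_succ_mk]
  refine Finset.sum_congr rfl fun k hk => ?_
  have hk' : k ≤ N := by
    have := Finset.mem_range.mp hk
    omega
  rw [nsmul_eq_mul, ← mul_assoc]
  congr 1
  have h2 : (N.choose k : ℝ≥0∞) * (k.factorial * (N - k).factorial) = N.factorial := by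
    have := Nat.choose_mul_factorial_mul_factorial hk'
    rw [← this]
    push_cast
    ring
  have hk0 : (k.factorial : ℝ≥0∞) ≠ 0 := by exact_mod_cast k.factorial_ne_zero
  have hl0 : ((N - k).factorial : ℝ≥0∞) ≠ 0 := by exact_mod_cast (N-k).factorial_ne_zero
  have hN0 : (N.factorial : ℝ≥0∞) ≠ 0 := by exact_mod_cast N.factorial_ne_zero
  rw [← ENNReal.mul_inv (Or.inl hk0) (Or.inl (natCast_ne_top _)), ← h2,
    ENNReal.mul_inv (Or.inr (ENNReal.mul_ne_top (natCast_ne_top _) (natCast_ne_top _)))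
      (Or.inl (natCast_ne_top _)), mul_right_comm,
    ENNReal.inv_mul_cancel (by exact_mod_cast (Nat.choose_pos hk').ne') (natCast_ne_top _), one_mul]

theorem tsum_antidiag (h : ℕ → ℕ → ℝ≥0∞) :
    ∑' N, ∑ p ∈ Finset.HasAntidiagonal.antidiagonal N, h p.1 p.2 = ∑' k, ∑' l, h k l := by
  rw [← ENNReal.tsum_prod, ← (Finset.HasAntidiagonal.sigmaAntidiagonalEquivProd (A := ℕ)).tsum_eq,
    ENNReal.tsum_sigma']
  refine tsum_congr fun N => ?_
  rw [tsum_fintype]
  exact (Finset.sum_finset_coe (fun p : ℕ × ℕ => h p.1 p.2)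
    (Finset.HasAntidiagonal.antidiagonal N)).symm

omit [MeasureSpace X] [SigmaFinite (volume : Measure X)] in
theorem ind_eq_zero_or {A : Set X} {ι : Type} [Fintype ι] (x : ι → X) :
    (ind A x = 1 ∧ ∀ a ∈ ms x, a ∈ A) ∨ ind A x = 0 := by
  classical
  by_cases h : ∀ i, x i ∈ A
  · left
    refine ⟨?_, ?_⟩
    · unfold ind
      exact Finset.prod_eq_one fun i _ => Set.indicator_of_mem (h i) _
    · intro a ha
      unfold ms at ha
      rw [Multiset.mem_map] at ha
      obtain ⟨i, _, rfl⟩ := ha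
      exact h i
  · right
    push Not at h
    obtain ⟨i, hi⟩ := h
    unfold ind
    exact Finset.prod_eq_zero (Finset.mem_univ i) (Set.indicator_of_notMem hi _)

omit [MeasureSpace X] [SigmaFinite (volume : Measure X)] in
theorem ms_card {ι : Type} [Fintype ι] (x : ι → X) : (ms x).card = Fintype.card ι := by
  unfold ms
  rw [Multiset.card_map]; rfl

/-- Integral of a weight over `n`-point configurations in `A`. -/
noncomputable def Ic (A : Set X) (F : Multiset X → ℝ≥0∞) (n : ℕ) : ℝ≥0∞ :=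
  ∫⁻ x : Fin n → X, ind A x * F (ms x)

theorem TT_prod {A B : Set X} (hA : MeasurableSet A) (hB : MeasurableSet B)
    {G H : Multiset X → ℝ≥0∞} (hG : MeasF G) (hH : MeasF H) (k l : ℕ) :
    ∫⁻ p : (Fin k → X) × (Fin l → X), ind A p.1 * ind B p.2 * (G (ms p.1) * H (ms p.2))
      = Ic A G k * Ic B H l := by
  unfold Ic
  rw [← lintegral_prod_mul]
  · refine lintegral_congr fun p => ?_
    ring
  · exact ((measurable_ind hA).mul (hG k)).aemeasurable
  · exact ((measurable_ind hB).mul (hH l)).aemeasurable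

theorem TT_ge {A B : Set X} (hA : MeasurableSet A) (hB : MeasurableSet B)
    {F G H : Multiset X → ℝ≥0∞} (hG : MeasF G) (hH : MeasF H)
    (h : ∀ m₁ m₂ : Multiset X, (∀ a ∈ m₁, a ∈ A) → (∀ b ∈ m₂, b ∈ B) → G m₁ * H m₂ ≤ F (m₁ + m₂))
    (k l : ℕ) : Ic A G k * Ic B H l ≤ TT A B F k l := by
  rw [← TT_prod hA hB hG hH]
  refine lintegral_mono fun p => ?_
  rcases ind_eq_zero_or (A := A) p.1 with ⟨h1, h2⟩ | h1
  · rcases ind_eq_zero_or (A := B) p.2 with ⟨h3, h4⟩ | h3
    · gcongr
      exact h _ _ h2 h4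
    · simp [h3]
  · simp [h1]

theorem TT_le {A B : Set X} (hA : MeasurableSet A) (hB : MeasurableSet B)
    {F G H : Multiset X → ℝ≥0∞} (hG : MeasF G) (hH : MeasF H)
    (h : ∀ m₁ m₂ : Multiset X, (∀ a ∈ m₁, a ∈ A) → (∀ b ∈ m₂, b ∈ B) → F (m₁ + m₂) ≤ G m₁ * H m₂)
    (k l : ℕ) : TT A B F k l ≤ Ic A G k * Ic B H l := by
  rw [← TT_prod hA hB hG hH]
  refine lintegral_mono fun p => ?_
  rcases ind_eq_zero_or (A := A) p.1 with ⟨h1, h2⟩ | h1
  · rcases ind_eq_zero_or (A := B) p.2 with ⟨h3, h4⟩ | h3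
    · gcongr
      exact h _ _ h2 h4
    · simp [h3]
  · simp [h1]

theorem GI_mul {A B : Set X} {G H : Multiset X → ℝ≥0∞} :
    GI A G * GI B H = ∑' k, ∑' l, ((k.factorial : ℝ≥0∞)⁻¹ * (l.factorial : ℝ≥0∞)⁻¹) *
      (Ic A G k * Ic B H l) := by
  unfold GI Zc
  rw [← ENNReal.tsum_mul_right]
  refine tsum_congr fun k => ?_
  rw [← ENNReal.tsum_mul_left]
  refine tsum_congr fun l => ?_
  unfold Ic
  ring

theorem GI_split {A B : Set X} (hA : MeasurableSet A) (hB : MeasurableSet B) (hd : Disjoint A B)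
    {F : Multiset X → ℝ≥0∞} (hF : MeasF F) :
    GI (A ∪ B) F = ∑' k, ∑' l,
      ((k.factorial : ℝ≥0∞)⁻¹ * (l.factorial : ℝ≥0∞)⁻¹) * TT A B F k l := by
  unfold GI
  rw [← tsum_antidiag]
  exact tsum_congr fun N => Zc_split hA hB hd hF N

theorem GI_ge {A B : Set X} (hA : MeasurableSet A) (hB : MeasurableSet B) (hd : Disjoint A B)
    {F G H : Multiset X → ℝ≥0∞} (hF : MeasF F) (hG : MeasF G) (hH : MeasF H)
    (h : ∀ m₁ m₂ : Multiset X, (∀ a ∈ m₁, a ∈ A) → (∀ b ∈ m₂, b ∈ B) → G m₁ * H m₂ ≤ F (m₁ + m₂)) :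
    GI A G * GI B H ≤ GI (A ∪ B) F := by
  rw [GI_mul, GI_split hA hB hd hF]
  refine ENNReal.tsum_le_tsum fun k => ENNReal.tsum_le_tsum fun l => ?_
  gcongr
  exact TT_ge hA hB hG hH h k l

theorem GI_le {A B : Set X} (hA : MeasurableSet A) (hB : MeasurableSet B) (hd : Disjoint A B)
    {F G H : Multiset X → ℝ≥0∞} (hF : MeasF F) (hG : MeasF G) (hH : MeasF H)
    (h : ∀ m₁ m₂ : Multiset X, (∀ a ∈ m₁, a ∈ A) → (∀ b ∈ m₂, b ∈ B) → F (m₁ + m₂) ≤ G m₁ * H m₂) :
    GI (A ∪ B) F ≤ GI A G * GI B H := by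
  rw [GI_mul, GI_split hA hB hd hF]
  refine ENNReal.tsum_le_tsum fun k => ENNReal.tsum_le_tsum fun l => ?_
  gcongr
  exact TT_le hA hB hG hH h k l

theorem Zc_ge {A B : Set X} (hA : MeasurableSet A) (hB : MeasurableSet B) (hd : Disjoint A B)
    {F G H : Multiset X → ℝ≥0∞} (hF : MeasF F) (hG : MeasF G) (hH : MeasF H)
    (h : ∀ m₁ m₂ : Multiset X, (∀ a ∈ m₁, a ∈ A) → (∀ b ∈ m₂, b ∈ B) → G m₁ * H m₂ ≤ F (m₁ + m₂))
    (k l : ℕ) :
    Zc A G k * Zc B H l ≤ Zc (A ∪ B) F (k + l) := by
  rw [Zc_split hA hB hd hF]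
  have h1 : Zc A G k * Zc B H l
      = ((k.factorial : ℝ≥0∞)⁻¹ * (l.factorial : ℝ≥0∞)⁻¹) * (Ic A G k * Ic B H l) := by
    unfold Zc Ic; ring
  rw [h1]
  refine le_trans ?_ (Finset.single_le_sum (f := fun p : ℕ × ℕ =>
    ((p.1.factorial : ℝ≥0∞)⁻¹ * (p.2.factorial : ℝ≥0∞)⁻¹) * TT A B F p.1 p.2)
    (fun _ _ => bot_le) (show (k, l) ∈ _ from Finset.HasAntidiagonal.mem_antidiagonal.mpr rfl))
  simp only
  gcongr
  exact TT_ge hA hB hG hH h k l

/-! ### Finite unions -/

theorem GI_empty (F : Multiset X → ℝ≥0∞) : GI (∅ : Set X) F = F 0 := by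
  unfold GI Zc
  rw [tsum_eq_single 0]
  · have : ∀ x : Fin 0 → X, ind (∅ : Set X) x * F (ms x) = F 0 := by
      intro x
      simp [ind, ms]
    simp_rw [this]
    rw [lintegral_const]
    have h1 : (volume : Measure (Fin 0 → X)) Set.univ = 1 := by
      rw [MeasureTheory.volume_pi, Measure.pi_of_empty]
      simp
    rw [h1]; simp
  · intro n hn
    have : ∀ x : Fin n → X, ind (∅ : Set X) x * F (ms x) = 0 := by
      intro x
      have : ind (∅ : Set X) x = 0 := by
        unfold ind
        exact Finset.prod_eq_zero (Finset.mem_univ (⟨0, Nat.pos_of_ne_zero hn⟩ : Fin n)) (by simp)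
      simp [this]
    simp_rw [this]
    simp

theorem GI_mono {A B : Set X} {F G : Multiset X → ℝ≥0∞} (hAB : A ⊆ B)
    (h : ∀ m : Multiset X, (∀ a ∈ m, a ∈ A) → F m ≤ G m) : GI A F ≤ GI B G := by
  unfold GI Zc
  refine ENNReal.tsum_le_tsum fun n => ?_
  refine mul_le_mul' le_rfl ?_
  refine lintegral_mono fun x => ?_
  rcases ind_eq_zero_or (A := A) x with ⟨h1, h2⟩ | h1
  · have h3 : ind B x = 1 := by
      unfold ind
      refine Finset.prod_eq_one fun i _ => Set.indicator_of_mem (hAB (h2 _ ?_)) _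
      unfold ms
      exact Multiset.mem_map.mpr ⟨i, Finset.mem_univ i, rfl⟩
    rw [h1, h3]
    gcongr
    exact h _ h2
  · simp [h1]

theorem GI_union_ge {Q : Type} [DecidableEq Q] (A : Q → Set X) (hA : ∀ q, MeasurableSet (A q))
    (hd : ∀ q r, q ≠ r → Disjoint (A q) (A r))
    (F : Finset Q → Multiset X → ℝ≥0∞) (hF : ∀ S, MeasF (F S))
    (G : Q → Multiset X → ℝ≥0∞) (hG : ∀ q, MeasF (G q)) (h0 : 1 ≤ F ∅ 0)
    (h : ∀ (S : Finset Q) (q : Q), q ∉ S → ∀ m₁ m₂ : Multiset X, (∀ a ∈ m₁, a ∈ ⋃ r ∈ S, A r) →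
      (∀ b ∈ m₂, b ∈ A q) → F S m₁ * G q m₂ ≤ F (insert q S) (m₁ + m₂)) (S : Finset Q) :
    ∏ q ∈ S, GI (A q) (G q) ≤ GI (⋃ q ∈ S, A q) (F S) := by
  induction S using Finset.induction_on with
  | empty => simp [GI_empty, h0]
  | insert q S hq ih =>
    rw [Finset.prod_insert hq, Finset.set_biUnion_insert, Set.union_comm, mul_comm]
    refine le_trans (mul_le_mul' ih le_rfl) ?_
    refine GI_ge (Finset.measurableSet_biUnion _ fun r _ => hA r) (hA q) ?_ (hF _) (hF _) (hG _)
      (h S q hq)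
    rw [Set.disjoint_iUnion₂_left]
    intro r hr
    exact hd r q (by rintro rfl; exact hq hr)

theorem GI_union_le {Q : Type} [DecidableEq Q] (A : Q → Set X) (hA : ∀ q, MeasurableSet (A q))
    (hd : ∀ q r, q ≠ r → Disjoint (A q) (A r))
    (F : Multiset X → ℝ≥0∞) (hF : MeasF F) (h0 : F 0 ≤ 1)
    (h : ∀ (S : Finset Q) (q : Q), q ∉ S → ∀ m₁ m₂ : Multiset X, (∀ a ∈ m₁, a ∈ ⋃ r ∈ S, A r) →
      (∀ b ∈ m₂, b ∈ A q) → F (m₁ + m₂) ≤ F m₁ * F m₂) (S : Finset Q) :
    GI (⋃ q ∈ S, A q) F ≤ ∏ q ∈ S, GI (A q) F := by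
  induction S using Finset.induction_on with
  | empty => simp [GI_empty, h0]
  | insert q S hq ih =>
    rw [Finset.prod_insert hq, Finset.set_biUnion_insert, Set.union_comm, mul_comm]
    refine le_trans ?_ (mul_le_mul' ih le_rfl)
    refine GI_le (Finset.measurableSet_biUnion _ fun r _ => hA r) (hA q) ?_ hF hF hF
      (h S q hq)
    rw [Set.disjoint_iUnion₂_left]
    intro r hr
    exact hd r q (by rintro rfl; exact hq hr)

theorem Zc_union_ge {Q : Type} [DecidableEq Q] (A : Q → Set X) (hA : ∀ q, MeasurableSet (A q))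
    (hd : ∀ q r, q ≠ r → Disjoint (A q) (A r))
    (F : Finset Q → Multiset X → ℝ≥0∞) (hF : ∀ S, MeasF (F S))
    (G : Multiset X → ℝ≥0∞) (hG : MeasF G) (h0 : 1 ≤ F ∅ 0)
    (h : ∀ (S : Finset Q) (q : Q), q ∉ S → ∀ m₁ m₂ : Multiset X, (∀ a ∈ m₁, a ∈ ⋃ r ∈ S, A r) →
      (∀ b ∈ m₂, b ∈ A q) → F S m₁ * G m₂ ≤ F (insert q S) (m₁ + m₂)) (n : ℕ) (S : Finset Q) :
    ∏ q ∈ S, Zc (A q) G n ≤ Zc (⋃ q ∈ S, A q) (F S) (S.card * n) := by
  induction S using Finset.induction_on with
  | empty =>
    simp only [Finset.prod_empty, Finset.card_empty, zero_mul, Finset.notMem_empty,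
      Set.iUnion_of_empty, Set.iUnion_empty]
    unfold Zc
    have : ∀ x : Fin 0 → X, ind (∅ : Set X) x * F ∅ (ms x) = F ∅ 0 := by
      intro x
      simp [ind, ms]
    simp_rw [this]
    rw [lintegral_const]
    have h1 : (volume : Measure (Fin 0 → X)) Set.univ = 1 := by
      rw [MeasureTheory.volume_pi, Measure.pi_of_empty]
      simp
    rw [h1]; simpa using h0
  | insert q S hq ih =>
    rw [Finset.prod_insert hq, Finset.set_biUnion_insert, Set.union_comm, mul_comm,
      Finset.card_insert_of_notMem hq, add_mul, one_mul]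
    refine le_trans (mul_le_mul' ih le_rfl) ?_
    refine Zc_ge (Finset.measurableSet_biUnion _ fun r _ => hA r) (hA q) ?_ (hF _) (hF _) hG
      (h S q hq) _ _
    rw [Set.disjoint_iUnion₂_left]
    intro r hr
    exact hd r q (by rintro rfl; exact hq hr)


end Config
end Vale.Agent.P171
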