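import Vale.Agent.P171.Config

open MeasureTheory ENNReal Finset

namespace Vale.Agent.P171

section Energy
variable {X : Type}

/-- Double sum of a two-body function. -/
noncomputable def dS (u : X → X → ℝ) (m m' : Multiset X) : ℝ :=
  (m.map fun a => (m'.map fun b => u a b).sum).sum

/-- Diagonal sum. -/
noncomputable def dg (u : X → X → ℝ) (m : Multiset X) : ℝ := (m.map fun a => u a a).sum

/-- Pair energy. -/
noncomputable def En (u : X → X → ℝ) (m : Multiset X) : ℝ := (dS u m m - dg u m) / 2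

/-- Boltzmann weight. -/
noncomputable def Wt (u : X → X → ℝ) (μ : ℝ) (m : Multiset X) : ℝ≥0∞ :=
  ENNReal.ofReal (Real.exp (μ * m.card - En u m))

theorem dS_add_left (u : X → X → ℝ) (m₁ m₂ m' : Multiset X) :
    dS u (m₁ + m₂) m' = dS u m₁ m' + dS u m₂ m' := by
  simp [dS]

theorem dS_add_right (u : X → X → ℝ) (m m₁ m₂ : Multiset X) :
    dS u m (m₁ + m₂) = dS u m m₁ + dS u m m₂ := by
  simp [dS, Multiset.sum_map_add]

theorem dg_add (u : X → X → ℝ) (m₁ m₂ : Multiset X) : dg u (m₁ + m₂) = dg u m₁ + dg u m₂ := by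
  simp [dg]

theorem dS_swap (u : X → X → ℝ) (hu : ∀ a b, u a b = u b a) (m m' : Multiset X) :
    dS u m m' = dS u m' m := by
  unfold dS
  rw [Multiset.sum_map_sum_map]
  simp_rw [hu]

theorem En_add (u : X → X → ℝ) (hu : ∀ a b, u a b = u b a) (m m' : Multiset X) :
    En u (m + m') = En u m + En u m' + dS u m m' := by
  unfold En
  rw [dS_add_left, dS_add_right, dS_add_right, dg_add, dS_swap u hu m' m]
  ring

theorem dS_le {u v : X → X → ℝ} {m m' : Multiset X} (h : ∀ a ∈ m, ∀ b ∈ m', u a b ≤ v a b) :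
    dS u m m' ≤ dS v m m' := by
  unfold dS
  refine Multiset.sum_map_le_sum_map _ _ fun a ha => ?_
  exact Multiset.sum_map_le_sum_map _ _ fun b hb => h a ha b hb

theorem dS_fadd (u v : X → X → ℝ) (m m' : Multiset X) :
    dS (fun a b => u a b + v a b) m m' = dS u m m' + dS v m m' := by
  simp [dS, Multiset.sum_map_add]

theorem dS_fsub (u v : X → X → ℝ) (m m' : Multiset X) :
    dS (fun a b => u a b - v a b) m m' = dS u m m' - dS v m m' := by
  simp [dS, Multiset.sum_map_sub]

theorem dS_fmul (c : ℝ) (u : X → X → ℝ) (m m' : Multiset X) :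
    dS (fun a b => c * u a b) m m' = c * dS u m m' := by
  simp [dS, Multiset.sum_map_mul_left]

theorem dg_fadd (u v : X → X → ℝ) (m : Multiset X) :
    dg (fun a b => u a b + v a b) m = dg u m + dg v m := by
  simp [dg]

theorem dg_fsub (u v : X → X → ℝ) (m : Multiset X) :
    dg (fun a b => u a b - v a b) m = dg u m - dg v m := by
  simp [dg, Multiset.sum_map_sub]

theorem dg_fmul (c : ℝ) (u : X → X → ℝ) (m : Multiset X) :
    dg (fun a b => c * u a b) m = c * dg u m := by
  simp [dg, Multiset.sum_map_mul_left]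

theorem En_fadd (u v : X → X → ℝ) (m : Multiset X) :
    En (fun a b => u a b + v a b) m = En u m + En v m := by
  unfold En; rw [dS_fadd, dg_fadd]; ring

theorem En_fsub (u v : X → X → ℝ) (m : Multiset X) :
    En (fun a b => u a b - v a b) m = En u m - En v m := by
  unfold En; rw [dS_fsub, dg_fsub]; ring

theorem En_fmul (c : ℝ) (u : X → X → ℝ) (m : Multiset X) :
    En (fun a b => c * u a b) m = c * En u m := by
  unfold En; rw [dS_fmul, dg_fmul]; ring

theorem dg_le_dS {u : X → X → ℝ} {m : Multiset X} (h : ∀ a ∈ m, ∀ b ∈ m, 0 ≤ u a b) :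
    dg u m ≤ dS u m m := by
  unfold dS dg
  refine Multiset.sum_map_le_sum_map _ _ fun a ha => ?_
  refine Multiset.single_le_sum ?_ _ (Multiset.mem_map_of_mem _ ha)
  intro x hx
  obtain ⟨b, hb, rfl⟩ := Multiset.mem_map.mp hx
  exact h a ha b hb

theorem En_nonneg {u : X → X → ℝ} {m : Multiset X} (h : ∀ a ∈ m, ∀ b ∈ m, 0 ≤ u a b) :
    0 ≤ En u m := by
  unfold En
  linarith [dg_le_dS h]

theorem En_mono {u v : X → X → ℝ} {m : Multiset X} (h : ∀ a ∈ m, ∀ b ∈ m, u a b ≤ v a b) :
    En u m ≤ En v m := by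
  have h1 := En_nonneg (u := fun a b => v a b - u a b) (m := m)
    (fun a ha b hb => sub_nonneg.mpr (h a ha b hb))
  rw [En_fsub] at h1
  linarith

theorem dg_nonneg {u : X → X → ℝ} {m : Multiset X} (h : ∀ a ∈ m, 0 ≤ u a a) : 0 ≤ dg u m := by
  unfold dg
  refine Multiset.sum_nonneg ?_
  intro x hx
  obtain ⟨b, hb, rfl⟩ := Multiset.mem_map.mp hx
  exact h b hb

theorem dS_one (m : Multiset X) : dS (fun _ _ => 1) m m = (m.card : ℝ) ^ 2 := by
  simp [dS, sq]

theorem dg_one (m : Multiset X) : dg (fun _ _ => 1) m = (m.card : ℝ) := by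
  simp [dg]

theorem Wt_zero (u : X → X → ℝ) (μ : ℝ) : Wt u μ 0 = 1 := by
  simp [Wt, En, dS, dg]

theorem Wt_add (u : X → X → ℝ) (hu : ∀ a b, u a b = u b a) (μ : ℝ) (m m' : Multiset X) :
    Wt u μ (m + m') = Wt u μ m * Wt u μ m' * ENNReal.ofReal (Real.exp (-dS u m m')) := by
  unfold Wt
  rw [← ENNReal.ofReal_mul (Real.exp_pos _).le, ← ENNReal.ofReal_mul (by positivity),
    ← Real.exp_add, ← Real.exp_add, En_add u hu, Multiset.card_add]
  congr 2
  push_cast
  ring

theorem Wt_add_ge (u : X → X → ℝ) (hu : ∀ a b, u a b = u b a) (μ : ℝ) (m m' : Multiset X)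
    (h : ∀ a ∈ m, ∀ b ∈ m', u a b ≤ 0) :
    Wt u μ m * Wt u μ m' ≤ Wt u μ (m + m') := by
  rw [Wt_add u hu]
  refine le_mul_of_one_le_right bot_le ?_
  rw [← ENNReal.ofReal_one]
  refine ENNReal.ofReal_le_ofReal ?_
  rw [← Real.exp_zero]
  refine Real.exp_le_exp.mpr ?_
  have h1 := dS_le (v := fun _ _ => (0:ℝ)) h
  have h2 : dS (fun _ _ => (0:ℝ)) m m' = 0 := by simp [dS]
  linarith

theorem Wt_add_le (u : X → X → ℝ) (hu : ∀ a b, u a b = u b a) (μ : ℝ) (m m' : Multiset X)
    (h : ∀ a ∈ m, ∀ b ∈ m', 0 ≤ u a b) :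
    Wt u μ (m + m') ≤ Wt u μ m * Wt u μ m' := by
  rw [Wt_add u hu]
  refine mul_le_of_le_one_right bot_le ?_
  rw [← ENNReal.ofReal_one]
  refine ENNReal.ofReal_le_ofReal ?_
  rw [← Real.exp_zero]
  refine Real.exp_le_exp.mpr ?_
  have h1 := dS_le (u := fun _ _ => (0:ℝ)) h
  have h2 : dS (fun _ _ => (0:ℝ)) m m' = 0 := by simp [dS]
  linarith

theorem dS_ms (u : X → X → ℝ) {ι : Type} [Fintype ι] (x : ι → X) :
    dS u (ms x) (ms x) = ∑ i, ∑ j, u (x i) (x j) := by
  simp only [dS, ms, Multiset.map_map]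
  rfl

theorem dg_ms (u : X → X → ℝ) {ι : Type} [Fintype ι] (x : ι → X) :
    dg u (ms x) = ∑ i, u (x i) (x i) := by
  simp only [dg, ms, Multiset.map_map]
  rfl

end Energy

section Meas
variable {X : Type} [MeasureSpace X]

theorem measF_exp {H : Multiset X → ℝ} (hH : ∀ n : ℕ, Measurable fun x : Fin n → X => H (ms x)) :
    MeasF fun m => ENNReal.ofReal (Real.exp (H m)) := fun n =>
  ENNReal.measurable_ofReal.comp (Real.measurable_exp.comp (hH n))

theorem measurable_dS {u : X → X → ℝ} (hu : Measurable fun p : X × X => u p.1 p.2) (n : ℕ) :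
    Measurable fun x : Fin n → X => dS u (ms x) (ms x) := by
  simp_rw [dS_ms]
  refine Finset.measurable_sum _ fun i _ => Finset.measurable_sum _ fun j _ => ?_
  have h1 : Measurable fun x : Fin n → X => (x i, x j) :=
    (measurable_pi_apply i).prodMk (measurable_pi_apply j)
  exact hu.comp h1

theorem measurable_dg {u : X → X → ℝ} (hu : Measurable fun p : X × X => u p.1 p.2) (n : ℕ) :
    Measurable fun x : Fin n → X => dg u (ms x) := by
  simp_rw [dg_ms]
  refine Finset.measurable_sum _ fun i _ => ?_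
  have h1 : Measurable fun x : Fin n → X => (x i, x i) :=
    (measurable_pi_apply i).prodMk (measurable_pi_apply i)
  exact hu.comp h1

theorem measurable_En {u : X → X → ℝ} (hu : Measurable fun p : X × X => u p.1 p.2) (n : ℕ) :
    Measurable fun x : Fin n → X => En u (ms x) := by
  unfold En
  exact ((measurable_dS hu n).sub (measurable_dg hu n)).div_const _

theorem measF_Wt {u : X → X → ℝ} (hu : Measurable fun p : X × X => u p.1 p.2) (μ : ℝ) :
    MeasF (Wt u μ) := by
  refine measF_exp fun n => ?_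
  have : (fun x : Fin n → X => μ * ((ms x).card : ℝ) - En u (ms x))
      = fun x => μ * (n : ℝ) - En u (ms x) := by
    funext x; rw [ms_card]; simp
  rw [this]
  exact measurable_const.sub (measurable_En hu n)

end Meas

section Schur
variable {X ι : Type} [DecidableEq ι]

/-- Sum of squares of the occupation numbers of cells. -/
noncomputable def SQ (c : X → ι) (m : Multiset X) : ℝ := dS (fun a b => if c a = c b then 1 else 0) m m

theorem dS_comp (c : X → ι) (g : ι → ι → ℝ) (m : Multiset X) :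
    dS (fun a b => g (c a) (c b)) m m
      = ∑ q ∈ (m.map c).toFinset, ∑ r ∈ (m.map c).toFinset,
          ((m.map c).count q : ℝ) * ((m.map c).count r : ℝ) * g q r := by
  have h1 : dS (fun a b => g (c a) (c b)) m m
      = ((m.map c).map fun q => ((m.map c).map fun r => g q r).sum).sum := by
    simp [dS, Multiset.map_map]
  rw [h1, Finset.sum_multiset_map_count]
  refine Finset.sum_congr rfl fun q _ => ?_
  rw [Finset.sum_multiset_map_count, nsmul_eq_mul, Finset.mul_sum]
  refine Finset.sum_congr rfl fun r _ => ?_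
  rw [nsmul_eq_mul]; ring

theorem SQ_eq (c : X → ι) (m : Multiset X) :
    SQ c m = ∑ q ∈ (m.map c).toFinset, ((m.map c).count q : ℝ) ^ 2 := by
  unfold SQ
  rw [dS_comp c (fun q r => if q = r then 1 else 0)]
  refine Finset.sum_congr rfl fun q hq => ?_
  rw [Finset.sum_eq_single q]
  · simp [sq]
  · intro r _ hr
    simp [hr.symm]
  · intro h; exact absurd hq h

theorem card_eq (c : X → ι) (m : Multiset X) :
    (m.card : ℝ) = ∑ q ∈ (m.map c).toFinset, ((m.map c).count q : ℝ) := by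
  have := Multiset.toFinset_sum_count_eq (m.map c)
  rw [Multiset.card_map] at this
  rw [← this]; push_cast; rfl

theorem schur (c : X → ι) (R : ι → ι → Prop) [DecidableRel R] (hR : ∀ q r, R q r → R r q) (N : ℝ)
    (hN : ∀ (q : ι) (T : Finset ι), ((T.filter (R q)).card : ℝ) ≤ N) (m : Multiset X) :
    dS (fun a b => if R (c a) (c b) then 1 else 0) m m ≤ N * SQ c m := by
  rw [dS_comp c (fun q r => if R q r then 1 else 0), SQ_eq]
  set T := (m.map c).toFinset with hT
  set n : ι → ℝ := fun q => ((m.map c).count q : ℝ) with hn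
  have h1 : ∀ q r, n q * n r * (if R q r then (1:ℝ) else 0)
      ≤ (n q ^ 2 / 2) * (if R q r then 1 else 0) + (n r ^ 2 / 2) * (if R q r then 1 else 0) := by
    intro q r
    split_ifs
    · nlinarith [sq_nonneg (n q - n r)]
    · simp
  have h2 : ∑ q ∈ T, ∑ r ∈ T, n q * n r * (if R q r then (1:ℝ) else 0)
      ≤ ∑ q ∈ T, ∑ r ∈ T, ((n q ^ 2 / 2) * (if R q r then 1 else 0)
          + (n r ^ 2 / 2) * (if R q r then 1 else 0)) :=
    Finset.sum_le_sum fun q _ => Finset.sum_le_sum fun r _ => h1 q r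
  refine h2.trans ?_
  simp_rw [Finset.sum_add_distrib]
  have h3 : ∑ q ∈ T, ∑ r ∈ T, (n r ^ 2 / 2) * (if R q r then (1:ℝ) else 0)
      = ∑ q ∈ T, ∑ r ∈ T, (n q ^ 2 / 2) * (if R q r then (1:ℝ) else 0) := by
    rw [Finset.sum_comm]
    refine Finset.sum_congr rfl fun q _ => Finset.sum_congr rfl fun r _ => ?_
    have : R r q ↔ R q r := ⟨hR _ _, hR _ _⟩
    simp [this]
  rw [h3, ← two_mul, Finset.mul_sum, Finset.mul_sum]
  refine Finset.sum_le_sum fun q _ => ?_
  rw [← Finset.mul_sum, Finset.sum_ite, Finset.sum_const_zero, add_zero, Finset.sum_const,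
    nsmul_eq_mul, mul_one]
  have := hN q T
  nlinarith [sq_nonneg (n q)]

theorem linquad (c : X → ι) (m : Multiset X) (T : Finset ι) (hT : ∀ a ∈ m, c a ∈ T) (α β : ℝ)
    (hβ : 0 < β) :
    α * m.card - β * SQ c m ≤ T.card * ((max α 0) ^ 2 / (4 * β)) := by
  rw [SQ_eq, card_eq c, Finset.mul_sum, Finset.mul_sum, ← Finset.sum_sub_distrib]
  have hsub : (m.map c).toFinset ⊆ T := by
    intro q hq
    rw [Multiset.mem_toFinset, Multiset.mem_map] at hq
    obtain ⟨a, ha, rfl⟩ := hq
    exact hT a ha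
  refine (Finset.sum_le_sum (g := fun _ => (max α 0) ^ 2 / (4 * β)) fun q _ => ?_).trans ?_
  · have h0 : (0:ℝ) ≤ ((m.map c).count q : ℝ) := Nat.cast_nonneg _
    set n : ℝ := ((m.map c).count q : ℝ)
    rw [le_div_iff₀ (by positivity)]
    have h1 : α ≤ max α 0 := le_max_left _ _
    have h2 : α * n ≤ max α 0 * n := mul_le_mul_of_nonneg_right h1 h0
    have h3 : (α * n - β * n ^ 2) * (4 * β) ≤ (max α 0 * n - β * n ^ 2) * (4 * β) := by
      apply mul_le_mul_of_nonneg_right _ (by positivity)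
      linarith
    nlinarith [sq_nonneg (max α 0 - 2 * β * n)]
  · rw [Finset.sum_const, nsmul_eq_mul]
    gcongr

theorem card_sq_le (c : X → ι) (m : Multiset X) (T : Finset ι) (hT : ∀ a ∈ m, c a ∈ T) :
    (m.card : ℝ) ^ 2 ≤ T.card * SQ c m := by
  rw [SQ_eq, card_eq c]
  have hsub : (m.map c).toFinset ⊆ T := by
    intro q hq
    rw [Multiset.mem_toFinset, Multiset.mem_map] at hq
    obtain ⟨a, ha, rfl⟩ := hq
    exact hT a ha
  refine (sq_sum_le_card_mul_sum_sq).trans ?_
  have : ((m.map c).toFinset.card : ℝ) ≤ T.card := by exact_mod_cast Finset.card_le_card hsub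
  have h0 : (0:ℝ) ≤ ∑ q ∈ (m.map c).toFinset, ((m.map c).count q : ℝ) ^ 2 :=
    Finset.sum_nonneg fun _ _ => sq_nonneg _
  nlinarith

end Schur
end Vale.Agent.P171
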