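import Vale.Agent.P171.Seq

open MeasureTheory ENNReal Finset Filter Topology

namespace Vale.Agent.P171

/-- The inductively constructed sequence of attractions and chemical potentials. -/
noncomputable def st : (k : ℕ) → {p : (E3 → E3 → ℝ) × ℝ // Good k p.1 p.2}
  | 0 => ⟨(w0, Real.log zz), good_zero⟩
  | k + 1 =>
    ⟨(fun a b => (st k).1.1 a b + (bs k * ((good_step k (st k).2).choose ^ 3)⁻¹) *
        nr (good_step k (st k).2).choose a b, (good_step k (st k).2).choose_spec.choose),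
      (good_step k (st k).2).choose_spec.choose_spec.2.1⟩

/-- Ranges. -/
noncomputable def ls (k : ℕ) : ℝ := (good_step k (st k).2).choose
/-- Attraction at stage `k`. -/
noncomputable def ww (k : ℕ) : E3 → E3 → ℝ := (st k).1.1
/-- Chemical potential at stage `k`. -/
noncomputable def mm (k : ℕ) : ℝ := (st k).1.2

theorem good (k : ℕ) : Good k (ww k) (mm k) := (st k).2

theorem ww_zero : ww 0 = w0 := rfl

theorem ww_succ (k : ℕ) (a b : E3) :
    ww (k + 1) a b = ww k a b + (bs k * (ls k ^ 3)⁻¹) * nr (ls k) a b := rfl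

theorem ls_ge (k : ℕ) : 3 ≤ ls k := (good_step k (st k).2).choose_spec.choose_spec.1

theorem mm_ge (k : ℕ) : mm k - as k * RR ≤ mm (k + 1) :=
  (good_step k (st k).2).choose_spec.choose_spec.2.2.1

theorem mm_le (k : ℕ) : mm (k + 1) ≤ mm k :=
  (good_step k (st k).2).choose_spec.choose_spec.2.2.2

theorem mm_zero : mm 0 = Real.log zz := rfl

/-- The attractive part of the potential, as a function of the distance. -/
noncomputable def psi (r : ℝ) : ℝ := ∑' j : ℕ, (bs j * (ls j ^ 3)⁻¹) * (if r ≤ ls j then 1 else 0)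

/-- The pair potential. -/
noncomputable def phi (r : ℝ) : ℝ := AA * (if r ≤ 2 then 1 else 0) - psi r

/-- Limiting attraction. -/
noncomputable def wi (a b : E3) : ℝ := psi (dist a b)

theorem cj_le (j : ℕ) : bs j * (ls j ^ 3)⁻¹ ≤ bs j := by
  have h1 := ls_ge j
  refine mul_le_of_le_one_right (bs_pos j).le ?_
  exact inv_le_one_of_one_le₀ (one_le_pow₀ (by linarith))

theorem cj_nonneg (j : ℕ) : 0 ≤ bs j * (ls j ^ 3)⁻¹ := by
  have h1 := ls_ge j
  have := bs_pos j
  have : 0 < ls j := by linarith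
  positivity

theorem bs_summable : Summable bs := by
  unfold bs
  exact (summable_geometric_of_lt_one (by norm_num) (by norm_num)).mul_left b0

theorem term_nonneg (j : ℕ) (r : ℝ) : 0 ≤ (bs j * (ls j ^ 3)⁻¹) * (if r ≤ ls j then (1:ℝ) else 0) :=
  mul_nonneg (cj_nonneg j) (by split_ifs <;> norm_num)

theorem term_le (j : ℕ) (r : ℝ) : (bs j * (ls j ^ 3)⁻¹) * (if r ≤ ls j then (1:ℝ) else 0) ≤ bs j := by
  refine le_trans (mul_le_of_le_one_right (cj_nonneg j) ?_) (cj_le j)
  split_ifs <;> norm_num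

theorem term_summable (r : ℝ) :
    Summable fun j : ℕ => (bs j * (ls j ^ 3)⁻¹) * (if r ≤ ls j then (1:ℝ) else 0) :=
  Summable.of_nonneg_of_le (fun j => term_nonneg j r) (fun j => term_le j r) bs_summable

theorem ww_eq (k : ℕ) (a b : E3) :
    ww k a b = ∑ j ∈ Finset.range k, (bs j * (ls j ^ 3)⁻¹) * (if dist a b ≤ ls j then (1:ℝ) else 0) := by
  induction k with
  | zero => simp [ww_zero, w0]
  | succ k ih =>
    rw [ww_succ, ih, Finset.sum_range_succ]
    congr 1

theorem ww_tendsto (a b : E3) : Tendsto (fun k => ww k a b) atTop (𝓝 (wi a b)) := by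
  simp_rw [ww_eq]
  exact (term_summable (dist a b)).hasSum.tendsto_sum_nat

theorem att_of_tendsto {κ : ℝ} {w : ℕ → E3 → E3 → ℝ} {v : E3 → E3 → ℝ} (h : ∀ n, Att κ (w n))
    (ht : ∀ a b, Tendsto (fun n => w n a b) atTop (𝓝 (v a b))) : Att κ v := by
  refine ⟨?_, ?_, ?_, ?_⟩
  · refine measurable_of_tendsto_metrizable (fun n => (h n).meas) ?_
    rw [tendsto_pi_nhds]
    intro p
    exact ht p.1 p.2
  · intro a b
    refine tendsto_nhds_unique (ht a b) ?_
    have : (fun n => w n a b) = fun n => w n b a := by funext n; exact (h n).symm a b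
    rw [this]; exact ht b a
  · intro a b
    exact ge_of_tendsto' (ht a b) fun n => (h n).nonneg a b
  · intro m
    have h1 : Tendsto (fun n => dS (w n) m m) atTop (𝓝 (dS v m m)) := by
      unfold dS
      refine tendsto_multiset_sum m fun a _ => ?_
      exact tendsto_multiset_sum m fun b _ => ht a b
    exact le_of_tendsto' h1 fun n => (h n).dom m

theorem att_wi : Att (54 * b0) wi :=
  att_of_tendsto (fun n => (good n).att.mono (kappa_le n)) ww_tendsto

theorem wi_tinv : Tinv wi := fun a b τ => by unfold wi; simp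

theorem att_diff (k i : ℕ) :
    Att (54 * b0 * ((1 / 2) ^ k - (1 / 2) ^ (k + i))) (fun a b => ww (k + i) a b - ww k a b) := by
  induction i with
  | zero =>
    have h1 : (fun a b => ww (k + 0) a b - ww k a b) = w0 := by
      funext a b; simp [w0]
    rw [h1]
    exact att_zero.mono (by simp)
  | succ i ih =>
    have h1 := ih.add ((att_nr (ls_ge (k + i))).smul (cj_nonneg (k + i)))
    have hl := ls_ge (k + i)
    have hl0 : 0 < ls (k + i) := by linarith
    have e1 : 54 * b0 * ((1 / 2) ^ k - (1 / 2) ^ (k + i)) + bs (k + i) * (ls (k + i) ^ 3)⁻¹ * (27 * ls (k + i) ^ 3)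
        = 54 * b0 * ((1 / 2) ^ k - (1 / 2) ^ (k + (i + 1))) := by
      unfold bs; field_simp; ring
    rw [e1] at h1
    have e2 : (fun a b => ww (k + (i + 1)) a b - ww k a b) = fun a b =>
        (ww (k + i) a b - ww k a b) + (bs (k + i) * (ls (k + i) ^ 3)⁻¹) * nr (ls (k + i)) a b := by
      funext a b
      rw [← add_assoc, ww_succ]; ring
    rw [e2]
    exact h1

theorem att_tail (k : ℕ) : Att (54 * b0 * (1 / 2) ^ k) (fun a b => wi a b - ww k a b) := by
  refine att_of_tendsto (w := fun i => fun a b => ww (k + i) a b - ww k a b) (fun i => ?_) ?_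
  · refine (att_diff k i).mono ?_
    have := b0_pos
    have h2 : 0 < ((1:ℝ) / 2) ^ (k + i) := by positivity
    nlinarith
  · intro a b
    refine Tendsto.sub_const ?_ _
    exact (ww_tendsto a b).comp (tendsto_add_atTop_nat k |>.congr fun i => by omega)

/-- The limiting pressure. -/
noncomputable def Pi_ (μ : ℝ) : ℝ := Pr AA wi μ

theorem hk54 : 54 * b0 ≤ AA / 2 := by unfold AA; have := b0_pos; linarith

theorem Pi_le (k : ℕ) (μ : ℝ) : Pi_ μ ≤ Pr AA (ww k) μ + (1 / 2) ^ k * (1 + kk AA μ) := by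
  have hb := b0_pos
  set θ : ℝ := (1 / 2) ^ k with hθ
  have hθ0 : 0 < θ := by positivity
  have hθ1 : θ ≤ 1 := pow_le_one₀ (by norm_num) (by norm_num)
  set w2 : E3 → E3 → ℝ := fun a b => ww k a b + θ⁻¹ * (wi a b - ww k a b) with hw2
  have hatt2 : Att (108 * b0) w2 := by
    have h1 := (good k).att.add ((att_tail k).smul (c := θ⁻¹) (by positivity))
    refine h1.mono ?_
    rw [← hθ]
    have : θ⁻¹ * (54 * b0 * θ) = 54 * b0 := by field_simp
    rw [this]
    nlinarith
  have ht2 : Tinv w2 := fun a b τ => by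
    show ww k (a + τ) (b + τ) + θ⁻¹ * (wi (a + τ) (b + τ) - ww k (a + τ) (b + τ)) = _
    rw [(good k).tinv, wi_tinv]
  have hκk : 54 * b0 * (1 - (1 / 2) ^ k) ≤ AA / 2 := (kappa_le k).trans hk54
  have h108 : 108 * b0 ≤ AA / 2 := by unfold AA; linarith
  have := Pr_convex att_wi (good k).att hatt2 wi_tinv (good k).tinv ht2 AA_pos hk54 hκk h108
    (p := 1 - θ) (q := θ) (by linarith) hθ0.le (by ring) (fun a b => le_of_eq (by
      rw [hw2]; field_simp; ring)) μ μ
  rw [← add_mul, sub_add_cancel, one_mul] at this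
  have h2 := Pr_le hatt2 AA_pos h108 μ
  have h3 := Pr_nonneg (good k).att AA_pos hκk μ
  have h4 : θ * Pr AA w2 μ ≤ θ * (1 + kk AA μ) := mul_le_mul_of_nonneg_left h2 hθ0.le
  unfold Pi_
  nlinarith

theorem le_Pi (k : ℕ) (μ : ℝ) : Pr AA (ww k) μ ≤ Pi_ μ := by
  refine Pr_mono (good k).att att_wi (good k).tinv wi_tinv AA_pos ((kappa_le k).trans hk54) hk54
    (fun a b => ?_) le_rfl
  have := (att_tail k).nonneg a b
  linarith

theorem Pi_convex : ConvexOn ℝ Set.univ Pi_ := Pr_convexOn att_wi wi_tinv AA_pos hk54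

theorem Pi_continuous : Continuous Pi_ := by
  have := Pi_convex.continuousOn isOpen_univ
  rwa [← continuousOn_univ]

theorem mm_lower (k : ℕ) : Real.log zz - RR * (2 * a0 * (1 - (1 / 2) ^ k)) ≤ mm k := by
  induction k with
  | zero => simp [mm_zero]
  | succ k ih =>
    have h1 := mm_ge k
    rw [as_eq] at h1
    have e : RR * (2 * a0 * (1 - (1 / 2) ^ (k + 1))) = RR * (2 * a0 * (1 - (1 / 2) ^ k)) + a0 * (1 / 2) ^ k * RR := by
      ring
    linarith

theorem RR_pos : 0 < RR := by unfold RR; have := AA_pos; positivity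

theorem exists_lim : ∃ μi : ℝ, Tendsto mm atTop (𝓝 μi) := by
  refine ⟨_, tendsto_atTop_ciInf (antitone_nat_of_succ_le mm_le) ?_⟩
  refine ⟨Real.log zz - RR * (2 * a0), ?_⟩
  rintro _ ⟨k, rfl⟩
  have h1 := mm_lower k
  have h2 := RR_pos
  have h3 := a0_pos
  have h4 : 0 < ((1:ℝ) / 2) ^ k := by positivity
  have h5 : RR * (2 * a0 * (1 - (1 / 2) ^ k)) ≤ RR * (2 * a0) := by
    refine mul_le_mul_of_nonneg_left ?_ h2.le
    nlinarith
  linarith

theorem DD_stage (k : ℕ) {h : ℝ} (hh : 0 < h) (hk : (1 / 2) ^ k ≤ h) :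
    zz / 50 * h - 2 * ((1 / 2) ^ k * (1 + kk AA 0)) ≤ DD Pi_ (mm k) h := by
  obtain ⟨d, _, hd, hdk, _, hDd⟩ := (good k).kink
  have hκk : 54 * b0 * (1 - (1 / 2) ^ k) ≤ AA / 2 := (kappa_le k).trans hk54
  have h1 := DD_ratio (Pr_convexOn (good k).att (good k).tinv AA_pos hκk) (mm k) hd (hdk.trans hk) hDd
  have h2 : zz / 50 ≤ Dl k := by
    unfold Dl
    have := zz_pos
    have h3 : 0 < ((1:ℝ) / 2) ^ (k + 1) := by positivity
    nlinarith
  have h3 := le_Pi k (mm k + h)
  have h4 := le_Pi k (mm k - h)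
  have h5 := Pi_le k (mm k)
  have h6 : kk AA (mm k) ≤ kk AA 0 := kk_mono AA_pos (good k).nonpos
  have h7 : ((1:ℝ) / 2) ^ k * (1 + kk AA (mm k)) ≤ (1 / 2) ^ k * (1 + kk AA 0) := by
    gcongr
  have h8 : zz / 50 * h ≤ Dl k * h := by gcongr
  unfold DD at *
  linarith

theorem kink_final : ∃ μi : ℝ, ∀ h : ℝ, 0 < h → zz / 50 * h ≤ DD Pi_ μi h := by
  obtain ⟨μi, hμi⟩ := exists_lim
  refine ⟨μi, fun h hh => ?_⟩
  have hc : Continuous fun μ => DD Pi_ μ h := by
    unfold DD
    have := Pi_continuous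
    fun_prop
  have h1 : Tendsto (fun k => DD Pi_ (mm k) h) atTop (𝓝 (DD Pi_ μi h)) := (hc.tendsto μi).comp hμi
  have h0 : Tendsto (fun k : ℕ => ((1:ℝ) / 2) ^ k) atTop (𝓝 0) :=
    tendsto_pow_atTop_nhds_zero_of_lt_one (by norm_num) (by norm_num)
  have h2 : Tendsto (fun k : ℕ => zz / 50 * h - 2 * ((1 / 2) ^ k * (1 + kk AA 0))) atTop
      (𝓝 (zz / 50 * h - 2 * (0 * (1 + kk AA 0)))) :=
    ((h0.mul_const _).const_mul 2).const_sub _
  have e : zz / 50 * h - 2 * (0 * (1 + kk AA 0)) = zz / 50 * h := by ring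
  rw [e] at h2
  refine le_of_tendsto_of_tendsto h2 h1 ?_
  filter_upwards [(tendsto_order.mp h0).2 h hh] with k hk
  exact DD_stage k hh hk.le

theorem not_differentiable :
    ∃ z : ℝ, 0 < z ∧ ¬ DifferentiableAt ℝ (fun z => Pi_ (Real.log z)) z := by
  obtain ⟨μi, hk⟩ := kink_final
  refine ⟨Real.exp μi, Real.exp_pos _, fun hd => ?_⟩
  have h1 : DifferentiableAt ℝ (fun μ => Pi_ μ) μi := by
    have h2 : (fun μ => Pi_ μ) = (fun z => Pi_ (Real.log z)) ∘ Real.exp := by
      funext μ; simp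
    rw [h2]
    exact hd.comp μi Real.differentiableAt_exp
  have h2 := h1.hasDerivAt
  rw [hasDerivAt_iff_isLittleO_nhds_zero] at h2
  have hz := zz_pos
  have h3 := h2.def (c := zz / 200) (by positivity)
  rw [Metric.eventually_nhds_iff] at h3
  obtain ⟨ε, hε, h4⟩ := h3
  have h5 := h4 (y := ε / 2) (by rw [dist_zero_right, Real.norm_eq_abs, abs_of_pos (by positivity)]; linarith)
  have h6 := h4 (y := -(ε / 2)) (by
    rw [dist_zero_right, Real.norm_eq_abs, abs_neg, abs_of_pos (by positivity)]; linarith)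
  rw [Real.norm_eq_abs, Real.norm_eq_abs] at h5 h6
  rw [abs_neg] at h6
  rw [abs_of_pos (by positivity : (0:ℝ) < ε / 2)] at h5 h6
  have h7 := (abs_le.mp h5).2
  have h8 := (abs_le.mp h6).2
  have h9 := hk (ε / 2) (by positivity)
  unfold DD at h9
  simp only [smul_eq_mul, ← sub_eq_add_neg] at h7 h8
  nlinarith

end Vale.Agent.P171
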