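import Mathlib

open Filter Topology Set

namespace Vale.Agent.P171

/-- Second difference. -/
noncomputable def DD (P : ℝ → ℝ) (μ h : ℝ) : ℝ := P (μ + h) + P (μ - h) - 2 * P μ

theorem DD_ratio {P : ℝ → ℝ} (hc : ConvexOn ℝ univ P) (μ : ℝ) {h h' : ℝ} (hh : 0 < h) (hhh : h ≤ h')
    {D : ℝ} (hD : D * h ≤ DD P μ h) : D * h' ≤ DD P μ h' := by
  have hh' : 0 < h' := by linarith
  have key : ∀ e : ℝ, P (μ + h * e) ≤ (1 - h / h') * P μ + h / h' * P (μ + h' * e) := by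
    intro e
    have h1 : 0 ≤ h / h' := by positivity
    have h2 : h / h' ≤ 1 := by rw [div_le_one hh']; exact hhh
    have := hc.2 (mem_univ μ) (mem_univ (μ + h' * e)) (by linarith : (0:ℝ) ≤ 1 - h / h') h1 (by ring)
    simp only [smul_eq_mul] at this
    refine le_trans (le_of_eq ?_) this
    congr 1
    field_simp
    ring
  have k1 := key 1
  have k2 := key (-1)
  rw [mul_one, mul_one] at k1
  rw [mul_neg_one, mul_neg_one, ← sub_eq_add_neg, ← sub_eq_add_neg] at k2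
  unfold DD at *
  have h3 : P (μ + h) + P (μ - h) - 2 * P μ ≤ h / h' * (P (μ + h') + P (μ - h') - 2 * P μ) := by
    linarith
  have h4 : D * h ≤ h / h' * (P (μ + h') + P (μ - h') - 2 * P μ) := hD.trans h3
  have h5 : h / h' * (P (μ + h') + P (μ - h') - 2 * P μ)
      = h * ((P (μ + h') + P (μ - h') - 2 * P μ) / h') := by ring
  rw [h5, mul_comm D h] at h4
  have h6 := le_of_mul_le_mul_left h4 hh
  rwa [le_div_iff₀ hh'] at h6

/-- Subgradient at a maximizer. -/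
theorem subgrad {P : ℝ → ℝ} (hc : ConvexOn ℝ univ P) {a μ ν : ℝ} (ha : 0 < a)
    (hmax : ∀ x, P x - (x - μ) ^ 2 / (2 * a) ≤ P ν - (ν - μ) ^ 2 / (2 * a)) (x : ℝ) :
    P ν + (ν - μ) / a * (x - ν) ≤ P x := by
  have key : ∀ t : ℝ, 0 < t → P ν + (ν - μ) / a * (x - ν) ≤ P x + t * ((x - ν) ^ 2 / (2 * a)) := by
    intro t ht
    have h1 := hc.2 (mem_univ x) (mem_univ (ν - t * (x - ν)))
      (by positivity : (0:ℝ) ≤ t / (1 + t)) (by positivity : (0:ℝ) ≤ 1 / (1 + t)) (by field_simp; ring)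
    simp only [smul_eq_mul] at h1
    have h2 : t / (1 + t) * x + 1 / (1 + t) * (ν - t * (x - ν)) = ν := by field_simp; ring
    rw [h2] at h1
    have h3 : (1 + t) * P ν ≤ t * P x + P (ν - t * (x - ν)) := by
      have := mul_le_mul_of_nonneg_left h1 (by positivity : 0 ≤ 1 + t)
      refine this.trans (le_of_eq ?_)
      field_simp
    have h4 := hmax (ν - t * (x - ν))
    have h5 : (ν - t * (x - ν) - μ) ^ 2 / (2 * a) - (ν - μ) ^ 2 / (2 * a)
        = t * (-((ν - μ) / a * (x - ν)) + t * ((x - ν) ^ 2 / (2 * a))) := by field_simp; ring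
    have h6 : t * (P ν + (ν - μ) / a * (x - ν)) ≤ t * (P x + t * ((x - ν) ^ 2 / (2 * a))) := by
      nlinarith
    exact le_of_mul_le_mul_left h6 ht
  refine le_of_forall_pos_le_add fun ε hε => ?_
  have hC : 0 ≤ (x - ν) ^ 2 / (2 * a) := by positivity
  have := key (ε / ((x - ν) ^ 2 / (2 * a) + 1)) (by positivity)
  refine this.trans ?_
  gcongr
  rw [div_mul_eq_mul_div, div_le_iff₀ (by positivity)]
  nlinarith

/-- No maximizer near a near-kink. -/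
theorem no_max {P : ℝ → ℝ} (hc : ConvexOn ℝ univ P) (hm : Monotone P) {a μ ν μ0 d h : ℝ}
    (ha : 0 < a) (hd : 0 < d) (hd1 : d ≤ 1) (hμ : μ ≤ μ0)
    (hD : 2 * (P (μ0 + 1) - P μ0) * d + (h ^ 2 + d ^ 2) / a < DD P μ0 h)
    (hmax : ∀ x, P x - (x - μ) ^ 2 / (2 * a) ≤ P ν - (ν - μ) ^ 2 / (2 * a)) :
    ν ≤ μ0 - d ∨ μ0 + d ≤ ν := by
  by_contra hcon
  push Not at hcon
  obtain ⟨h1, h2⟩ := hcon
  have hρ : 0 ≤ P (μ0 + 1) - P μ0 := sub_nonneg.mpr (hm (by linarith))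
  have e1 := hmax (μ0 + h)
  have e2 := hmax (μ0 - h)
  have hsum : P (μ0 + h) + P (μ0 - h) ≤ 2 * P ν + 2 * ((μ0 - ν) * ((ν - μ) / a))
      + (h ^ 2 + (μ0 - ν) ^ 2) / a := by
    have : (μ0 + h - μ) ^ 2 / (2 * a) + (μ0 - h - μ) ^ 2 / (2 * a) - 2 * ((ν - μ) ^ 2 / (2 * a))
        = 2 * ((μ0 - ν) * ((ν - μ) / a)) + (h ^ 2 + (μ0 - ν) ^ 2) / a := by field_simp; ring
    linarith
  have hsq : (μ0 - ν) ^ 2 ≤ d ^ 2 := sq_le_sq' (by linarith) (by linarith)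
  have hsq' : (h ^ 2 + (μ0 - ν) ^ 2) / a ≤ (h ^ 2 + d ^ 2) / a := by gcongr
  rcases le_total μ0 ν with hν | hν
  · have h3 : (μ0 - ν) * ((ν - μ) / a) ≤ 0 :=
      mul_nonpos_of_nonpos_of_nonneg (by linarith) (div_nonneg (by linarith) ha.le)
    have h4 : P ν ≤ P μ0 + (P (μ0 + 1) - P μ0) * d := by
      have h5 : 0 ≤ ν - μ0 := by linarith
      have h6 : ν - μ0 ≤ 1 := by linarith
      have := hc.2 (mem_univ μ0) (mem_univ (μ0 + 1)) (by linarith : (0:ℝ) ≤ 1 - (ν - μ0)) h5 (by ring)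
      simp only [smul_eq_mul] at this
      have h7 : (1 - (ν - μ0)) * μ0 + (ν - μ0) * (μ0 + 1) = ν := by ring
      rw [h7] at this
      have h8 : (P (μ0 + 1) - P μ0) * (ν - μ0) ≤ (P (μ0 + 1) - P μ0) * d := by
        gcongr; linarith
      nlinarith
    unfold DD at hD
    linarith
  · have hσ : (ν - μ) / a ≤ P (μ0 + 1) - P μ0 := by
      have h3 := subgrad hc ha hmax (ν + 1)
      have h4 : P (ν + 1) - P ν ≤ P (μ0 + 1) - P μ0 := by
        rcases eq_or_lt_of_le hν with h0 | h0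
        · rw [h0]
        · have hb : 0 < μ0 + 1 - ν := by linarith
          have w1 := hc.2 (mem_univ ν) (mem_univ (μ0 + 1))
            (div_nonneg (sub_nonneg.mpr hν) hb.le : (0:ℝ) ≤ (μ0 - ν) / (μ0 + 1 - ν))
            (by positivity : (0:ℝ) ≤ 1 / (μ0 + 1 - ν)) (by field_simp; ring)
          have w2 := hc.2 (mem_univ ν) (mem_univ (μ0 + 1))
            (by positivity : (0:ℝ) ≤ 1 / (μ0 + 1 - ν))
            (div_nonneg (sub_nonneg.mpr hν) hb.le : (0:ℝ) ≤ (μ0 - ν) / (μ0 + 1 - ν)) (by field_simp; ring)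
          simp only [smul_eq_mul] at w1 w2
          have i1 : (μ0 - ν) / (μ0 + 1 - ν) * ν + 1 / (μ0 + 1 - ν) * (μ0 + 1) = ν + 1 := by
            field_simp; ring
          have i2 : 1 / (μ0 + 1 - ν) * ν + (μ0 - ν) / (μ0 + 1 - ν) * (μ0 + 1) = μ0 := by
            field_simp; ring
          rw [i1] at w1
          rw [i2] at w2
          have i3 : (μ0 - ν) / (μ0 + 1 - ν) + 1 / (μ0 + 1 - ν) = 1 := by field_simp; ring
          have i4 : (μ0 - ν) / (μ0 + 1 - ν) * P ν + 1 / (μ0 + 1 - ν) * P (μ0 + 1)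
            + (1 / (μ0 + 1 - ν) * P ν + (μ0 - ν) / (μ0 + 1 - ν) * P (μ0 + 1)) = P ν + P (μ0 + 1) := by
            calc _ = ((μ0 - ν) / (μ0 + 1 - ν) + 1 / (μ0 + 1 - ν)) * (P ν + P (μ0 + 1)) := by ring
              _ = _ := by rw [i3, one_mul]
          linarith
      have h5 : (ν - μ) / a * (ν + 1 - ν) = (ν - μ) / a := by ring
      rw [h5] at h3
      linarith
    have h3 : (μ0 - ν) * ((ν - μ) / a) ≤ d * (P (μ0 + 1) - P μ0) := by
      calc (μ0 - ν) * ((ν - μ) / a) ≤ (μ0 - ν) * (P (μ0 + 1) - P μ0) := by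
            exact mul_le_mul_of_nonneg_left hσ (by linarith)
        _ ≤ d * (P (μ0 + 1) - P μ0) := mul_le_mul_of_nonneg_right (by linarith) hρ
    have h4 : P ν ≤ P μ0 := hm hν
    unfold DD at hD
    linarith

/-- Slope jump between two maximizers. -/
theorem slope_jump {P : ℝ → ℝ} (hc : ConvexOn ℝ univ P) {a μ νm νp μ0 d : ℝ}
    (ha : 0 < a) (hd : 0 < d)
    (hm1 : ∀ x, P x - (x - μ) ^ 2 / (2 * a) ≤ P νm - (νm - μ) ^ 2 / (2 * a))
    (hm2 : ∀ x, P x - (x - μ) ^ 2 / (2 * a) ≤ P νp - (νp - μ) ^ 2 / (2 * a))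
    (h1 : νm ≤ μ0 - d) (h2 : μ0 + d ≤ νp) : DD P μ0 d ≤ (νp - νm) / a * d := by
  have s1 := subgrad hc ha hm1 μ0
  have s2 := subgrad hc ha hm2 μ0
  have p0 : 0 < νp - μ0 := by linarith
  have m0 : 0 < μ0 - νm := by linarith
  have c1 : P (μ0 + d) - P μ0 ≤ (νp - μ) / a * d := by
    have hl : d / (νp - μ0) ≤ 1 := by rw [div_le_one p0]; linarith
    have := hc.2 (mem_univ μ0) (mem_univ νp) (by linarith : (0:ℝ) ≤ 1 - d / (νp - μ0))
      (by positivity : (0:ℝ) ≤ d / (νp - μ0)) (by ring)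
    simp only [smul_eq_mul] at this
    have i1 : (1 - d / (νp - μ0)) * μ0 + d / (νp - μ0) * νp = μ0 + d := by field_simp; ring
    rw [i1] at this
    have i2 : d / (νp - μ0) * (P νp - P μ0) ≤ d / (νp - μ0) * ((νp - μ) / a * (νp - μ0)) :=
      mul_le_mul_of_nonneg_left (by linarith) (by positivity)
    have i3 : d / (νp - μ0) * ((νp - μ) / a * (νp - μ0)) = (νp - μ) / a * d := by field_simp
    linarith
  have c2 : P (μ0 - d) - P μ0 ≤ -((νm - μ) / a * d) := by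
    have hl : d / (μ0 - νm) ≤ 1 := by rw [div_le_one m0]; linarith
    have := hc.2 (mem_univ μ0) (mem_univ νm) (by linarith : (0:ℝ) ≤ 1 - d / (μ0 - νm))
      (by positivity : (0:ℝ) ≤ d / (μ0 - νm)) (by ring)
    simp only [smul_eq_mul] at this
    have i1 : (1 - d / (μ0 - νm)) * μ0 + d / (μ0 - νm) * νm = μ0 - d := by field_simp; ring
    rw [i1] at this
    have i2 : d / (μ0 - νm) * (P νm - P μ0) ≤ d / (μ0 - νm) * (-((νm - μ) / a * (μ0 - νm))) :=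
      mul_le_mul_of_nonneg_left (by linarith) (by positivity)
    have i3 : d / (μ0 - νm) * (-((νm - μ) / a * (μ0 - νm))) = -((νm - μ) / a * d) := by field_simp
    linarith
  have : (νp - νm) / a * d = (νp - μ) / a * d + -((νm - μ) / a * d) := by ring
  rw [this]
  unfold DD
  linarith

theorem far_field {P : ℝ → ℝ} (h0 : ∀ ν, 0 ≤ P ν)
    {A : ℝ} (hA : 0 < A) (hG : ∀ ν, P ν ≤ 1 + (max ν 0 + A) ^ 2 / A) {a : ℝ} (ha : 0 < a)
    (haA : 4 * a ≤ A) {μ0 : ℝ} (hμ0 : μ0 ≤ 0) (μ ν : ℝ) (hμ : μ ≤ μ0) (hν : 3 * A + 1 ≤ ν) :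
    P ν - (ν - μ) ^ 2 / (2 * a) ≤ P μ0 - (μ0 - μ) ^ 2 / (2 * a) := by
  have hinv : 2 / A ≤ 1 / (2 * a) := by
    rw [div_le_div_iff₀ hA (by positivity)]; linarith
  have hν0 : 0 ≤ ν := by linarith
  have h1 := hG ν
  rw [max_eq_left hν0] at h1
  have h2 : 1 + (ν + A) ^ 2 / A ≤ 2 / A * ν ^ 2 := by
    have : 1 + (ν + A) ^ 2 / A = (A + (ν + A) ^ 2) / A := by field_simp
    rw [this, div_mul_eq_mul_div, div_le_div_iff_of_pos_right hA]
    nlinarith
  have h3 : 2 / A * ν ^ 2 ≤ 1 / (2 * a) * (ν - μ0) ^ 2 := by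
    have : ν ^ 2 ≤ (ν - μ0) ^ 2 := by nlinarith
    exact mul_le_mul hinv this (by positivity) (by positivity)
  have h4 : (ν - μ) ^ 2 / (2 * a) - (μ0 - μ) ^ 2 / (2 * a)
      = 1 / (2 * a) * ((ν - μ0) ^ 2 + 2 * (ν - μ0) * (μ0 - μ)) := by field_simp; ring
  have h5 : 1 / (2 * a) * (ν - μ0) ^ 2
      ≤ 1 / (2 * a) * ((ν - μ0) ^ 2 + 2 * (ν - μ0) * (μ0 - μ)) := by
    refine mul_le_mul_of_nonneg_left ?_ (by positivity)
    have : 0 ≤ 2 * (ν - μ0) * (μ0 - μ) := by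
      have e1 : 0 ≤ ν - μ0 := by linarith
      have e2 : 0 ≤ μ0 - μ := by linarith
      positivity
    linarith
  have h6 := h0 μ0
  linarith

theorem left_end {P : ℝ → ℝ} (hc : ConvexOn ℝ univ P) (h0 : ∀ ν, 0 ≤ P ν)
    {A : ℝ} (hA : 0 < A) (hG : ∀ ν, P ν ≤ 1 + (max ν 0 + A) ^ 2 / A) {a : ℝ} (ha : 0 < a)
    (haA : 4 * a ≤ A) {μ0 : ℝ} (hμ0 : μ0 ≤ 0) (y : ℝ) (hy0 : 0 ≤ y) :
    P (μ0 + y) - P μ0 ≤ y ^ 2 / (2 * a) + y * (3 + 2 * A + 1 / A) := by
  have hinv : 2 / A ≤ 1 / (2 * a) := by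
    rw [div_le_div_iff₀ hA (by positivity)]; linarith
  have h1A : 0 < 1 / A := by positivity
  rcases le_total y 1 with h1 | h1
  · have c := hc.2 (mem_univ μ0) (mem_univ (μ0 + 1)) (by linarith : (0:ℝ) ≤ 1 - y) hy0 (by ring)
    simp only [smul_eq_mul] at c
    have i1 : (1 - y) * μ0 + y * (μ0 + 1) = μ0 + y := by ring
    rw [i1] at c
    have g1 := hG (μ0 + 1)
    have g2 : max (μ0 + 1) 0 ≤ 1 := max_le (by linarith) (by norm_num)
    have g3 : (max (μ0 + 1) 0 + A) ^ 2 ≤ (1 + A) ^ 2 := by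
      have : 0 ≤ max (μ0 + 1) 0 := le_max_right _ _
      gcongr
    have g4 : (max (μ0 + 1) 0 + A) ^ 2 / A ≤ (1 + A) ^ 2 / A := by gcongr
    have g5 : 1 + (1 + A) ^ 2 / A = 3 + A + 1 / A := by field_simp; ring
    have g6 : P (μ0 + 1) ≤ 3 + 2 * A + 1 / A := by linarith
    have g7 : y * P (μ0 + 1) ≤ y * (3 + 2 * A + 1 / A) := mul_le_mul_of_nonneg_left g6 hy0
    have g8 : 0 ≤ y * P μ0 := mul_nonneg hy0 (h0 _)
    have g9 : 0 ≤ y ^ 2 / (2 * a) := by positivity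
    linarith
  · have g1 := hG (μ0 + y)
    have g2 : max (μ0 + y) 0 ≤ y := max_le (by linarith) (by linarith)
    have g3 : (max (μ0 + y) 0 + A) ^ 2 ≤ (y + A) ^ 2 := by
      have : 0 ≤ max (μ0 + y) 0 := le_max_right _ _
      gcongr
    have g4 : (max (μ0 + y) 0 + A) ^ 2 / A ≤ (y + A) ^ 2 / A := by gcongr
    have g5 : (y + A) ^ 2 / A ≤ 2 / A * y ^ 2 + 2 * A := by
      have : 2 / A * y ^ 2 + 2 * A = (2 * y ^ 2 + 2 * A ^ 2) / A := by field_simp
      rw [this, div_le_div_iff_of_pos_right hA]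
      nlinarith [sq_nonneg (y - A)]
    have g6 : 2 / A * y ^ 2 ≤ y ^ 2 / (2 * a) := by
      calc 2 / A * y ^ 2 ≤ 1 / (2 * a) * y ^ 2 := by gcongr
        _ = y ^ 2 / (2 * a) := by ring
    have g7 : 3 + 2 * A + 1 / A ≤ y * (3 + 2 * A + 1 / A) :=
      le_mul_of_one_le_left (by positivity) h1
    have := h0 μ0
    linarith

/-- Kink creation by a long-range attraction. -/
theorem kink_step {P : ℝ → ℝ} (hc : ConvexOn ℝ univ P) (hm : Monotone P) (h0 : ∀ ν, 0 ≤ P ν)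
    {A : ℝ} (hA : 0 < A) (hG : ∀ ν, P ν ≤ 1 + (max ν 0 + A) ^ 2 / A) {a : ℝ} (ha : 0 < a)
    (haA : 4 * a ≤ A) {μ0 d h : ℝ} (hμ0 : μ0 ≤ 0) (hd : 0 < d) (hd1 : d ≤ 1)
    (hD : 2 * (P (μ0 + 1) - P μ0) * d + (h ^ 2 + d ^ 2) / a < DD P μ0 h) :
    ∃ μ1 νm νp : ℝ, μ0 - a * (3 + 2 * A + 1 / A) ≤ μ1 ∧ μ1 ≤ μ0 ∧
      (∀ x, P x - (x - μ1) ^ 2 / (2 * a) ≤ P νm - (νm - μ1) ^ 2 / (2 * a)) ∧
      (P νp - (νp - μ1) ^ 2 / (2 * a) = P νm - (νm - μ1) ^ 2 / (2 * a)) ∧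
      DD P μ0 d ≤ (νp - νm) / a * d := by
  set R := 3 + 2 * A + 1 / A with hR
  have hR0 : 0 < R := by positivity
  set μL := μ0 - a * R with hμL
  have hμL0 : μL ≤ μ0 := by have : 0 < a * R := by positivity
                            linarith
  set M2 := 3 * A + 1 with hM2
  have hcont : Continuous P := by
    have := hc.continuousOn isOpen_univ
    rwa [← continuousOn_univ]
  set f : ℝ → ℝ → ℝ := fun μ ν => P ν - (ν - μ) ^ 2 / (2 * a) with hf
  have hfc : Continuous ↿f := by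
    show Continuous fun p : ℝ × ℝ => P p.2 - (p.2 - p.1) ^ 2 / (2 * a)
    fun_prop
  -- far field
  have far : ∀ μ ν, μ ≤ μ0 → M2 ≤ ν → f μ ν ≤ f μ μ0 := fun μ ν hμ hν =>
    far_field h0 hA hG ha haA hμ0 μ ν hμ hν
  -- at the left end
  have left : ∀ ν, μ0 ≤ ν → f μL ν ≤ f μL μ0 := by
    intro ν hν
    have h5 := left_end hc h0 hA hG ha haA hμ0 (ν - μ0) (by linarith)
    rw [← hR, add_sub_cancel] at h5
    have h4 : (ν - μL) ^ 2 / (2 * a) - (μ0 - μL) ^ 2 / (2 * a)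
        = (ν - μ0) ^ 2 / (2 * a) + (ν - μ0) * R := by
      rw [hμL]; field_simp; ring
    simp only [hf]
    linarith
  set K1 := Icc μL μ0 with hK1
  set K2 := Icc μ0 M2 with hK2
  have hM20 : μ0 ≤ M2 := by rw [hM2]; linarith
  have c1 : Continuous fun μ => sSup (f μ '' K1) := isCompact_Icc.continuous_sSup hfc
  have c2 : Continuous fun μ => sSup (f μ '' K2) := isCompact_Icc.continuous_sSup hfc
  have fcont : ∀ μ, Continuous (f μ) := fun μ => by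
    show Continuous fun ν => P ν - (ν - μ) ^ 2 / (2 * a)
    fun_prop
  have b1 : ∀ μ, BddAbove (f μ '' K1) := fun μ => (isCompact_Icc.image (fcont μ)).bddAbove
  have b2 : ∀ μ, BddAbove (f μ '' K2) := fun μ => (isCompact_Icc.image (fcont μ)).bddAbove
  have hL : sSup (f μL '' K2) ≤ sSup (f μL '' K1) := by
    refine csSup_le ⟨f μL μ0, mem_image_of_mem _ ⟨le_rfl, hM20⟩⟩ ?_
    rintro _ ⟨ν, hν, rfl⟩
    refine (left ν hν.1).trans ?_
    exact le_csSup (b1 μL) (mem_image_of_mem _ ⟨hμL0, le_rfl⟩)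
  have hRt : sSup (f μ0 '' K1) ≤ sSup (f μ0 '' K2) := by
    refine csSup_le ⟨f μ0 μ0, mem_image_of_mem _ ⟨hμL0, le_rfl⟩⟩ ?_
    rintro _ ⟨ν, hν, rfl⟩
    have h1 : f μ0 ν ≤ f μ0 μ0 := by
      simp only [hf]
      have e1 : 0 ≤ (ν - μ0) ^ 2 / (2 * a) := by positivity
      have e2 := hm hν.2
      simp only [sub_self]
      norm_num
      linarith
    refine h1.trans ?_
    exact le_csSup (b2 μ0) (mem_image_of_mem _ ⟨le_rfl, hM20⟩)
  obtain ⟨μ1, hμ1, heq⟩ := isPreconnected_Icc.intermediate_value₂ (s := Icc μL μ0)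
    (right_mem_Icc.mpr hμL0) (left_mem_Icc.mpr hμL0) c1.continuousOn c2.continuousOn hRt hL
  obtain ⟨νm, hνm, hνm'⟩ := (isCompact_Icc : IsCompact K1).exists_sSup_image_eq ⟨μ0, hμL0, le_rfl⟩ (fcont μ1).continuousOn
  obtain ⟨νp, hνp, hνp'⟩ := (isCompact_Icc : IsCompact K2).exists_sSup_image_eq ⟨μ0, le_rfl, hM20⟩ (fcont μ1).continuousOn
  have heq' : f μ1 νp = f μ1 νm := by
    have : sSup (f μ1 '' K1) = sSup (f μ1 '' K2) := heq
    rw [hνm', hνp'] at this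
    exact this.symm
  have hglob : ∀ x, f μ1 x ≤ f μ1 νm := by
    intro x
    rw [← hνm']
    rcases lt_or_ge x μL with h1 | h1
    · have h2 : f μ1 x ≤ f μ1 μ1 := by
        simp only [hf]
        have e1 : 0 ≤ (x - μ1) ^ 2 / (2 * a) := by positivity
        have e2 := hm (h1.le.trans hμ1.1)
        simp only [sub_self]
        norm_num
        linarith
      exact h2.trans (le_csSup (b1 μ1) (mem_image_of_mem _ hμ1))
    · rcases le_or_gt x μ0 with h2 | h2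
      · exact le_csSup (b1 μ1) (mem_image_of_mem _ ⟨h1, h2⟩)
      · rcases le_or_gt x M2 with h3 | h3
        · have : sSup (f μ1 '' K1) = sSup (f μ1 '' K2) := heq
          rw [this]
          exact le_csSup (b2 μ1) (mem_image_of_mem _ ⟨h2.le, h3⟩)
        · exact (far μ1 x hμ1.2 h3.le).trans
            (le_csSup (b1 μ1) (mem_image_of_mem _ ⟨hμL0, le_rfl⟩))
  have hglob2 : ∀ x, f μ1 x ≤ f μ1 νp := fun x => (hglob x).trans heq'.ge
  have z1 := no_max hc hm ha hd hd1 hμ1.2 hD hglob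
  have z2 := no_max hc hm ha hd hd1 hμ1.2 hD hglob2
  have y1 : νm ≤ μ0 - d := by
    rcases z1 with z | z
    · exact z
    · exfalso; have := hνm.2; linarith
  have y2 : μ0 + d ≤ νp := by
    rcases z2 with z | z
    · exfalso; have := hνp.1; linarith
    · exact z
  exact ⟨μ1, νm, νp, hμ1.1, hμ1.2, hglob, heq', slope_jump hc ha hd hglob hglob2 y1 y2⟩

end Vale.Agent.P171
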