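import Vale.Agent.P171.Upper2
import Vale.Agent.P171.Kink

open MeasureTheory ENNReal Finset Filter Topology

namespace Vale.Agent.P171

/-- No attraction. -/
def w0 : E3 → E3 → ℝ := fun _ _ => 0

theorem att_zero : Att 0 w0 :=
  ⟨measurable_const, fun _ _ => rfl, fun _ _ => le_rfl, fun m => by simp [w0, dS]⟩

theorem w0_tinv : Tinv w0 := fun _ _ _ => rfl

variable {A : ℝ}

theorem Xi0_le (hA : 0 < A) (μ : ℝ) {s : ℝ} (hs : 0 ≤ s) :
    Xi A w0 μ s ≤ ENNReal.ofReal (Real.exp (Real.exp μ * s ^ 3)) := by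
  unfold Xi GI
  rw [← tsum_exp (by positivity)]
  refine ENNReal.tsum_le_tsum fun n => ?_
  rw [Zc_shift (measurableSet_box s) (pot_meas att_zero) μ 0]
  have h1 : Zc (box s) (Wt (pot A w0) 0) n ≤ 1 * (volume (box s) ^ n * ((n.factorial : ℝ≥0∞))⁻¹) := by
    refine Zc_le (measurableSet_box s) n fun m _ => ?_
    unfold Wt
    rw [← ENNReal.ofReal_one]
    refine ENNReal.ofReal_le_ofReal ?_
    rw [← Real.exp_zero]
    refine Real.exp_le_exp.mpr ?_
    have : 0 ≤ En (pot A w0) m := En_nonneg fun a _ b _ => by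
      unfold pot w0
      have := nr_nonneg 2 a b
      have : 0 ≤ A * nr 2 a b := by positivity
      linarith
    linarith
  refine (mul_le_mul' le_rfl h1).trans (le_of_eq ?_)
  rw [one_mul, volume_box s hs, ENNReal.ofReal_mul (Real.exp_pos _).le, mul_pow, sub_zero, ← mul_assoc]
  congr 2
  rw [← ENNReal.ofReal_pow (Real.exp_pos _).le, ← Real.exp_nat_mul]
  congr 2
  ring

theorem Pr0_le (hA : 0 < A) (μ : ℝ) : Pr A w0 μ ≤ Real.exp μ := by
  have T := Pr_tendsto att_zero w0_tinv hA (by positivity) μ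
  refine le_of_tendsto T ?_
  filter_upwards [eventually_gt_atTop 0] with L hL
  rw [div_le_iff₀ (by positivity)]
  have h1 := ENNReal.toReal_mono ENNReal.ofReal_ne_top (Xi0_le hA μ hL.le)
  rw [ENNReal.toReal_ofReal (Real.exp_pos _).le] at h1
  have h2 := one_le_Xi_toReal att_zero hA (by positivity) hL.le μ
  have h3 := Real.log_le_log (by linarith) h1
  rwa [Real.log_exp] at h3

theorem Xi0_ge (μ : ℝ) {s : ℝ} (hs : 0 ≤ s) :
    ENNReal.ofReal (1 + Real.exp μ * s ^ 3) ≤ Xi A w0 μ s := by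
  unfold Xi GI
  have h1 : Zc (box s) (Wt (pot A w0) μ) 0 + Zc (box s) (Wt (pot A w0) μ) 1
      ≤ ∑' n, Zc (box s) (Wt (pot A w0) μ) n := by
    have := ENNReal.sum_le_tsum (f := fun n => Zc (box s) (Wt (pot A w0) μ) n) (Finset.range 2)
    rwa [Finset.sum_range_succ, Finset.sum_range_one] at this
  refine le_trans (le_of_eq ?_) h1
  rw [Zc_zero, Wt_zero]
  have h2 : Zc (box s) (Wt (pot A w0) μ) 1 = ENNReal.ofReal (Real.exp μ * s ^ 3) := by
    have h3 : Zc (box s) (Wt (pot A w0) μ) 1 = Zc (box s) (fun _ => ENNReal.ofReal (Real.exp μ)) 1 := by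
      refine Zc_congr 1 fun m _ hm => ?_
      obtain ⟨a, rfl⟩ := Multiset.card_eq_one.mp hm
      simp [Wt, En, dS, dg]
    rw [h3]
    unfold Zc
    rw [lintegral_mul_const _ (measurable_ind (measurableSet_box s)), lintegral_ind (measurableSet_box s),
      volume_box s hs, ENNReal.ofReal_mul (Real.exp_pos _).le]
    simp [mul_comm]
  rw [h2, ← ENNReal.ofReal_one, ← ENNReal.ofReal_add (by norm_num) (by positivity)]

theorem Pr0_ge (hA : 0 < A) (μ : ℝ) {s : ℝ} (hs : 0 < s) :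
    Real.log (1 + Real.exp μ * s ^ 3) / (s + 2) ^ 3 ≤ Pr A w0 μ := by
  rw [div_le_iff₀ (by positivity)]
  refine le_trans ?_ (lf_le_Pr att_zero hA (by positivity) μ hs)
  unfold lf
  have h1 := ENNReal.toReal_mono (Xi_ne_top att_zero hA (by positivity) hs.le μ) (Xi0_ge (A := A) μ hs.le)
  rw [ENNReal.toReal_ofReal (by positivity)] at h1
  exact Real.log_le_log (by positivity) h1

/-- Low-activity bound. -/
theorem Pr0_ge' (hA : 0 < A) {μ : ℝ} (hμ : Real.exp μ * 6000 ^ 3 ≤ 3 / 2000) :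
    (1 - 1 / 400) * Real.exp μ ≤ Pr A w0 μ := by
  refine le_trans ?_ (Pr0_ge hA μ (s := 6000) (by norm_num))
  set z := Real.exp μ with hz
  have hz0 : 0 < z := Real.exp_pos _
  set y := z * 6000 ^ 3 with hy
  have hy0 : 0 < y := by positivity
  have h1 : y * (1 - y) ≤ Real.log (1 + y) := by
    have h2 := Real.one_sub_inv_le_log_of_pos (show 0 < 1 + y by linarith)
    refine le_trans ?_ h2
    have h3 : 1 - (1 + y)⁻¹ = y / (1 + y) := by field_simp; ring
    rw [h3, le_div_iff₀ (by linarith)]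
    have : y * (1 - y) * (1 + y) = y - y ^ 3 := by ring
    rw [this]
    have : 0 < y ^ 3 := by positivity
    linarith
  rw [le_div_iff₀ (by norm_num)]
  refine le_trans ?_ h1
  have h4 : z = y / 6000 ^ 3 := by rw [hy]; field_simp
  rw [h4]
  have h5 : (1 - 1 / 400) * (y / 6000 ^ 3) * (6000 + 2) ^ 3 = y * ((1 - 1 / 400) * 6002 ^ 3 / 6000 ^ 3) := by
    ring
  rw [h5]
  refine mul_le_mul_of_nonneg_left ?_ hy0.le
  have h6 : (1 - 1 / 400 : ℝ) * 6002 ^ 3 / 6000 ^ 3 ≤ 1 - 3 / 2000 := by norm_num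
  linarith

/-- Initial activity. -/
noncomputable def zz : ℝ := 1 / (2000 * 6000 ^ 3)

theorem zz_pos : 0 < zz := by unfold zz; positivity

theorem exp_logzz (t : ℝ) : Real.exp (Real.log zz + t) = zz * Real.exp t := by
  rw [Real.exp_add, Real.exp_log zz_pos]

theorem logzz_nonpos : Real.log zz ≤ 0 := by
  refine Real.log_nonpos zz_pos.le ?_
  unfold zz; norm_num

theorem low_bound (hA : 0 < A) {t : ℝ} (ht : t ≤ 1) :
    (1 - 1 / 400) * (zz * Real.exp t) ≤ Pr A w0 (Real.log zz + t) := by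
  rw [← exp_logzz]
  refine Pr0_ge' hA ?_
  rw [exp_logzz]
  have h1 : Real.exp t ≤ Real.exp 1 := Real.exp_le_exp.mpr ht
  have h2 : Real.exp 1 < 2.7182818286 := Real.exp_one_lt_d9
  have h3 : Real.exp t ≤ 3 := by linarith
  have h4 : zz * Real.exp t * 6000 ^ 3 = Real.exp t / 2000 := by
    unfold zz; field_simp
  rw [h4]
  linarith

theorem cosh_lower {t : ℝ} (ht : 0 ≤ t) : 2 + t ^ 2 ≤ Real.exp t + Real.exp (-t) := by
  have h1 : t / 2 ≤ Real.sinh (t / 2) := Real.self_le_sinh_iff.mpr (by positivity)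
  have h2 : Real.exp t + Real.exp (-t) = 2 + 4 * Real.sinh (t / 2) ^ 2 := by
    rw [Real.sinh_eq]
    have e1 : Real.exp t = Real.exp (t / 2) ^ 2 := by rw [← Real.exp_nat_mul]; congr 1; push_cast; ring
    have e2 : Real.exp (-t) = Real.exp (-(t / 2)) ^ 2 := by
      rw [← Real.exp_nat_mul]; congr 1; push_cast; ring
    have e3 : Real.exp (t / 2) * Real.exp (-(t / 2)) = 1 := by
      rw [← Real.exp_add]; simp
    rw [e1, e2]
    nlinarith
  rw [h2]
  have h3 : (t / 2) ^ 2 ≤ Real.sinh (t / 2) ^ 2 := by gcongr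
  nlinarith

theorem DD_low (hA : 0 < A) {t : ℝ} (ht0 : 0 ≤ t) (ht : t ≤ 1) :
    zz * ((1 - 1 / 400) * (2 + t ^ 2) - 2) ≤ DD (Pr A w0) (Real.log zz) t := by
  unfold DD
  have h1 := low_bound hA ht
  have h2 := low_bound hA (show -t ≤ 1 by linarith)
  have h3 := Pr0_le hA (Real.log zz)
  rw [Real.exp_log zz_pos] at h3
  have h4 := cosh_lower ht0
  have h5 := mul_le_mul_of_nonneg_left h4 zz_pos.le
  rw [← sub_eq_add_neg] at h2
  nlinarith

theorem initial_one (hA : 0 < A) {a : ℝ} (ha : 10 / zz ≤ a) :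
    2 * (Pr A w0 (Real.log zz + 1) - Pr A w0 (Real.log zz)) * (1 / 10) + (1 ^ 2 + (1 / 10) ^ 2) / a
      < DD (Pr A w0) (Real.log zz) 1 := by
  have hz := zz_pos
  have ha0 : 0 < a := lt_of_lt_of_le (by positivity) ha
  have h1 := DD_low hA zero_le_one le_rfl
  have h2 := Pr0_le hA (Real.log zz + 1)
  rw [exp_logzz] at h2
  have h3 : Real.exp 1 < 2.7182818286 := Real.exp_one_lt_d9
  have h4 := Pr_nonneg att_zero hA (by positivity) (Real.log zz)
  have h5 : (1 ^ 2 + (1 / 10) ^ 2) / a ≤ 101 / 1000 * zz := by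
    rw [div_le_iff₀ ha0]
    rw [div_le_iff₀ hz] at ha
    nlinarith
  have h6 : zz * Real.exp 1 ≤ zz * 3 := by gcongr; linarith
  nlinarith

theorem initial_two (hA : 0 < A) :
    zz / 25 * (1 / 10) ≤ DD (Pr A w0) (Real.log zz) (1 / 10) := by
  have h1 := DD_low hA (t := 1 / 10) (by norm_num) (by norm_num)
  have hz := zz_pos
  refine le_trans ?_ h1
  nlinarith

end Vale.Agent.P171
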