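import Vale.Agent.P171.Tail

open MeasureTheory ENNReal Finset Filter Topology

namespace Vale.Agent.P171

/-- Number of points in `B`. -/
noncomputable def cnt (B : Set E3) (m : Multiset E3) : ℝ :=
  (m.map (B.indicator fun _ => (1:ℝ))).sum

theorem cnt_add (B : Set E3) (m m' : Multiset E3) : cnt B (m + m') = cnt B m + cnt B m' := by
  simp [cnt]

theorem cnt_eq_zero {B : Set E3} {m : Multiset E3} (h : ∀ a ∈ m, a ∉ B) : cnt B m = 0 := by
  unfold cnt
  refine Multiset.sum_eq_zero fun x hx => ?_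
  obtain ⟨a, ha, rfl⟩ := Multiset.mem_map.mp hx
  exact Set.indicator_of_notMem (h a ha) _

theorem cnt_eq_card {B : Set E3} {m : Multiset E3} (h : ∀ a ∈ m, a ∈ B) : cnt B m = m.card := by
  unfold cnt
  have : m.map (B.indicator fun _ => (1:ℝ)) = m.map fun _ => (1:ℝ) :=
    Multiset.map_congr rfl fun a ha => Set.indicator_of_mem (h a ha) _
  rw [this]; simp

theorem cnt_meas {B : Set E3} (hB : MeasurableSet B) (n : ℕ) :
    Measurable fun x : Fin n → E3 => cnt B (ms x) := by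
  have : ∀ x : Fin n → E3, cnt B (ms x) = ∑ i, B.indicator (fun _ => (1:ℝ)) (x i) := by
    intro x
    simp only [cnt, ms, Multiset.map_map]
    rfl
  simp_rw [this]
  exact Finset.measurable_sum _ fun i _ =>
    (measurable_const.indicator hB).comp (measurable_pi_apply i)

theorem dS_finset_sum {κ : Type} (s : Finset κ) (u : κ → E3 → E3 → ℝ) (m m' : Multiset E3) :
    dS (fun a b => ∑ g ∈ s, u g a b) m m' = ∑ g ∈ s, dS (u g) m m' := by
  classical
  induction s using Finset.induction_on with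
  | empty => simp [dS]
  | insert g s hg ih =>
    simp_rw [Finset.sum_insert hg]
    rw [dS_fadd, ih]

theorem dS_prod (f g : E3 → ℝ) (m m' : Multiset E3) :
    dS (fun a b => f a * g b) m m' = (m.map f).sum * (m'.map g).sum := by
  simp [dS, Multiset.sum_map_mul_left, Multiset.sum_map_mul_right]

section
variable (s μ ℓ : ℝ) (M n : ℕ)

open Classical in
/-- Weight with prescribed occupation numbers. -/
noncomputable def FS (u : E3 → E3 → ℝ) (s μ : ℝ) (n : ℕ) (S : Finset I3) (m : Multiset E3) : ℝ≥0∞ :=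
  if ∀ q ∈ S, cnt (cube (s + 2) 0 s q) m = n then Wt u μ m else 0

theorem FS_meas {u : E3 → E3 → ℝ} (hu : Measurable fun p : E3 × E3 => u p.1 p.2) (S : Finset I3) :
    MeasF (FS u s μ n S) := by
  classical
  intro k
  unfold FS
  refine Measurable.ite ?_ (measF_Wt hu μ k) measurable_const
  have : {a : Fin k → E3 | ∀ q ∈ S, cnt (cube (s + 2) 0 s q) (ms a) = n}
      = ⋂ q ∈ S, {a | cnt (cube (s + 2) 0 s q) (ms a) = n} := by
    ext a; simp
  rw [this]
  refine Finset.measurableSet_biInter _ fun q _ => ?_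
  exact measurableSet_eq_fun (cnt_meas (measurableSet_cube _ _ _ _) k) measurable_const

end

/-- Total number of ordered pairs of close cubes in a large box. -/
noncomputable def KK (s ℓ : ℝ) (M : ℕ) : ℝ :=
  ∑ q ∈ ibox M, (((nbr (s + 2) 0 ℓ q) ∩ ibox M).card : ℝ)

theorem small_cube_sub {s : ℝ} (q : I3) : cube (s + 2) 0 s q ⊆ cube (s + 2) 0 (s + 2) q :=
  fun _ hx i => ⟨(hx i).1, by linarith [(hx i).2]⟩

theorem nr_ge {s ℓ : ℝ} (hs : 0 < s) (M : ℕ) (a b : E3) :
    ∑ q ∈ ibox M, ∑ r ∈ nbr (s + 2) 0 ℓ q ∩ ibox M,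
      (cube (s + 2) 0 s q).indicator (fun _ => (1:ℝ)) a *
        (cube (s + 2) 0 s r).indicator (fun _ => (1:ℝ)) b ≤ nr ℓ a b := by
  classical
  by_cases h : ∃ q ∈ ibox M, a ∈ cube (s + 2) 0 s q ∧ ∃ r ∈ nbr (s + 2) 0 ℓ q ∩ ibox M,
      b ∈ cube (s + 2) 0 s r
  · obtain ⟨q, hq, ha, r, hr, hb⟩ := h
    have h1 : nr ℓ a b = 1 := by
      unfold nr
      rw [if_pos]
      have h2 : Rlow (s + 2) 0 ℓ q r := by
        have := (Finset.mem_inter.mp hr).1
        unfold nbr at this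
        exact (Finset.mem_filter.mp this).2
      exact h2 a (small_cube_sub q ha) b (small_cube_sub r hb)
    rw [h1]
    refine le_of_eq ?_
    rw [Finset.sum_eq_single q, Finset.sum_eq_single r]
    · rw [Set.indicator_of_mem ha, Set.indicator_of_mem hb]; norm_num
    · intro r' _ hr'
      have : b ∉ cube (s + 2) 0 s r' := fun hb' =>
        Set.disjoint_left.mp (cube_disjoint (by linarith) (by linarith) hr') hb' hb
      rw [Set.indicator_of_notMem this, mul_zero]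
    · intro h; exact absurd hr h
    · intro q' _ hq'
      have : a ∉ cube (s + 2) 0 s q' := fun ha' =>
        Set.disjoint_left.mp (cube_disjoint (by linarith) (by linarith) hq') ha' ha
      refine Finset.sum_eq_zero fun r' _ => ?_
      rw [Set.indicator_of_notMem this, zero_mul]
    · intro h; exact absurd hq h
  · push Not at h
    refine le_trans (le_of_eq ?_) (nr_nonneg ℓ a b)
    refine Finset.sum_eq_zero fun q hq => Finset.sum_eq_zero fun r hr => ?_
    by_cases ha : a ∈ cube (s + 2) 0 s q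
    · rw [Set.indicator_of_notMem (h q hq ha r hr), mul_zero]
    · rw [Set.indicator_of_notMem ha, zero_mul]

theorem dS_nr_ge {s ℓ : ℝ} (hs : 0 < s) (M n : ℕ) (m : Multiset E3)
    (h : ∀ q ∈ ibox M, cnt (cube (s + 2) 0 s q) m = n) :
    (n:ℝ) ^ 2 * KK s ℓ M ≤ dS (nr ℓ) m m := by
  refine le_trans (le_of_eq ?_) (dS_le fun a _ b _ => nr_ge hs M a b)
  rw [dS_finset_sum]
  simp_rw [dS_finset_sum, dS_prod]
  unfold KK
  rw [Finset.mul_sum]
  refine Finset.sum_congr rfl fun q hq => ?_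
  have h1 : ∀ r ∈ nbr (s + 2) 0 ℓ q ∩ ibox M,
      (m.map ((cube (s + 2) 0 s q).indicator fun _ => (1:ℝ))).sum *
        (m.map ((cube (s + 2) 0 s r).indicator fun _ => (1:ℝ))).sum = (n:ℝ) ^ 2 := by
    intro r hr
    have e1 := h q hq
    have e2 := h r (Finset.mem_inter.mp hr).2
    unfold cnt at e1 e2
    rw [e1, e2]; ring
  rw [Finset.sum_congr rfl h1, Finset.sum_const, nsmul_eq_mul]
  ring

theorem KK_ge {s ℓ : ℝ} (hs : 0 < s) (hℓ : 4 * (s + 2) ≤ ℓ) (M : ℕ)
    (hM : 2 * ⌊ℓ / (s + 2)⌋₊ ≤ M) :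
    ((M : ℝ) - 2 * ⌊ℓ / (s + 2)⌋₊) ^ 3 * ((ℓ - 4 * (s + 2)) ^ 3 * (Real.pi * 4 / 3) / (s + 2) ^ 3)
      ≤ KK s ℓ M := by
  classical
  set t := ⌊ℓ / (s + 2)⌋₊ with ht
  set IB : Finset I3 := Fintype.piFinset fun _ => Finset.Ico (t : ℤ) ((M : ℤ) - t) with hIB
  have hsub : IB ⊆ ibox M := by
    intro q hq
    rw [hIB, Fintype.mem_piFinset] at hq
    rw [mem_ibox]
    intro i
    have := Finset.mem_Ico.mp (hq i)
    constructor <;> omega
  have hnbr : ∀ q ∈ IB, nbr (s + 2) 0 ℓ q ∩ ibox M = nbr (s + 2) 0 ℓ q := by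
    intro q hq
    rw [Finset.inter_eq_left]
    intro r hr
    unfold nbr at hr
    have h1 := (Finset.mem_filter.mp hr).1
    rw [Fintype.mem_piFinset] at h1
    rw [hIB, Fintype.mem_piFinset] at hq
    rw [mem_ibox]
    intro i
    have h2 := Finset.mem_Ico.mp (hq i)
    have h3 := Finset.mem_Icc.mp (h1 i)
    rw [← ht] at h3
    constructor <;> omega
  have hcard : (IB.card : ℝ) = ((M : ℝ) - 2 * t) ^ 3 := by
    rw [hIB, Fintype.card_piFinset]
    simp only [Int.card_Ico, Finset.prod_const, Finset.card_univ, Fintype.card_fin]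
    have : ((M : ℤ) - t - t).toNat = M - 2 * t := by omega
    rw [this]
    push_cast [Nat.cast_sub hM]
    ring
  have hlow : ∀ q, (ℓ - 4 * (s + 2)) ^ 3 * (Real.pi * 4 / 3) / (s + 2) ^ 3
      ≤ ((nbr (s + 2) 0 ℓ q).card : ℝ) := by
    intro q
    rw [div_le_iff₀ (by positivity)]
    exact count_low (by linarith) hℓ q
  unfold KK
  calc ((M : ℝ) - 2 * t) ^ 3 * ((ℓ - 4 * (s + 2)) ^ 3 * (Real.pi * 4 / 3) / (s + 2) ^ 3)
      = ∑ q ∈ IB, ((ℓ - 4 * (s + 2)) ^ 3 * (Real.pi * 4 / 3) / (s + 2) ^ 3) := by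
        rw [Finset.sum_const, nsmul_eq_mul, hcard]
    _ ≤ ∑ q ∈ IB, (((nbr (s + 2) 0 ℓ q) ∩ ibox M).card : ℝ) := by
        refine Finset.sum_le_sum fun q hq => ?_
        rw [hnbr q hq]
        exact hlow q
    _ ≤ _ := Finset.sum_le_sum_of_subset_of_nonneg hsub fun _ _ _ => Nat.cast_nonneg _

section
variable {A κ κ' : ℝ} {w : E3 → E3 → ℝ}

theorem canonical_lower (h : Att κ w) (hw : Tinv w) {bb : ℝ} (hbb : 0 ≤ bb) (μ : ℝ) {s ℓ : ℝ}
    (hs : 0 < s) (M n : ℕ) :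
    (Zc (box s) (Wt (pot A w) μ) n) ^ (M ^ 3)
        * ENNReal.ofReal (Real.exp (bb / 2 * ((n:ℝ) ^ 2 * KK s ℓ M - n * M ^ 3)))
      ≤ Xi A (fun a b => w a b + bb * nr ℓ a b) μ (M * (s + 2)) := by
  classical
  have h1 := Zc_union_ge (fun q => cube (s + 2) 0 s q) (fun q => measurableSet_cube _ _ _ _)
    (fun q r hqr => cube_disjoint (by linarith) (by linarith) hqr)
    (fun S => FS (pot A w) s μ n S) (fun S => FS_meas s μ n (pot_meas h) S)
    (fun m => if m.card = n then Wt (pot A w) μ m else 0) ?_ ?_ ?_ n (ibox M)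
  · have h2 : ∀ q : I3, Zc (cube (s + 2) 0 s q)
        (fun m => if m.card = n then Wt (pot A w) μ m else 0) n
        = Zc (box s) (Wt (pot A w) μ) n := by
      intro q
      rw [cube_preimage, Zc_translate]
      refine Zc_congr n fun m _ hm => ?_
      rw [Multiset.card_map, if_pos hm, Wt_tinv (pot_tinv hw)]
    simp_rw [h2] at h1
    rw [Finset.prod_const, card_ibox] at h1
    refine (mul_le_mul' h1 le_rfl).trans ?_
    rw [mul_comm, ← Zc_const_mul (Finset.measurableSet_biUnion _ fun q _ => measurableSet_cube _ _ _ _)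
      (FS_meas s μ n (pot_meas h) _)]
    refine le_trans ?_ (GI_mono (G := Wt (pot A fun a b => w a b + bb * nr ℓ a b) μ)
      (union_sub_box hs M) fun _ _ => le_rfl)
    refine le_trans ?_ (ENNReal.le_tsum (M ^ 3 * n))
    refine Zc_mono _ fun m _ hm => ?_
    unfold FS
    split_ifs with hc
    · unfold Wt
      rw [← ENNReal.ofReal_mul (Real.exp_pos _).le, ← Real.exp_add]
      refine ENNReal.ofReal_le_ofReal (Real.exp_le_exp.mpr ?_)
      have e1 : En (pot A fun a b => w a b + bb * nr ℓ a b) m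
          = En (pot A w) m - bb * En (nr ℓ) m := by
        rw [← En_fmul, ← En_fsub]
        congr 1
        funext a b
        unfold pot; ring
      rw [e1]
      have e2 := dS_nr_ge (ℓ := ℓ) hs M n m hc
      have e3 : dg (nr ℓ) m ≤ m.card := by
        have : dg (nr ℓ) m ≤ dg (fun _ _ => 1) m := by
          unfold dg
          refine Multiset.sum_map_le_sum_map _ _ fun a _ => ?_
          unfold nr; split_ifs <;> norm_num
        rwa [dg_one] at this
      have e4 : (m.card : ℝ) = n * M ^ 3 := by rw [hm]; push_cast; ring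
      rw [e4] at e3 ⊢
      have e5 : (n:ℝ) ^ 2 * KK s ℓ M - n * M ^ 3 ≤ 2 * En (nr ℓ) m := by
        unfold En; linarith
      nlinarith
    · simp
  · intro k
    have : (fun x : Fin k → E3 => if (ms x).card = n then Wt (pot A w) μ (ms x) else 0)
        = fun x => if k = n then Wt (pot A w) μ (ms x) else 0 := by
      funext x; rw [ms_card]; simp
    rw [this]
    split_ifs
    · exact measF_Wt (pot_meas h) μ k
    · exact measurable_const
  · unfold FS
    simp [Wt_zero]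
  · intro S q hq m₁ m₂ h1 h2
    unfold FS
    split_ifs with c1 c2 c3
    · refine Wt_add_ge _ (pot_symm h) μ m₁ m₂ fun a ha b hb => ?_
      have h3 := h1 a ha
      simp only [Set.mem_iUnion] at h3
      obtain ⟨r, hr, h3⟩ := h3
      exact pot_nonpos_of_far h (cube_far (by rintro rfl; exact hq hr) hs h3 (h2 b hb))
    · exfalso
      apply c3
      intro r hr
      rw [cnt_add]
      rcases Finset.mem_insert.mp hr with rfl | hr
      · rw [cnt_eq_card h2, c2, cnt_eq_zero, zero_add]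
        intro a ha ha'
        have h3 := h1 a ha
        simp only [Set.mem_iUnion] at h3
        obtain ⟨r', hr', h3⟩ := h3
        exact Set.disjoint_left.mp (cube_disjoint (by linarith) (by linarith)
          (by rintro rfl; exact hq hr' : r' ≠ r)) h3 ha'
      · rw [c1 r hr, cnt_eq_zero, add_zero]
        intro a ha ha'
        exact Set.disjoint_left.mp (cube_disjoint (by linarith) (by linarith)
          (by rintro rfl; exact hq hr : q ≠ r)) (h2 a ha) ha'
    all_goals simp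

theorem lower_fin (h : Att κ w) (hw : Tinv w) (hA : 0 < A) (hκ : κ ≤ A / 2) {bb : ℝ} (hbb : 0 ≤ bb)
    (μ : ℝ) {s ℓ : ℝ} (h' : Att κ' (fun a b => w a b + bb * nr ℓ a b)) (hκ' : κ' ≤ A / 2)
    (hs : 0 < s) (M n : ℕ) (hz : 0 < (Zc (box s) (Wt (pot A w) μ) n).toReal) :
    (M:ℝ) ^ 3 * Real.log (Zc (box s) (Wt (pot A w) μ) n).toReal
      + bb / 2 * ((n:ℝ) ^ 2 * KK s ℓ M - n * M ^ 3)
      ≤ lf A (fun a b => w a b + bb * nr ℓ a b) μ (M * (s + 2)) := by
  have h1 := canonical_lower (A := A) (ℓ := ℓ) h hw hbb μ hs M n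
  have h2 := ENNReal.toReal_mono (Xi_ne_top h' hA hκ' (by positivity) μ) h1
  rw [ENNReal.toReal_mul, ENNReal.toReal_pow, ENNReal.toReal_ofReal (Real.exp_pos _).le] at h2
  have h3 := Real.log_le_log (by positivity) h2
  rw [Real.log_mul (by positivity) (Real.exp_pos _).ne', Real.log_exp, Real.log_pow] at h3
  push_cast at h3
  exact h3

theorem lower_core (h : Att κ w) (hw : Tinv w) (hA : 0 < A) (hκ : κ ≤ A / 2) {bb : ℝ} (hbb : 0 ≤ bb)
    (μ : ℝ) {s ℓ : ℝ} (h' : Att κ' (fun a b => w a b + bb * nr ℓ a b)) (hκ' : κ' ≤ A / 2)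
    (hs : 0 < s) (hℓ : 4 * (s + 2) ≤ ℓ) (n : ℕ)
    (hz : 0 < (Zc (box s) (Wt (pot A w) μ) n).toReal) :
    Real.log (Zc (box s) (Wt (pot A w) μ) n).toReal
      + bb / 2 * ((n:ℝ) ^ 2 * ((ℓ - 4 * (s + 2)) ^ 3 * (Real.pi * 4 / 3) / (s + 2) ^ 3) - n)
      ≤ Pr A (fun a b => w a b + bb * nr ℓ a b) μ * (s + 2) ^ 3 := by
  set X := Real.log (Zc (box s) (Wt (pot A w) μ) n).toReal
  set NL := (ℓ - 4 * (s + 2)) ^ 3 * (Real.pi * 4 / 3) / (s + 2) ^ 3 with hNL
  set t := ⌊ℓ / (s + 2)⌋₊ with ht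
  set P := Pr A (fun a b => w a b + bb * nr ℓ a b) μ
  have hNL0 : 0 ≤ NL := by
    have : 0 ≤ ℓ - 4 * (s + 2) := by linarith
    positivity
  have T1 : Tendsto (fun M : ℕ => X + bb / 2 * ((n:ℝ) ^ 2 * ((((M:ℝ) - 2 * t) / M) ^ 3 * NL) - n)) atTop
      (𝓝 (X + bb / 2 * ((n:ℝ) ^ 2 * (1 ^ 3 * NL) - n))) := by
    have : Tendsto (fun M : ℕ => ((M:ℝ) - 2 * t) / M) atTop (𝓝 1) := by
      have h2 : Tendsto (fun M : ℕ => 1 - (2 * (t:ℝ)) / M) atTop (𝓝 (1 - 0)) :=
        tendsto_const_nhds.sub (tendsto_const_nhds.div_atTop tendsto_natCast_atTop_atTop)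
      rw [sub_zero] at h2
      refine h2.congr' ?_
      filter_upwards [eventually_gt_atTop 0] with M hM
      have : (0:ℝ) < M := by exact_mod_cast hM
      field_simp
    exact tendsto_const_nhds.add ((((((this.pow 3).mul_const NL).const_mul _).sub_const _)).const_mul _)
  have T2 : Tendsto (fun M : ℕ => P * (((M:ℝ) * (s + 2) + 2) / M) ^ 3) atTop
      (𝓝 (P * (s + 2) ^ 3)) := by
    have : Tendsto (fun M : ℕ => ((M:ℝ) * (s + 2) + 2) / M) atTop (𝓝 (s + 2)) := by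
      have h2 : Tendsto (fun M : ℕ => (s + 2) + 2 / (M:ℝ)) atTop (𝓝 ((s + 2) + 0)) :=
        tendsto_const_nhds.add (tendsto_const_nhds.div_atTop tendsto_natCast_atTop_atTop)
      rw [add_zero] at h2
      refine h2.congr' ?_
      filter_upwards [eventually_gt_atTop 0] with M hM
      have : (0:ℝ) < M := by exact_mod_cast hM
      field_simp
    exact (this.pow 3).const_mul _
  rw [one_pow, one_mul] at T1
  refine le_of_tendsto_of_tendsto T1 T2 ?_
  filter_upwards [eventually_gt_atTop 0, eventually_ge_atTop (2 * t)] with M hM hM2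
  have hM0 : (0:ℝ) < M := by exact_mod_cast hM
  have h1 := lower_fin h hw hA hκ hbb μ h' hκ' hs M n hz
  have h2 := lf_le_Pr h' hA hκ' μ (s := (M:ℝ) * (s + 2)) (by positivity)
  have h3 := KK_ge hs hℓ M hM2
  have h4 : (M:ℝ) ^ 3 * (X + bb / 2 * ((n:ℝ) ^ 2 * ((((M:ℝ) - 2 * t) / M) ^ 3 * NL) - n))
      ≤ P * ((M:ℝ) * (s + 2) + 2) ^ 3 := by
    have h5 : bb / 2 * ((n:ℝ) ^ 2 * (((M:ℝ) - 2 * t) ^ 3 * NL) - n * M ^ 3)
        ≤ bb / 2 * ((n:ℝ) ^ 2 * KK s ℓ M - n * M ^ 3) := by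
      gcongr
    have h6 : (M:ℝ) ^ 3 * (X + bb / 2 * ((n:ℝ) ^ 2 * ((((M:ℝ) - 2 * t) / M) ^ 3 * NL) - n))
        = (M:ℝ) ^ 3 * X + bb / 2 * ((n:ℝ) ^ 2 * (((M:ℝ) - 2 * t) ^ 3 * NL) - n * M ^ 3) := by
      field_simp
    rw [h6]
    linarith
  have h7 : P * (((M:ℝ) * (s + 2) + 2) / M) ^ 3 = P * ((M:ℝ) * (s + 2) + 2) ^ 3 / (M:ℝ) ^ 3 := by
    rw [div_pow]; ring
  rw [h7, le_div_iff₀ (by positivity)]
  linarith

theorem att_nr {ℓ : ℝ} (hℓ : 3 ≤ ℓ) : Att (27 * ℓ ^ 3) (nr ℓ) := by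
  classical
  refine ⟨nr_meas ℓ, nr_symm ℓ, nr_nonneg ℓ, fun m => ?_⟩
  have h1 := schur (cel 1 0) (Rc (⌊ℓ⌋₊ + 1)) Rc_symm ((2 * ((⌊ℓ⌋₊ + 1 : ℕ):ℝ) + 1) ^ 3)
    (fun q T => count_Rc _ q T) m
  have h2 : dS (nr ℓ) m m ≤ dS (fun a b => if Rc (⌊ℓ⌋₊ + 1) (cel 1 0 a) (cel 1 0 b) then (1:ℝ) else 0) m m := by
    refine dS_le fun a _ b _ => ?_
    unfold nr
    by_cases hd : dist a b ≤ ℓ
    · rw [if_pos hd, if_pos (Rc_of_dist hd)]
    · rw [if_neg hd]; split_ifs <;> norm_num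
  refine (h2.trans h1).trans (mul_le_mul_of_nonneg_right ?_ (SQ_nonneg m))
  have h3 := Nat.floor_le (a := ℓ) (by linarith)
  have h4 : (27:ℝ) * ℓ ^ 3 = (3 * ℓ) ^ 3 := by ring
  rw [h4]
  push_cast
  have h5 : (0:ℝ) ≤ ⌊ℓ⌋₊ := Nat.cast_nonneg _
  gcongr
  linarith

/-- Lebowitz–Penrose lower bound. -/
theorem lower_limit (h : Att κ w) (hw : Tinv w) (hA : 0 < A) {b : ℝ} (hb : 0 < b)
    (hκ : κ + 27 * b ≤ A / 2) (μ ν : ℝ) {η : ℝ} (hη : 0 < η) :
    ∀ᶠ ℓ : ℝ in atTop, Pr A w ν - (ν - μ) ^ 2 / (2 * (b * (Real.pi * 4 / 3))) - η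
      ≤ Pr A (fun a b' => w a b' + (b * (ℓ ^ 3)⁻¹) * nr ℓ a b') μ := by
  have hκ0 : κ ≤ A / 2 := by linarith
  set a := b * (Real.pi * 4 / 3) with ha
  have hpi := Real.pi_pos
  have ha0 : 0 < a := by positivity
  set D := 3 + kk A (ν + 1) with hD
  have hD0 : 0 < D := by have := kk_nonneg hA (ν + 1); linarith
  -- choose s
  have hs1 : Tendsto (fun s : ℝ => lf A w ν s / (s + 2) ^ 3
      - Real.log (2 * (N0 A ν s + 1)) / (s + 2) ^ 3) atTop (𝓝 (Pr A w ν - 0)) := by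
    refine Tendsto.sub ?_ ?_
    · have h1 := Pr_tendsto h hw hA hκ0 ν
      have h2 : Tendsto (fun s : ℝ => (s / (s + 2)) ^ 3) atTop (𝓝 (1 ^ 3)) := by
        refine Tendsto.pow ?_ 3
        have h2 : Tendsto (fun L : ℝ => 1 - 2 / (L + 2)) atTop (𝓝 (1 - 0)) :=
          tendsto_const_nhds.sub (tendsto_const_nhds.div_atTop
            (tendsto_atTop_add_const_right _ _ tendsto_id))
        rw [sub_zero] at h2
        refine h2.congr' ?_
        filter_upwards [eventually_gt_atTop 0] with L hL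
        field_simp
        ring
      have h3 := h1.mul h2
      rw [one_pow, mul_one] at h3
      refine h3.congr' ?_
      filter_upwards [eventually_gt_atTop 0] with s hs
      field_simp
    · have h1 : Tendsto (fun x : ℝ => Real.log x / x) atTop (𝓝 0) := by
        have := Real.isLittleO_log_id_atTop.tendsto_div_nhds_zero
        simpa using this
      have h2 : Tendsto (fun s : ℝ => (2 * (D + 1)) * (s + 2) ^ 3) atTop atTop := by
        refine Tendsto.const_mul_atTop (by positivity) ?_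
        exact (tendsto_pow_atTop (by norm_num)).comp (tendsto_atTop_add_const_right _ _ tendsto_id)
      have h3 := (h1.comp h2).const_mul (2 * (D + 1))
      rw [mul_zero] at h3
      refine squeeze_zero' ?_ ?_ h3
      · filter_upwards [eventually_gt_atTop 0] with s hs
        refine div_nonneg (Real.log_nonneg ?_) (by positivity)
        have : (0:ℝ) ≤ N0 A ν s := Nat.cast_nonneg _
        linarith
      · filter_upwards [eventually_gt_atTop 0] with s hs
        have h4 := N0_le (μ := ν) hA hs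
        have h5 : (2 * ((N0 A ν s : ℝ) + 1)) ≤ (2 * (D + 1)) * (s + 2) ^ 3 := by
          have e1 : (s + 1) ^ 3 ≤ (s + 2) ^ 3 := by gcongr; linarith
          have e2 : (1:ℝ) ≤ (s + 2) ^ 3 := one_le_pow₀ (by linarith)
          have e3 : (s + 1) ^ 3 * (3 + kk A (ν + 1)) ≤ (s + 2) ^ 3 * D := by
            rw [← hD]; gcongr
          nlinarith
        have h6 : (0:ℝ) < 2 * ((N0 A ν s : ℝ) + 1) := by positivity
        have h7 := Real.log_le_log h6 h5
        simp only [Function.comp]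
        rw [div_le_iff₀ (by positivity)]
        refine h7.trans (le_of_eq ?_)
        field_simp
  rw [sub_zero] at hs1
  obtain ⟨s, hs2, hs3⟩ := ((((tendsto_order.mp hs1).1 (Pr A w ν - η / 2) (by linarith)).and
    (eventually_gt_atTop 0))).exists
  have hs0 : (0:ℝ) < s := hs3
  obtain ⟨n, hn, hXn⟩ := exists_n h hA hκ0 hs0 ν
  set zn := (Zc (box s) (Wt (pot A w) ν) n).toReal with hzn
  have hX1 := one_le_Xi_toReal h hA hκ0 hs0.le ν
  have hN1 : (0:ℝ) < 2 * (N0 A ν s + 1) := by positivity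
  have hznpos : 0 < zn := by
    by_contra hc
    push Not at hc
    have : 2 * ((N0 A ν s:ℝ) + 1) * zn ≤ 0 := mul_nonpos_of_nonneg_of_nonpos hN1.le hc
    linarith
  have hlogz : lf A w ν s - Real.log (2 * (N0 A ν s + 1)) ≤ Real.log zn := by
    have := Real.log_le_log (by linarith) hXn
    rw [Real.log_mul hN1.ne' hznpos.ne'] at this
    unfold lf
    linarith
  -- error terms as ℓ → ∞
  have hE : Tendsto (fun ℓ : ℝ => a / 2 * ((n:ℝ) ^ 2 / (s + 2) ^ 3) * (1 - (1 - 4 * (s + 2) / ℓ) ^ 3)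
      + b * (ℓ ^ 3)⁻¹ / 2 * n) atTop (𝓝 (a / 2 * ((n:ℝ) ^ 2 / (s + 2) ^ 3) * (1 - (1 - 0) ^ 3)
      + b * 0 / 2 * n)) := by
    refine Tendsto.add ?_ ?_
    · refine Tendsto.const_mul _ (tendsto_const_nhds.sub ((tendsto_const_nhds.sub ?_).pow 3))
      exact tendsto_const_nhds.div_atTop tendsto_id
    · refine Filter.Tendsto.mul_const _ (Filter.Tendsto.div_const (Filter.Tendsto.const_mul _ ?_) _)
      exact tendsto_inv_atTop_zero.comp (tendsto_pow_atTop (by norm_num))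
  have hE2 : (a / 2 * ((n:ℝ) ^ 2 / (s + 2) ^ 3) * (1 - (1 - 0) ^ 3) + b * 0 / 2 * n) = 0 := by ring
  rw [hE2] at hE
  filter_upwards [(tendsto_order.mp hE).2 (η / 2 * (s + 2) ^ 3) (by positivity),
    eventually_ge_atTop (4 * (s + 2)), eventually_ge_atTop 3] with ℓ hℓ1 hℓ2 hℓ3
  have hℓ0 : 0 < ℓ := by linarith
  have hatt : Att (κ + 27 * b) (fun a b' => w a b' + (b * (ℓ ^ 3)⁻¹) * nr ℓ a b') := by
    have := h.add ((att_nr hℓ3).smul (c := b * (ℓ ^ 3)⁻¹) (by positivity))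
    refine this.mono (le_of_eq ?_)
    field_simp
  have hzμ : (Zc (box s) (Wt (pot A w) μ) n).toReal = Real.exp ((μ - ν) * n) * zn := by
    rw [Zc_shift (measurableSet_box s) (pot_meas h) μ ν, ENNReal.toReal_mul,
      ENNReal.toReal_ofReal (Real.exp_pos _).le]
  have hcore := lower_core h hw hA hκ0 (bb := b * (ℓ ^ 3)⁻¹) (by positivity) μ hatt hκ hs0 hℓ2 n
    (by rw [hzμ]; positivity)
  rw [hzμ, Real.log_mul (Real.exp_pos _).ne' hznpos.ne', Real.log_exp] at hcore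
  set P := Pr A (fun a b' => w a b' + (b * (ℓ ^ 3)⁻¹) * nr ℓ a b') μ
  set V := (s + 2) ^ 3 with hV
  have hV0 : 0 < V := by positivity
  -- main inequality
  have e1 : b * (ℓ ^ 3)⁻¹ / 2 * ((n:ℝ) ^ 2 * ((ℓ - 4 * (s + 2)) ^ 3 * (Real.pi * 4 / 3) / V) - n)
      = a / 2 * ((n:ℝ) ^ 2 / V) - (a / 2 * ((n:ℝ) ^ 2 / V) * (1 - (1 - 4 * (s + 2) / ℓ) ^ 3)
          + b * (ℓ ^ 3)⁻¹ / 2 * n) := by
    have : (1 - 4 * (s + 2) / ℓ) ^ 3 = (ℓ - 4 * (s + 2)) ^ 3 * (ℓ ^ 3)⁻¹ := by
      rw [← inv_pow, ← mul_pow]; congr 1; field_simp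
    rw [this, ha]
    field_simp
    ring
  rw [e1] at hcore
  have e2 : -((ν - μ) ^ 2 / (2 * a)) * V ≤ (μ - ν) * n + a / 2 * ((n:ℝ) ^ 2 / V) := by
    have : (μ - ν) * n + a / 2 * ((n:ℝ) ^ 2 / V) + (ν - μ) ^ 2 / (2 * a) * V
        = (a * n - V * (ν - μ)) ^ 2 / (2 * a * V) := by
      field_simp
      ring
    have h2 : 0 ≤ (a * n - V * (ν - μ)) ^ 2 / (2 * a * V) := by positivity
    linarith
  have e3 : (Pr A w ν - η / 2) * V < lf A w ν s - Real.log (2 * (N0 A ν s + 1)) := by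
    have := hs2
    rw [← sub_div, lt_div_iff₀ hV0] at this
    exact this
  have e4 : (Pr A w ν - (ν - μ) ^ 2 / (2 * a) - η) * V ≤ P * V := by
    nlinarith
  exact le_of_mul_le_mul_right e4 hV0

end
end Vale.Agent.P171
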