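import Vale.Agent.P171.Boxes

open MeasureTheory ENNReal Finset Filter Topology

namespace Vale.Agent.P171

/-! ### Linearity of the configuration integral -/

theorem Zc_add {A : Set E3} (hA : MeasurableSet A) {F G : Multiset E3 → ℝ≥0∞} (hF : MeasF F)
    (c d : ℝ≥0∞) (n : ℕ) (hG : MeasF G) :
    Zc A (fun m => c * F m + d * G m) n = c * Zc A F n + d * Zc A G n := by
  unfold Zc
  have h1 : ∀ x : Fin n → E3, ind A x * (c * F (ms x) + d * G (ms x))
      = c * (ind A x * F (ms x)) + d * (ind A x * G (ms x)) := by intro x; ring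
  simp_rw [h1]
  have m1 : Measurable fun x : Fin n → E3 => ind A x * F (ms x) := (measurable_ind hA).mul (hF n)
  have m2 : Measurable fun x : Fin n → E3 => ind A x * G (ms x) := (measurable_ind hA).mul (hG n)
  rw [lintegral_add_left (m1.const_mul c), lintegral_const_mul c m1, lintegral_const_mul d m2]
  ring

theorem GI_add {A : Set E3} (hA : MeasurableSet A) {F G : Multiset E3 → ℝ≥0∞} (hF : MeasF F)
    (hG : MeasF G) (c d : ℝ≥0∞) :
    GI A (fun m => c * F m + d * G m) = c * GI A F + d * GI A G := by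
  unfold GI
  simp_rw [Zc_add hA hF c d _ hG]
  rw [ENNReal.tsum_add, ENNReal.tsum_mul_left, ENNReal.tsum_mul_left]

theorem MeasF.sum {κ : Type} (s : Finset κ) {F : κ → Multiset E3 → ℝ≥0∞} (hF : ∀ g, MeasF (F g)) :
    MeasF (fun m => ∑ g ∈ s, F g m) := fun n =>
  Finset.measurable_sum _ fun g _ => hF g n

theorem MeasF.const_mul {F : Multiset E3 → ℝ≥0∞} (hF : MeasF F) (c : ℝ≥0∞) :
    MeasF (fun m => c * F m) := fun n => (hF n).const_mul c

theorem GI_sum {A : Set E3} (hA : MeasurableSet A) {κ : Type} (s : Finset κ)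
    {F : κ → Multiset E3 → ℝ≥0∞} (hF : ∀ g, MeasF (F g)) :
    GI A (fun m => ∑ g ∈ s, F g m) = ∑ g ∈ s, GI A (F g) := by
  classical
  induction s using Finset.induction_on with
  | empty => simp [GI, Zc]
  | insert g s hg ih =>
    simp_rw [Finset.sum_insert hg]
    have := GI_add hA (hF g) (MeasF.sum s hF) 1 1
    simp only [one_mul] at this
    rw [this, ih]

theorem GI_const_mul {A : Set E3} (hA : MeasurableSet A) {F : Multiset E3 → ℝ≥0∞} (hF : MeasF F)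
    (c : ℝ≥0∞) : GI A (fun m => c * F m) = c * GI A F := by
  have := GI_add hA hF hF c 0
  simpa using this

/-- Log-convexity of the configuration integral. -/
theorem log_GI_convex {A : Set E3} (hA : MeasurableSet A) {H H1 H2 : Multiset E3 → ℝ}
    (m1 : MeasF fun m => ENNReal.ofReal (Real.exp (H1 m)))
    (m2 : MeasF fun m => ENNReal.ofReal (Real.exp (H2 m)))
    {p q : ℝ} (hp : 0 ≤ p) (hq : 0 ≤ q) (hpq : p + q = 1)
    (hH : ∀ m, H m ≤ p * H1 m + q * H2 m)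
    (f0 : GI A (fun m => ENNReal.ofReal (Real.exp (H m))) ≠ 0)
    (f1 : GI A (fun m => ENNReal.ofReal (Real.exp (H1 m))) ≠ 0)
    (f1' : GI A (fun m => ENNReal.ofReal (Real.exp (H1 m))) ≠ ⊤)
    (f2 : GI A (fun m => ENNReal.ofReal (Real.exp (H2 m))) ≠ 0)
    (f2' : GI A (fun m => ENNReal.ofReal (Real.exp (H2 m))) ≠ ⊤) :
    Real.log (GI A (fun m => ENNReal.ofReal (Real.exp (H m)))).toReal
      ≤ p * Real.log (GI A (fun m => ENNReal.ofReal (Real.exp (H1 m)))).toReal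
        + q * Real.log (GI A (fun m => ENNReal.ofReal (Real.exp (H2 m)))).toReal := by
  set Z1 := (GI A (fun m => ENNReal.ofReal (Real.exp (H1 m)))).toReal with hZ1
  set Z2 := (GI A (fun m => ENNReal.ofReal (Real.exp (H2 m)))).toReal with hZ2
  have z1 : 0 < Z1 := ENNReal.toReal_pos f1 f1'
  have z2 : 0 < Z2 := ENNReal.toReal_pos f2 f2'
  set C := Real.exp (p * Real.log Z1 + q * Real.log Z2) with hC
  have hCpos : 0 < C := Real.exp_pos _
  have hpt : ∀ m, Real.exp (H m) ≤ C * p / Z1 * Real.exp (H1 m) + C * q / Z2 * Real.exp (H2 m) := by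
    intro m
    have h1 : Real.exp (H m) ≤ Real.exp (p * H1 m + q * H2 m) := Real.exp_le_exp.mpr (hH m)
    have h2 : Real.exp (p * H1 m + q * H2 m)
        = C * Real.exp (p • (H1 m - Real.log Z1) + q • (H2 m - Real.log Z2)) := by
      rw [hC, ← Real.exp_add]
      congr 1
      simp only [smul_eq_mul]
      ring
    have h3 := convexOn_exp.2 (Set.mem_univ (H1 m - Real.log Z1)) (Set.mem_univ (H2 m - Real.log Z2))
      hp hq hpq
    rw [Real.exp_sub, Real.exp_sub, Real.exp_log z1, Real.exp_log z2] at h3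
    simp only [smul_eq_mul] at h3 h2
    rw [h2] at h1
    refine h1.trans ((mul_le_mul_of_nonneg_left h3 hCpos.le).trans (le_of_eq ?_))
    field_simp
  have hle : GI A (fun m => ENNReal.ofReal (Real.exp (H m))) ≤ ENNReal.ofReal C := by
    have e1 : ENNReal.ofReal (C * p / Z1) * GI A (fun m => ENNReal.ofReal (Real.exp (H1 m)))
        = ENNReal.ofReal (C * p) := by
      rw [← ENNReal.ofReal_toReal f1', ← ENNReal.ofReal_mul (by positivity), ← hZ1]
      congr 1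
      field_simp
    have e2 : ENNReal.ofReal (C * q / Z2) * GI A (fun m => ENNReal.ofReal (Real.exp (H2 m)))
        = ENNReal.ofReal (C * q) := by
      rw [← ENNReal.ofReal_toReal f2', ← ENNReal.ofReal_mul (by positivity), ← hZ2]
      congr 1
      field_simp
    calc GI A (fun m => ENNReal.ofReal (Real.exp (H m)))
        ≤ GI A (fun m => ENNReal.ofReal (C * p / Z1) * ENNReal.ofReal (Real.exp (H1 m))
            + ENNReal.ofReal (C * q / Z2) * ENNReal.ofReal (Real.exp (H2 m))) := by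
          refine GI_mono subset_rfl fun m _ => ?_
          rw [← ENNReal.ofReal_mul (by positivity), ← ENNReal.ofReal_mul (by positivity),
            ← ENNReal.ofReal_add (by positivity) (by positivity)]
          exact ENNReal.ofReal_le_ofReal (hpt m)
      _ = ENNReal.ofReal C := by
          rw [GI_add hA m1 m2, e1, e2, ← ENNReal.ofReal_add (by positivity) (by positivity)]
          congr 1
          rw [← mul_add, hpq, mul_one]
  have h4 : (GI A (fun m => ENNReal.ofReal (Real.exp (H m)))).toReal ≤ C := by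
    have := ENNReal.toReal_mono ENNReal.ofReal_ne_top hle
    rwa [ENNReal.toReal_ofReal hCpos.le] at this
  have h5 : 0 < (GI A (fun m => ENNReal.ofReal (Real.exp (H m)))).toReal :=
    ENNReal.toReal_pos f0 (ne_top_of_le_ne_top ENNReal.ofReal_ne_top hle)
  calc Real.log (GI A (fun m => ENNReal.ofReal (Real.exp (H m)))).toReal
      ≤ Real.log C := Real.log_le_log h5 h4
    _ = _ := by rw [hC, Real.log_exp]

/-! ### Potentials -/

open Classical in
/-- Indicator of pairs at distance at most `r`. -/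
noncomputable def nr (r : ℝ) (a b : E3) : ℝ := if dist a b ≤ r then 1 else 0

/-- Admissible attractions. -/
structure Att (κ : ℝ) (w : E3 → E3 → ℝ) : Prop where
  meas : Measurable fun p : E3 × E3 => w p.1 p.2
  symm : ∀ a b, w a b = w b a
  nonneg : ∀ a b, 0 ≤ w a b
  dom : ∀ m : Multiset E3, dS w m m ≤ κ * SQ (cel 1 0) m

/-- Repulsion of strength `A` and range 2 minus the attraction `w`. -/
noncomputable def pot (A : ℝ) (w : E3 → E3 → ℝ) (a b : E3) : ℝ := A * nr 2 a b - w a b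

theorem nr_nonneg (r : ℝ) (a b : E3) : 0 ≤ nr r a b := by unfold nr; split_ifs <;> norm_num
theorem nr_symm (r : ℝ) (a b : E3) : nr r a b = nr r b a := by simp only [nr, dist_comm]
theorem nr_meas (r : ℝ) : Measurable fun p : E3 × E3 => nr r p.1 p.2 := by
  unfold nr
  exact Measurable.ite (measurableSet_le measurable_dist measurable_const) measurable_const
    measurable_const

theorem SQ_nonneg (m : Multiset E3) : 0 ≤ SQ (cel 1 0) m := by
  rw [SQ_eq]; exact Finset.sum_nonneg fun _ _ => sq_nonneg _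

theorem Att.mono {κ κ' : ℝ} {w : E3 → E3 → ℝ} (h : Att κ w) (hk : κ ≤ κ') : Att κ' w :=
  ⟨h.meas, h.symm, h.nonneg, fun m => (h.dom m).trans
    (mul_le_mul_of_nonneg_right hk (SQ_nonneg m))⟩

theorem Att.add {κ κ' : ℝ} {w w' : E3 → E3 → ℝ} (h : Att κ w) (h' : Att κ' w') :
    Att (κ + κ') (fun a b => w a b + w' a b) :=
  ⟨h.meas.add h'.meas, fun a b => by rw [h.symm, h'.symm], fun a b => add_nonneg (h.nonneg a b)
    (h'.nonneg a b), fun m => by rw [dS_fadd, add_mul]; exact add_le_add (h.dom m) (h'.dom m)⟩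

theorem Att.smul {κ : ℝ} {w : E3 → E3 → ℝ} (h : Att κ w) {c : ℝ} (hc : 0 ≤ c) :
    Att (c * κ) (fun a b => c * w a b) :=
  ⟨h.meas.const_mul c, fun a b => by rw [h.symm], fun a b => mul_nonneg hc (h.nonneg a b),
    fun m => by rw [dS_fmul, mul_assoc]; exact mul_le_mul_of_nonneg_left (h.dom m) hc⟩

theorem pot_meas {A κ : ℝ} {w : E3 → E3 → ℝ} (h : Att κ w) :
    Measurable fun p : E3 × E3 => pot A w p.1 p.2 := ((nr_meas 2).const_mul A).sub h.meas

theorem pot_symm {A κ : ℝ} {w : E3 → E3 → ℝ} (h : Att κ w) (a b : E3) :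
    pot A w a b = pot A w b a := by unfold pot; rw [nr_symm, h.symm]

theorem same_cell_dist {a b : E3} (h : cel 1 0 a = cel 1 0 b) : dist a b ≤ 2 := by
  have h1 := (mem_cube_iff_cel one_pos _ a).mpr h
  have h2 := (mem_cube_iff_cel one_pos (t := 0) (cel 1 0 b) b).mpr rfl
  have := cube_dist one_pos h1 h2
  linarith

/-- Superstability. -/
theorem superstable {A κ : ℝ} {w : E3 → E3 → ℝ} (h : Att κ w) (hA : 0 ≤ A) (hκ : κ ≤ A / 2)
    (m : Multiset E3) : (A / 4) * SQ (cel 1 0) m - (A / 2) * m.card ≤ En (pot A w) m := by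
  unfold pot
  rw [En_fsub (fun a b => A * nr 2 a b) w, En_fmul]
  have h1 : SQ (cel 1 0) m ≤ dS (nr 2) m m := by
    refine dS_le fun a _ b _ => ?_
    split_ifs with hc
    · unfold nr
      rw [if_pos (same_cell_dist hc)]
    · exact nr_nonneg _ _ _
  have h2 : dg (nr 2) m = m.card := by
    simp [dg, nr]
  have h3 : 0 ≤ dg w m := dg_nonneg fun a _ => h.nonneg a a
  have h4 := h.dom m
  have h5 := mul_le_mul_of_nonneg_right hκ (SQ_nonneg m)
  unfold En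
  rw [h2]
  nlinarith

/-! ### Partition functions in boxes -/

/-- Grand canonical partition function in `[0,s)^3`. -/
noncomputable def Xi (A : ℝ) (w : E3 → E3 → ℝ) (μ s : ℝ) : ℝ≥0∞ := GI (box s) (Wt (pot A w) μ)

/-- Growth function. -/
noncomputable def kk (A μ : ℝ) : ℝ := (max (μ + A / 2) 0) ^ 2 / A

theorem cell_mem {s : ℝ} (hs : 0 ≤ s) {a : E3} (ha : a ∈ box s) : cel 1 0 a ∈ ibox ⌈s⌉₊ := by
  rw [mem_ibox]
  intro i
  have := ha i
  simp only [cel, sub_zero, div_one]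
  refine ⟨Int.floor_nonneg.mpr this.1, ?_⟩
  rw [Int.floor_lt]
  have h2 := Nat.le_ceil s
  push_cast
  linarith [this.2]

theorem weight_le {A κ : ℝ} {w : E3 → E3 → ℝ} (h : Att κ w) (hA : 0 < A) (hκ : κ ≤ A / 2)
    {s : ℝ} (hs : 0 ≤ s) (μ : ℝ) {m : Multiset E3} (hm : ∀ a ∈ m, a ∈ box s) :
    μ * m.card - En (pot A w) m ≤ (s + 1) ^ 3 * kk A μ := by
  have h1 := superstable h hA.le hκ m
  have h2 := linquad (cel 1 0) m (ibox ⌈s⌉₊) (fun a ha => cell_mem hs (hm a ha)) (μ + A / 2)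
    (A / 4) (by positivity)
  have h3 : ((ibox ⌈s⌉₊).card : ℝ) ≤ (s + 1) ^ 3 := by
    rw [card_ibox]; push_cast
    have := (Nat.ceil_lt_add_one hs).le
    gcongr
  have h4 : (max (μ + A / 2) 0) ^ 2 / (4 * (A / 4)) = kk A μ := by
    unfold kk; congr 1; ring
  have h5 : 0 ≤ kk A μ := by unfold kk; positivity
  rw [h4] at h2
  have h6 := mul_le_mul_of_nonneg_right h3 h5
  nlinarith

theorem volume_box (s : ℝ) (hs : 0 ≤ s) : volume (box s) = ENNReal.ofReal (s ^ 3) := by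
  rw [box_eq_cube, volume_cube _ _ _ hs]

theorem lintegral_ind {A : Set E3} (hA : MeasurableSet A) (n : ℕ) :
    ∫⁻ x : Fin n → E3, ind A x = volume A ^ n := by
  have h1 : ∀ x : Fin n → E3, ind A x = (Set.univ.pi fun _ : Fin n => A).indicator 1 x := by
    intro x
    by_cases h : ∀ i, x i ∈ A
    · rw [Set.indicator_of_mem (by simpa using h)]
      unfold ind
      exact Finset.prod_eq_one fun i _ => Set.indicator_of_mem (h i) _
    · rw [Set.indicator_of_notMem (by simpa using h)]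
      push Not at h
      obtain ⟨i, hi⟩ := h
      unfold ind
      exact Finset.prod_eq_zero (Finset.mem_univ i) (Set.indicator_of_notMem hi _)
  simp_rw [h1]
  rw [lintegral_indicator_one (MeasurableSet.univ_pi fun _ => hA), volume_pi, Measure.pi_pi]
  simp

theorem Zc_le {A : Set E3} (hA : MeasurableSet A) {F : Multiset E3 → ℝ≥0∞} {C : ℝ≥0∞} (n : ℕ)
    (h : ∀ m : Multiset E3, (∀ a ∈ m, a ∈ A) → F m ≤ C) :
    Zc A F n ≤ C * (volume A ^ n * ((n.factorial : ℝ≥0∞))⁻¹) := by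
  unfold Zc
  have h1 : ∫⁻ x : Fin n → E3, ind A x * F (ms x) ≤ ∫⁻ x : Fin n → E3, C * ind A x := by
    refine lintegral_mono fun x => ?_
    rcases ind_eq_zero_or (A := A) x with ⟨h2, h3⟩ | h2
    · rw [h2, one_mul, mul_one]; exact h _ h3
    · simp [h2]
  rw [lintegral_const_mul _ (measurable_ind hA), lintegral_ind hA] at h1
  calc ((n.factorial : ℝ≥0∞))⁻¹ * ∫⁻ x : Fin n → E3, ind A x * F (ms x)
      ≤ ((n.factorial : ℝ≥0∞))⁻¹ * (C * volume A ^ n) := by gcongr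
    _ = _ := by ring

theorem tsum_exp {V : ℝ} (hV : 0 ≤ V) :
    ∑' n : ℕ, (ENNReal.ofReal V ^ n * ((n.factorial : ℝ≥0∞))⁻¹) = ENNReal.ofReal (Real.exp V) := by
  have h1 : ∀ n : ℕ, (ENNReal.ofReal V ^ n * ((n.factorial : ℝ≥0∞))⁻¹)
      = ENNReal.ofReal (V ^ n / n.factorial) := by
    intro n
    rw [div_eq_mul_inv, ENNReal.ofReal_mul (by positivity), ENNReal.ofReal_pow hV,
      ENNReal.ofReal_inv_of_pos (by positivity), ENNReal.ofReal_natCast]
  simp_rw [h1]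
  rw [← ENNReal.ofReal_tsum_of_nonneg (fun n => by positivity) (Real.summable_pow_div_factorial V)]
  congr 1
  rw [Real.exp_eq_exp_ℝ, NormedSpace.exp_eq_tsum_div]

theorem GI_le_exp {A : Set E3} (hA : MeasurableSet A) {F : Multiset E3 → ℝ≥0∞} {C V : ℝ}
    (hV : 0 ≤ V) (hAV : volume A = ENNReal.ofReal V)
    (h : ∀ m : Multiset E3, (∀ a ∈ m, a ∈ A) → F m ≤ ENNReal.ofReal (Real.exp C)) :
    GI A F ≤ ENNReal.ofReal (Real.exp (V + C)) := by
  unfold GI
  calc ∑' n, Zc A F n ≤ ∑' n : ℕ, ENNReal.ofReal (Real.exp C) *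
        (volume A ^ n * ((n.factorial : ℝ≥0∞))⁻¹) := ENNReal.tsum_le_tsum fun n => Zc_le hA n h
    _ = _ := by
      rw [ENNReal.tsum_mul_left, hAV, tsum_exp hV, ← ENNReal.ofReal_mul (Real.exp_pos _).le,
        ← Real.exp_add, add_comm]

theorem Zc_zero (A : Set E3) (F : Multiset E3 → ℝ≥0∞) : Zc A F 0 = F 0 := by
  unfold Zc
  have : ∀ x : Fin 0 → E3, ind A x * F (ms x) = F 0 := by
    intro x
    simp [ind, ms]
  simp_rw [this]
  rw [lintegral_const]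
  have h1 : (volume : Measure (Fin 0 → E3)) Set.univ = 1 := by
    rw [MeasureTheory.volume_pi, Measure.pi_of_empty]
    simp
  rw [h1]; simp

theorem one_le_GI {A : Set E3} {F : Multiset E3 → ℝ≥0∞} (h : F 0 = 1) : 1 ≤ GI A F := by
  rw [← h, ← Zc_zero A F]
  exact ENNReal.le_tsum 0

theorem Xi_le {A κ : ℝ} {w : E3 → E3 → ℝ} (h : Att κ w) (hA : 0 < A) (hκ : κ ≤ A / 2)
    {s : ℝ} (hs : 0 ≤ s) (μ : ℝ) :
    Xi A w μ s ≤ ENNReal.ofReal (Real.exp (s ^ 3 + (s + 1) ^ 3 * kk A μ)) := by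
  refine GI_le_exp (measurableSet_box s) (by positivity) (volume_box s hs) fun m hm => ?_
  exact ENNReal.ofReal_le_ofReal (Real.exp_le_exp.mpr (weight_le h hA hκ hs μ hm))

theorem Xi_ne_top {A κ : ℝ} {w : E3 → E3 → ℝ} (h : Att κ w) (hA : 0 < A) (hκ : κ ≤ A / 2)
    {s : ℝ} (hs : 0 ≤ s) (μ : ℝ) : Xi A w μ s ≠ ⊤ :=
  ne_top_of_le_ne_top ENNReal.ofReal_ne_top (Xi_le h hA hκ hs μ)

theorem one_le_Xi (A : ℝ) (w : E3 → E3 → ℝ) (μ s : ℝ) : 1 ≤ Xi A w μ s := one_le_GI (Wt_zero _ _)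

/-- Logarithm of the partition function. -/
noncomputable def lf (A : ℝ) (w : E3 → E3 → ℝ) (μ s : ℝ) : ℝ := Real.log (Xi A w μ s).toReal

section
variable {A κ : ℝ} {w : E3 → E3 → ℝ}

theorem one_le_Xi_toReal (h : Att κ w) (hA : 0 < A) (hκ : κ ≤ A / 2) {s : ℝ} (hs : 0 ≤ s) (μ : ℝ) :
    1 ≤ (Xi A w μ s).toReal := by
  have := ENNReal.toReal_mono (Xi_ne_top h hA hκ hs μ) (one_le_Xi A w μ s)
  simpa using this

theorem lf_nonneg (h : Att κ w) (hA : 0 < A) (hκ : κ ≤ A / 2) {s : ℝ} (hs : 0 ≤ s) (μ : ℝ) :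
    0 ≤ lf A w μ s := Real.log_nonneg (one_le_Xi_toReal h hA hκ hs μ)

theorem kk_nonneg (hA : 0 < A) (μ : ℝ) : 0 ≤ kk A μ := by unfold kk; positivity

theorem lf_le (h : Att κ w) (hA : 0 < A) (hκ : κ ≤ A / 2) {s : ℝ} (hs : 0 ≤ s) (μ : ℝ) :
    lf A w μ s ≤ (s + 1) ^ 3 * (1 + kk A μ) := by
  unfold lf
  have h1 := ENNReal.toReal_mono ENNReal.ofReal_ne_top (Xi_le h hA hκ hs μ)
  rw [ENNReal.toReal_ofReal (Real.exp_pos _).le] at h1
  have h2 := Real.log_le_log (by linarith [one_le_Xi_toReal h hA hκ hs μ]) h1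
  rw [Real.log_exp] at h2
  have : s ^ 3 ≤ (s + 1) ^ 3 := by gcongr; linarith
  linarith

/-- Translation invariance. -/
def Tinv (w : E3 → E3 → ℝ) : Prop := ∀ a b τ, w (a + τ) (b + τ) = w a b

theorem nr_tinv (r : ℝ) : Tinv (nr r) := fun a b τ => by simp [nr]

theorem pot_tinv (hw : Tinv w) : Tinv (pot A w) := fun a b τ => by
  unfold pot; rw [nr_tinv, hw]

theorem Wt_tinv {u : E3 → E3 → ℝ} (hu : Tinv u) (μ : ℝ) (τ : E3) (m : Multiset E3) :
    Wt u μ (m.map fun x => x + τ) = Wt u μ m := by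
  rw [Wt_map]; congr 1; funext a b; exact hu a b τ

theorem GI_cube_of_tinv {u : E3 → E3 → ℝ} (hu : Tinv u) (μ s t v : ℝ) (q : I3) :
    GI (cube s t v q) (Wt u μ) = GI (box v) (Wt u μ) := by
  rw [cube_preimage, GI_translate]
  simp_rw [Wt_tinv hu]

theorem cube_far {s : ℝ} {q r : I3} (hqr : q ≠ r) {a b : E3}
    (hs : 0 < s) (ha : a ∈ cube (s + 2) 0 s q) (hb : b ∈ cube (s + 2) 0 s r) : 2 < dist a b := by
  obtain ⟨i, hi⟩ := Function.ne_iff.mp hqr
  refine lt_of_lt_of_le ?_ (coord_le_dist a b i)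
  have h1 := ha i
  have h2 := hb i
  rcases lt_or_gt_of_ne hi with h | h
  · have h3 : (q i : ℝ) + 1 ≤ r i := by exact_mod_cast h
    rw [abs_sub_comm]
    refine lt_of_lt_of_le ?_ (le_abs_self _)
    nlinarith [h1.2, h2.1]
  · have h3 : (r i : ℝ) + 1 ≤ q i := by exact_mod_cast h
    refine lt_of_lt_of_le ?_ (le_abs_self _)
    nlinarith [h1.1, h2.2]

theorem pot_nonpos_of_far (h : Att κ w) {a b : E3} (hab : 2 < dist a b) : pot A w a b ≤ 0 := by
  unfold pot nr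
  rw [if_neg (not_le.mpr hab)]
  linarith [h.nonneg a b]

theorem union_sub_box {s : ℝ} (hs : 0 < s) (M : ℕ) :
    (⋃ q ∈ ibox M, cube (s + 2) 0 s q) ⊆ box (M * (s + 2)) := by
  intro x hx
  simp only [Set.mem_iUnion] at hx
  obtain ⟨q, hq, hx⟩ := hx
  rw [mem_ibox] at hq
  intro i
  have h1 := hx i
  have h2 := hq i
  have h3 : (0:ℝ) ≤ q i := by exact_mod_cast h2.1
  have h4 : (q i : ℝ) + 1 ≤ M := by exact_mod_cast h2.2
  constructor
  · nlinarith [h1.1]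
  · nlinarith [h1.2]

theorem superadd (h : Att κ w) (hw : Tinv w) (μ : ℝ) {s : ℝ} (hs : 0 < s) (M : ℕ) :
    (Xi A w μ s) ^ (M ^ 3) ≤ Xi A w μ (M * (s + 2)) := by
  classical
  have h1 := GI_union_ge (fun q => cube (s + 2) 0 s q) (fun q => measurableSet_cube _ _ _ _)
    (fun q r hqr => cube_disjoint (by linarith) (by linarith) hqr)
    (fun _ => Wt (pot A w) μ) (fun _ => measF_Wt (pot_meas h) μ)
    (fun _ => Wt (pot A w) μ) (fun _ => measF_Wt (pot_meas h) μ) (by rw [Wt_zero]) ?_ (ibox M)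
  · simp_rw [GI_cube_of_tinv (pot_tinv hw)] at h1
    rw [Finset.prod_const, card_ibox] at h1
    exact h1.trans (GI_mono (union_sub_box hs M) fun _ _ => le_rfl)
  · intro S q hq m₁ m₂ h1 h2
    refine Wt_add_ge _ (pot_symm h) μ m₁ m₂ fun a ha b hb => ?_
    have h3 := h1 a ha
    simp only [Set.mem_iUnion] at h3
    obtain ⟨r, hr, h3⟩ := h3
    exact pot_nonpos_of_far h (cube_far (by rintro rfl; exact hq hr) hs h3 (h2 b hb))

theorem box_mono {s t : ℝ} (h : s ≤ t) : box s ⊆ box t := fun _ hx i =>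
  ⟨(hx i).1, lt_of_lt_of_le (hx i).2 h⟩

theorem lf_superadd (h : Att κ w) (hw : Tinv w) (hA : 0 < A) (hκ : κ ≤ A / 2) (μ : ℝ) {s L : ℝ}
    (hs : 0 < s) (M : ℕ) (hL : M * (s + 2) ≤ L) : (M : ℝ) ^ 3 * lf A w μ s ≤ lf A w μ L := by
  have hL0 : 0 ≤ L := le_trans (by positivity) hL
  have h1 := (superadd (A := A) h hw μ hs M).trans
    (GI_mono (G := Wt (pot A w) μ) (box_mono hL) fun _ _ => le_rfl)
  have h2 := ENNReal.toReal_mono (Xi_ne_top h hA hκ hL0 μ) h1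
  rw [ENNReal.toReal_pow] at h2
  have h3 := one_le_Xi_toReal h hA hκ hs.le μ
  have h4 := Real.log_le_log (by positivity) h2
  rw [Real.log_pow] at h4
  push_cast at h4
  exact h4

/-- The pressure. -/
noncomputable def Pr (A : ℝ) (w : E3 → E3 → ℝ) (μ : ℝ) : ℝ :=
  sSup ((fun s : ℝ => lf A w μ s / (s + 2) ^ 3) '' Set.Ioi 0)

theorem Pr_bdd (h : Att κ w) (hA : 0 < A) (hκ : κ ≤ A / 2) (μ : ℝ) :
    BddAbove ((fun s : ℝ => lf A w μ s / (s + 2) ^ 3) '' Set.Ioi 0) := by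
  refine ⟨1 + kk A μ, ?_⟩
  rintro _ ⟨s, hs, rfl⟩
  have hs' : (0:ℝ) < s := hs
  show lf A w μ s / (s + 2) ^ 3 ≤ _
  rw [div_le_iff₀ (by positivity)]
  refine (lf_le h hA hκ hs'.le μ).trans ?_
  rw [mul_comm]
  have := kk_nonneg hA μ
  gcongr
  norm_num

theorem lf_le_Pr (h : Att κ w) (hA : 0 < A) (hκ : κ ≤ A / 2) (μ : ℝ) {s : ℝ} (hs : 0 < s) :
    lf A w μ s ≤ Pr A w μ * (s + 2) ^ 3 := by
  have := le_csSup (Pr_bdd h hA hκ μ) ⟨s, hs, rfl⟩
  rw [← div_le_iff₀ (by positivity)]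
  exact this

theorem Pr_nonneg (h : Att κ w) (hA : 0 < A) (hκ : κ ≤ A / 2) (μ : ℝ) : 0 ≤ Pr A w μ := by
  have h1 := lf_le_Pr h hA hκ μ one_pos
  have h2 := lf_nonneg h hA hκ zero_le_one μ
  by_contra hc
  push Not at hc
  nlinarith

theorem Pr_le (h : Att κ w) (hA : 0 < A) (hκ : κ ≤ A / 2) (μ : ℝ) : Pr A w μ ≤ 1 + kk A μ := by
  refine csSup_le ⟨_, ⟨1, Set.mem_Ioi.mpr one_pos, rfl⟩⟩ ?_
  rintro _ ⟨s, hs, rfl⟩
  have hs' : (0:ℝ) < s := hs
  show lf A w μ s / (s + 2) ^ 3 ≤ _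
  rw [div_le_iff₀ (by positivity)]
  refine (lf_le h hA hκ hs'.le μ).trans ?_
  rw [mul_comm]
  have := kk_nonneg hA μ
  gcongr
  norm_num

theorem Pr_tendsto (h : Att κ w) (hw : Tinv w) (hA : 0 < A) (hκ : κ ≤ A / 2) (μ : ℝ) :
    Tendsto (fun L : ℝ => lf A w μ L / L ^ 3) atTop (𝓝 (Pr A w μ)) := by
  have hup : Tendsto (fun L : ℝ => Pr A w μ * ((L + 2) / L) ^ 3) atTop (𝓝 (Pr A w μ)) := by
    have h1 : Tendsto (fun L : ℝ => (L + 2) / L) atTop (𝓝 1) := by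
      have h2 : Tendsto (fun L : ℝ => 1 + 2 / L) atTop (𝓝 (1 + 0)) :=
        tendsto_const_nhds.add (tendsto_const_nhds.div_atTop tendsto_id)
      rw [add_zero] at h2
      refine h2.congr' ?_
      filter_upwards [eventually_gt_atTop 0] with L hL
      field_simp
    have := (h1.pow 3).const_mul (Pr A w μ)
    simpa using this
  rw [tendsto_order] at hup ⊢
  constructor
  · intro a ha
    obtain ⟨_, ⟨s, hs, rfl⟩, hs2⟩ := exists_lt_of_lt_csSup (⟨_, ⟨1, Set.mem_Ioi.mpr one_pos, rfl⟩⟩ :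
      ((fun s : ℝ => lf A w μ s / (s + 2) ^ 3) '' Set.Ioi 0).Nonempty) ha
    have hs' : (0:ℝ) < s := hs
    have h1 : Tendsto (fun L : ℝ => ((⌊(1 / (s + 2)) * L⌋₊ : ℝ) / L) ^ 3 * lf A w μ s) atTop
        (𝓝 ((1 / (s + 2)) ^ 3 * lf A w μ s)) :=
      ((tendsto_nat_floor_mul_div_atTop (by positivity)).pow 3).mul_const _
    have h2 : a < (1 / (s + 2)) ^ 3 * lf A w μ s := by
      have : (1 / (s + 2)) ^ 3 * lf A w μ s = lf A w μ s / (s + 2) ^ 3 := by
        field_simp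
      rw [this]; exact hs2
    filter_upwards [(tendsto_order.mp h1).1 a h2, eventually_gt_atTop 0] with L hL hL0
    refine lt_of_lt_of_le hL ?_
    have h3 : (⌊(1 / (s + 2)) * L⌋₊ : ℝ) * (s + 2) ≤ L := by
      have := Nat.floor_le (a := (1 / (s + 2)) * L) (by positivity)
      calc (⌊(1 / (s + 2)) * L⌋₊ : ℝ) * (s + 2) ≤ (1 / (s + 2)) * L * (s + 2) := by gcongr
        _ = L := by field_simp
    have h4 := lf_superadd h hw hA hκ μ hs' _ h3
    rw [div_pow, div_mul_eq_mul_div]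
    gcongr
  · intro a ha
    filter_upwards [hup.2 a ha, eventually_gt_atTop 0] with L hL hL0
    refine lt_of_le_of_lt ?_ hL
    rw [div_pow, ← mul_div_assoc]
    have := lf_le_Pr h hA hκ μ hL0
    gcongr

/-- Joint log-convexity. -/
theorem lf_convex {κ₀ κ₁ κ₂ : ℝ} {w₀ w₁ w₂ : E3 → E3 → ℝ} (h₀ : Att κ₀ w₀) (h₁ : Att κ₁ w₁)
    (h₂ : Att κ₂ w₂) (hA : 0 < A) (hκ₀ : κ₀ ≤ A / 2) (hκ₁ : κ₁ ≤ A / 2) (hκ₂ : κ₂ ≤ A / 2) {p q : ℝ}
    (hp : 0 ≤ p) (hq : 0 ≤ q) (hpq : p + q = 1)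
    (hle : ∀ a b, w₀ a b ≤ p * w₁ a b + q * w₂ a b) (μ₁ μ₂ : ℝ) {s : ℝ} (hs : 0 ≤ s) :
    lf A w₀ (p * μ₁ + q * μ₂) s ≤ p * lf A w₁ μ₁ s + q * lf A w₂ μ₂ s := by
  refine log_GI_convex (measurableSet_box s) (measF_Wt (pot_meas h₁) μ₁)
    (measF_Wt (pot_meas h₂) μ₂) hp hq hpq ?_ ?_ ?_ ?_ ?_ ?_
  · intro m
    have h3 : p * En (pot A w₁) m + q * En (pot A w₂) m ≤ En (pot A w₀) m := by
      rw [← En_fmul, ← En_fmul, ← En_fadd]
      refine En_mono fun a _ b _ => ?_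
      have := hle a b
      unfold pot
      have h4 : p * (A * nr 2 a b) + q * (A * nr 2 a b) = A * nr 2 a b := by
        rw [← add_mul, hpq, one_mul]
      linarith
    linarith
  · exact (lt_of_lt_of_le zero_lt_one (one_le_Xi A w₀ _ s)).ne'
  · exact (lt_of_lt_of_le zero_lt_one (one_le_Xi A w₁ _ s)).ne'
  · exact Xi_ne_top h₁ hA hκ₁ hs _
  · exact (lt_of_lt_of_le zero_lt_one (one_le_Xi A w₂ _ s)).ne'
  · exact Xi_ne_top h₂ hA hκ₂ hs _

theorem Pr_convex {κ₀ κ₁ κ₂ : ℝ} {w₀ w₁ w₂ : E3 → E3 → ℝ} (h₀ : Att κ₀ w₀) (h₁ : Att κ₁ w₁)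
    (h₂ : Att κ₂ w₂) (t₀ : Tinv w₀) (t₁ : Tinv w₁) (t₂ : Tinv w₂)
    (hA : 0 < A) (hκ₀ : κ₀ ≤ A / 2) (hκ₁ : κ₁ ≤ A / 2) (hκ₂ : κ₂ ≤ A / 2) {p q : ℝ}
    (hp : 0 ≤ p) (hq : 0 ≤ q) (hpq : p + q = 1)
    (hle : ∀ a b, w₀ a b ≤ p * w₁ a b + q * w₂ a b) (μ₁ μ₂ : ℝ) :
    Pr A w₀ (p * μ₁ + q * μ₂) ≤ p * Pr A w₁ μ₁ + q * Pr A w₂ μ₂ := by
  have T0 := Pr_tendsto h₀ t₀ hA hκ₀ (p * μ₁ + q * μ₂)
  have T1 := (Pr_tendsto h₁ t₁ hA hκ₁ μ₁).const_mul p
  have T2 := (Pr_tendsto h₂ t₂ hA hκ₂ μ₂).const_mul q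
  refine le_of_tendsto_of_tendsto T0 (T1.add T2) ?_
  filter_upwards [eventually_gt_atTop 0] with L hL
  have := lf_convex h₀ h₁ h₂ hA hκ₀ hκ₁ hκ₂ hp hq hpq hle μ₁ μ₂ hL.le
  calc lf A w₀ (p * μ₁ + q * μ₂) L / L ^ 3
      ≤ (p * lf A w₁ μ₁ L + q * lf A w₂ μ₂ L) / L ^ 3 := by gcongr
    _ = _ := by ring

theorem Pr_convexOn (h : Att κ w) (hw : Tinv w) (hA : 0 < A) (hκ : κ ≤ A / 2) :
    ConvexOn ℝ Set.univ (Pr A w) := by
  refine ⟨convex_univ, fun x _ y _ p q hp hq hpq => ?_⟩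
  exact Pr_convex h h h hw hw hw hA hκ hκ hκ hp hq hpq (fun a b => by rw [← add_mul, hpq, one_mul])
    x y

theorem Pr_mono {κ' : ℝ} {w' : E3 → E3 → ℝ} (h : Att κ w) (h' : Att κ' w') (hw : Tinv w)
    (hw' : Tinv w') (hA : 0 < A) (hκ : κ ≤ A / 2) (hκ' : κ' ≤ A / 2)
    (hle : ∀ a b, w a b ≤ w' a b) {μ μ' : ℝ} (hμ : μ ≤ μ') : Pr A w μ ≤ Pr A w' μ' := by
  refine le_of_tendsto_of_tendsto (Pr_tendsto h hw hA hκ μ) (Pr_tendsto h' hw' hA hκ' μ') ?_
  filter_upwards [eventually_gt_atTop 0] with L hL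
  have h1 : Xi A w μ L ≤ Xi A w' μ' L := by
    refine GI_mono subset_rfl fun m _ => ENNReal.ofReal_le_ofReal (Real.exp_le_exp.mpr ?_)
    have h2 : En (pot A w') m ≤ En (pot A w) m := En_mono fun a _ b _ => by
      unfold pot; linarith [hle a b]
    have h3 : μ * (m.card : ℝ) ≤ μ' * m.card := by gcongr
    linarith
  have h2 := ENNReal.toReal_mono (Xi_ne_top h' hA hκ' hL.le μ') h1
  have h3 := Real.log_le_log (by linarith [one_le_Xi_toReal h hA hκ hL.le μ]) h2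
  unfold lf
  gcongr

theorem Pr_monotone (h : Att κ w) (hw : Tinv w) (hA : 0 < A) (hκ : κ ≤ A / 2) :
    Monotone (Pr A w) := fun _ _ hμ => Pr_mono h h hw hw hA hκ hκ (fun _ _ => le_rfl) hμ

end
end Vale.Agent.P171
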