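import Vale.Agent.P171.Initial

open MeasureTheory ENNReal Finset Filter Topology

namespace Vale.Agent.P171

/-- First coupling constant (mean-field normalisation). -/
noncomputable def a0 : ℝ := 10 / zz
/-- First coupling constant. -/
noncomputable def b0 : ℝ := a0 / (Real.pi * 4 / 3)
/-- Coupling constants. -/
noncomputable def bs (k : ℕ) : ℝ := b0 * (1 / 2) ^ k
/-- Coupling constants (mean-field normalisation). -/
noncomputable def as (k : ℕ) : ℝ := bs k * (Real.pi * 4 / 3)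
/-- Strength of the core repulsion. -/
noncomputable def AA : ℝ := 1100 * b0
/-- Lower bounds for the jump of the density. -/
noncomputable def Dl (k : ℕ) : ℝ := zz / 25 * (1 / 2 + (1 / 2) ^ (k + 1))

theorem a0_pos : 0 < a0 := by unfold a0; have := zz_pos; positivity
theorem b0_pos : 0 < b0 := by unfold b0; have := a0_pos; have := Real.pi_pos; positivity
theorem bs_pos (k : ℕ) : 0 < bs k := by unfold bs; have := b0_pos; positivity
theorem as_pos (k : ℕ) : 0 < as k := by unfold as; have := bs_pos k; have := Real.pi_pos; positivity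
theorem AA_pos : 0 < AA := by unfold AA; have := b0_pos; positivity
theorem bs_le (k : ℕ) : bs k ≤ b0 := by
  unfold bs
  exact mul_le_of_le_one_right b0_pos.le (pow_le_one₀ (by norm_num) (by norm_num))
theorem as_zero : as 0 = a0 := by
  unfold as bs b0
  have := Real.pi_pos
  field_simp
theorem as_eq (k : ℕ) : as k = a0 * (1 / 2) ^ k := by
  unfold as bs b0
  have := Real.pi_pos
  field_simp
theorem four_as_le (k : ℕ) : 4 * as k ≤ AA := by
  unfold as AA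
  have h1 := bs_le k
  have h2 := bs_pos k
  have h3 := Real.pi_lt_d2
  have h4 := Real.pi_pos
  nlinarith
theorem Dl_pos (k : ℕ) : 0 < Dl k := by unfold Dl; have := zz_pos; positivity
theorem Dl_sub (k : ℕ) : Dl k - Dl (k + 1) = zz / 25 * (1 / 2) ^ (k + 2) := by
  unfold Dl; ring
theorem Dl_le (k : ℕ) : Dl k ≤ 1 := by
  unfold Dl
  have h1 : zz ≤ 1 := by unfold zz; norm_num
  have h2 : ((1:ℝ) / 2) ^ (k + 1) ≤ 1 := pow_le_one₀ (by norm_num) (by norm_num)
  have := zz_pos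
  nlinarith
theorem Dl_zero : Dl 0 = zz / 25 := by unfold Dl; ring

/-- Drift constant. -/
noncomputable def RR : ℝ := 3 + 2 * AA + 1 / AA

/-- Invariant of the construction. -/
structure Good (k : ℕ) (w : E3 → E3 → ℝ) (μ : ℝ) : Prop where
  att : Att (54 * b0 * (1 - (1 / 2) ^ k)) w
  tinv : Tinv w
  range : ∃ r0 : ℝ, ∀ a b, r0 < dist a b → w a b = 0
  nonpos : μ ≤ 0
  kink : ∃ d h : ℝ, 0 < d ∧ d ≤ (1 / 2) ^ k ∧
    2 * (Pr AA w (μ + 1) - Pr AA w μ) * d + (h ^ 2 + d ^ 2) / as k < DD (Pr AA w) μ h ∧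
    Dl k * d ≤ DD (Pr AA w) μ d

theorem good_zero : Good 0 w0 (Real.log zz) where
  att := by simpa using att_zero
  tinv := w0_tinv
  range := ⟨0, fun _ _ _ => rfl⟩
  nonpos := logzz_nonpos
  kink := by
    refine ⟨1 / 10, 1, by norm_num, by norm_num, ?_, ?_⟩
    · rw [as_zero]; exact initial_one AA_pos le_rfl
    · rw [Dl_zero]; exact initial_two AA_pos

theorem kk_le {A : ℝ} (hA : 0 < A) (ν : ℝ) : kk A ν ≤ (max ν 0 + A) ^ 2 / A := by
  unfold kk
  have h1 : max (ν + A / 2) 0 ≤ max ν 0 + A := by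
    refine max_le ?_ ?_
    · have := le_max_left ν 0; linarith
    · have := le_max_right ν 0; linarith
  have h2 : 0 ≤ max (ν + A / 2) 0 := le_max_right _ _
  gcongr

theorem kappa_le (k : ℕ) : 54 * b0 * (1 - (1 / 2) ^ k) ≤ 54 * b0 := by
  have := b0_pos
  have h2 : 0 < ((1:ℝ) / 2) ^ k := by positivity
  nlinarith

theorem kappa_nonneg (k : ℕ) : 0 ≤ 54 * b0 * (1 - (1 / 2) ^ k) := by
  have := b0_pos
  have h2 : ((1:ℝ) / 2) ^ k ≤ 1 := pow_le_one₀ (by norm_num) (by norm_num)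
  have : 0 ≤ 1 - ((1:ℝ) / 2) ^ k := by linarith
  positivity

theorem kappa_next (k : ℕ) :
    54 * b0 * (1 - (1 / 2) ^ k) + 27 * bs k = 54 * b0 * (1 - (1 / 2) ^ (k + 1)) := by
  unfold bs; ring

/-- Lower bound of the second difference of the new pressure. -/
theorem dd_new {P P' : ℝ → ℝ} {a μ νm νp h δ D η : ℝ} (ha : 0 < a) (hh : 0 < h)
    (hη : 4 * η ≤ h * δ / 2)
    (heq : P νp - (νp - μ) ^ 2 / (2 * a) = P νm - (νm - μ) ^ 2 / (2 * a))
    (hup : P' μ ≤ P νm - (νm - μ) ^ 2 / (2 * a) + η)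
    (h1 : P νp - (νp - (μ + h)) ^ 2 / (2 * a) - η ≤ P' (μ + h))
    (h2 : P νm - (νm - (μ - h)) ^ 2 / (2 * a) - η ≤ P' (μ - h))
    (hD : D ≤ (νp - νm) / a) (hha : h / a ≤ δ / 2) :
    (D - δ) * h ≤ DD P' μ h := by
  unfold DD
  have e1 : (νp - (μ + h)) ^ 2 / (2 * a) = (νp - μ) ^ 2 / (2 * a) - h * ((νp - μ) / a) + h * (h / a) / 2 := by
    field_simp; ring
  have e2 : (νm - (μ - h)) ^ 2 / (2 * a) = (νm - μ) ^ 2 / (2 * a) + h * ((νm - μ) / a) + h * (h / a) / 2 := by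
    field_simp; ring
  rw [e1] at h1
  rw [e2] at h2
  have e3 : h * ((νp - μ) / a) - h * ((νm - μ) / a) = h * ((νp - νm) / a) := by ring
  have e4 : h * D ≤ h * ((νp - νm) / a) := mul_le_mul_of_nonneg_left hD hh.le
  have e5 : h * (h / a) ≤ h * (δ / 2) := mul_le_mul_of_nonneg_left hha hh.le
  nlinarith

theorem next_params {a Δ rb ρ e : ℝ} (ha : 0 < a) (hΔ0 : 0 < Δ) (hΔ1 : Δ ≤ 1) (hrb : 1 ≤ rb)
    (hρ : ρ ≤ rb) (he : 0 < e) :
    2 * ρ * min e (a * Δ ^ 2 / (16 * rb)) + ((a * Δ / 2) ^ 2 + (min e (a * Δ ^ 2 / (16 * rb))) ^ 2) / a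
      < Δ * (a * Δ / 2) := by
  set d' := min e (a * Δ ^ 2 / (16 * rb)) with hd'
  have hd'0 : 0 < d' := lt_min he (by positivity)
  have q3 : d' ≤ a * Δ ^ 2 / (16 * rb) := min_le_right _ _
  have q4 : 2 * ρ * d' ≤ a * Δ ^ 2 / 8 := by
    calc 2 * ρ * d' ≤ 2 * rb * d' := by gcongr
      _ ≤ 2 * rb * (a * Δ ^ 2 / (16 * rb)) := by gcongr
      _ = a * Δ ^ 2 / 8 := by field_simp; norm_num
  have q5 : d' ^ 2 / a ≤ a * Δ ^ 2 / 256 := by
    have e0 : d' ≤ a * Δ / 16 := by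
      refine q3.trans ?_
      rw [div_le_div_iff₀ (by positivity) (by norm_num)]
      have e1 : Δ ^ 2 ≤ Δ := by nlinarith
      have e2 : a * Δ ^ 2 ≤ a * Δ := by gcongr
      have e3 : a * Δ ≤ a * Δ * rb := le_mul_of_one_le_right (by positivity) hrb
      linarith
    rw [div_le_iff₀ ha]
    calc d' ^ 2 ≤ (a * Δ / 16) ^ 2 := by gcongr
      _ = _ := by ring
  have q6 : (a * Δ / 2) ^ 2 / a = a * Δ ^ 2 / 4 := by
    field_simp; norm_num
  have q7 : Δ * (a * Δ / 2) = a * Δ ^ 2 / 2 := by ring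
  have q8 : 0 < a * Δ ^ 2 := by positivity
  rw [add_div, q6, q7]
  linarith

theorem good_step (k : ℕ) {w : E3 → E3 → ℝ} {μ : ℝ} (g : Good k w μ) :
    ∃ ℓ μ' : ℝ, 3 ≤ ℓ ∧ Good (k + 1) (fun a b => w a b + (bs k * (ℓ ^ 3)⁻¹) * nr ℓ a b) μ' ∧
      μ - as k * RR ≤ μ' ∧ μ' ≤ μ := by
  obtain ⟨d, h, hd, hdk, hDh, hDd⟩ := g.kink
  have hAA := AA_pos
  have hb0 := b0_pos
  have hbk := bs_pos k
  have hak := as_pos k
  have hak' := as_pos (k + 1)
  have hκ1 : 54 * b0 * (1 - (1 / 2) ^ k) ≤ AA / 2 := (kappa_le k).trans (by unfold AA; linarith)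
  have hκ2 : 54 * b0 * (1 - (1 / 2) ^ k) + 27 * bs k ≤ AA / 8 := by
    rw [kappa_next]
    refine (kappa_le (k + 1)).trans ?_
    unfold AA; linarith
  have hκ3 : 54 * b0 * (1 - (1 / 2) ^ k) + 27 * bs k ≤ AA / 2 := hκ2.trans (by linarith)
  have hbA : 1100 * bs k ≤ AA := by
    have := bs_le k
    unfold AA; linarith
  have hconv := Pr_convexOn g.att g.tinv hAA hκ1
  have hmono := Pr_monotone g.att g.tinv hAA hκ1
  have hd1 : d ≤ 1 := hdk.trans (pow_le_one₀ (by norm_num) (by norm_num))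
  obtain ⟨μ1, νm, νp, c1, c2, c3, c4, c5⟩ := kink_step hconv hmono
    (fun ν => Pr_nonneg g.att hAA hκ1 ν) hAA
    (fun ν => (Pr_le g.att hAA hκ1 ν).trans (by linarith [kk_le hAA ν])) hak
    (four_as_le k) g.nonpos hd hd1 hDh
  have hslope : Dl k ≤ (νp - νm) / as k := le_of_mul_le_mul_right (hDd.trans c5) hd
  -- parameters for the next stage
  set Δ := Dl (k + 1) with hΔ
  have hΔ0 : 0 < Δ := Dl_pos _
  have hΔ1 : Δ ≤ 1 := Dl_le _
  set rb := 1 + kk AA 1 with hrb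
  have hrb1 : 1 ≤ rb := by have := kk_nonneg hAA 1; linarith
  set h' := as (k + 1) * Δ / 2 with hh'
  set d' := min ((1 / 2) ^ (k + 1)) (as (k + 1) * Δ ^ 2 / (16 * rb)) with hd'
  have hh'0 : 0 < h' := by positivity
  have hd'0 : 0 < d' := lt_min (by positivity) (by positivity)
  set δ := Dl k - Dl (k + 1) with hδ
  have hδ0 : 0 < δ := by rw [hδ, Dl_sub]; have := zz_pos; positivity
  set h1 := min (min h' d') (as k * δ / 2) with hh1
  have hh10 : 0 < h1 := lt_min (lt_min hh'0 hd'0) (by positivity)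
  have hh1a : h1 ≤ h' := (min_le_left _ _).trans (min_le_left _ _)
  have hh1b : h1 ≤ d' := (min_le_left _ _).trans (min_le_right _ _)
  have hh1c : h1 / as k ≤ δ / 2 := by
    rw [div_le_iff₀ hak]
    refine (min_le_right _ _).trans (le_of_eq (by ring))
  set η := h1 * δ / 8 with hη
  have hη0 : 0 < η := by positivity
  -- limits
  obtain ⟨r0, hr0⟩ := g.range
  have L1 := upper_limit g.att g.tinv hAA hbk (kappa_nonneg k) hκ2 hbA hr0 μ1 _ c3 hη0
  have L2 := lower_limit g.att g.tinv hAA hbk hκ3 (μ1 + h1) νp hη0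
  have L3 := lower_limit g.att g.tinv hAA hbk hκ3 (μ1 - h1) νm hη0
  obtain ⟨ℓ, hl1, hl2, hl3, hl4⟩ := (L1.and (L2.and (L3.and (eventually_ge_atTop 3)))).exists
  have hℓ0 : 0 < ℓ := by linarith
  set w' : E3 → E3 → ℝ := fun a b => w a b + (bs k * (ℓ ^ 3)⁻¹) * nr ℓ a b with hw'
  have hatt : Att (54 * b0 * (1 - (1 / 2) ^ (k + 1))) w' := by
    rw [← kappa_next]
    have := g.att.add ((att_nr hl4).smul (c := bs k * (ℓ ^ 3)⁻¹) (by positivity))
    refine this.mono (le_of_eq ?_)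
    field_simp
  have htinv : Tinv w' := fun a b τ => by
    show w (a + τ) (b + τ) + (bs k * (ℓ ^ 3)⁻¹) * nr ℓ (a + τ) (b + τ) = _
    rw [g.tinv, nr_tinv]
  have hκ' : 54 * b0 * (1 - (1 / 2) ^ (k + 1)) ≤ AA / 2 := by rw [← kappa_next]; exact hκ3
  have hconv' := Pr_convexOn hatt htinv hAA hκ'
  have hDDnew : Dl (k + 1) * h1 ≤ DD (Pr AA w') μ1 h1 := by
    have := dd_new (P := Pr AA w) (P' := Pr AA w') (D := Dl k) (δ := δ) (η := η) hak hh10
      (by rw [hη]; linarith) c4 hl1 hl2 hl3 hslope hh1c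
    have e : Dl k - δ = Dl (k + 1) := by rw [hδ]; ring
    rwa [e] at this
  refine ⟨ℓ, μ1, hl4, ⟨hatt, htinv, ?_, c2.trans g.nonpos, ?_⟩, c1, c2⟩
  · refine ⟨max r0 ℓ, fun a b hab => ?_⟩
    have e1 : w a b = 0 := hr0 a b (lt_of_le_of_lt (le_max_left _ _) hab)
    have e2 : nr ℓ a b = 0 := by
      unfold nr
      rw [if_neg (not_le.mpr (lt_of_le_of_lt (le_max_right _ _) hab))]
    show w a b + (bs k * (ℓ ^ 3)⁻¹) * nr ℓ a b = 0
    rw [e1, e2]; ring
  · refine ⟨d', h', hd'0, min_le_left _ _, ?_, DD_ratio hconv' μ1 hh10 hh1b hDDnew⟩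
    have q1 : Δ * h' ≤ DD (Pr AA w') μ1 h' := DD_ratio hconv' μ1 hh10 hh1a hDDnew
    refine lt_of_lt_of_le ?_ q1
    have q2 : Pr AA w' (μ1 + 1) - Pr AA w' μ1 ≤ rb := by
      have e1 := Pr_monotone hatt htinv hAA hκ' (show μ1 + 1 ≤ 1 by linarith [c2.trans g.nonpos])
      have e2 := Pr_le hatt hAA hκ' 1
      have e3 := Pr_nonneg hatt hAA hκ' μ1
      linarith
    exact next_params hak' hΔ0 hΔ1 hrb1 q2 (by positivity)

end Vale.Agent.P171
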