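import Vale.Agent.P171.Pressure

open MeasureTheory ENNReal Finset Filter Topology

namespace Vale.Agent.P171

theorem Zc_congr {A : Set E3} {F G : Multiset E3 → ℝ≥0∞} (n : ℕ)
    (h : ∀ m : Multiset E3, (∀ a ∈ m, a ∈ A) → m.card = n → F m = G m) : Zc A F n = Zc A G n := by
  unfold Zc
  congr 1
  refine lintegral_congr fun x => ?_
  rcases ind_eq_zero_or (A := A) x with ⟨h1, h2⟩ | h1
  · rw [h _ h2 (by rw [ms_card]; simp)]
  · simp [h1]

theorem Zc_mono {A : Set E3} {F G : Multiset E3 → ℝ≥0∞} (n : ℕ)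
    (h : ∀ m : Multiset E3, (∀ a ∈ m, a ∈ A) → m.card = n → F m ≤ G m) : Zc A F n ≤ Zc A G n := by
  unfold Zc
  refine mul_le_mul' le_rfl ?_
  refine lintegral_mono fun x => ?_
  rcases ind_eq_zero_or (A := A) x with ⟨h1, h2⟩ | h1
  · have := h _ h2 (by rw [ms_card]; simp)
    gcongr
  · simp [h1]

theorem Zc_const_mul {A : Set E3} (hA : MeasurableSet A) {F : Multiset E3 → ℝ≥0∞} (hF : MeasF F)
    (c : ℝ≥0∞) (n : ℕ) : Zc A (fun m => c * F m) n = c * Zc A F n := by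
  have := Zc_add hA hF c 0 n hF
  simpa using this

theorem Zc_shift {A : Set E3} (hA : MeasurableSet A) {u : E3 → E3 → ℝ}
    (hu : Measurable fun p : E3 × E3 => u p.1 p.2) (μ ν : ℝ) (n : ℕ) :
    Zc A (Wt u μ) n = ENNReal.ofReal (Real.exp ((μ - ν) * n)) * Zc A (Wt u ν) n := by
  rw [← Zc_const_mul hA (measF_Wt hu ν)]
  refine Zc_congr n fun m _ hm => ?_
  unfold Wt
  rw [← ENNReal.ofReal_mul (Real.exp_pos _).le, ← Real.exp_add, hm]
  congr 2
  ring

/-- Number-of-particles cutoff. -/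
noncomputable def N0 (A μ s : ℝ) : ℕ := ⌈(s + 1) ^ 3 * (1 + kk A (μ + 1))⌉₊ + 1

theorem N0_le {A μ s : ℝ} (hA : 0 < A) (hs : 0 < s) :
    (N0 A μ s : ℝ) ≤ (s + 1) ^ 3 * (3 + kk A (μ + 1)) := by
  unfold N0
  have h0 := kk_nonneg hA (μ + 1)
  have h1 := (Nat.ceil_lt_add_one (a := (s + 1) ^ 3 * (1 + kk A (μ + 1))) (by positivity)).le
  push_cast
  have h2 : (1:ℝ) ≤ (s + 1) ^ 3 := one_le_pow₀ (by linarith)
  nlinarith

theorem tsum_split (f : ℕ → ℝ≥0∞) (k : ℕ) :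
    ∑ i ∈ Finset.range k, f i + ∑' i, f (i + k) = ∑' i, f i :=
  (ENNReal.summable (f := fun n => f (n + k))).sum_add_tsum_nat_add'

/-- Tail bound for a sequence of canonical weights. -/
theorem tail_bound {a a' : ℕ → ℝ≥0∞} {B : ℝ} {N : ℕ}
    (h : ∀ n : ℕ, a n = ENNReal.ofReal (Real.exp (-(n:ℝ))) * a' n)
    (hB : ∑' n, a' n ≤ ENNReal.ofReal (Real.exp B)) (hN : B + 1 ≤ N) :
    ∑' n, a (n + (N + 1)) ≤ ENNReal.ofReal (1 / 2) := by
  calc ∑' n, a (n + (N + 1))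
      ≤ ∑' n, ENNReal.ofReal (Real.exp (-(N:ℝ))) * a' (n + (N + 1)) := by
        refine ENNReal.tsum_le_tsum fun n => ?_
        rw [h]
        refine mul_le_mul' (ENNReal.ofReal_le_ofReal (Real.exp_le_exp.mpr ?_)) le_rfl
        have h1 : (0:ℝ) ≤ n := Nat.cast_nonneg n
        push_cast
        linarith
    _ = ENNReal.ofReal (Real.exp (-(N:ℝ))) * ∑' n, a' (n + (N + 1)) := ENNReal.tsum_mul_left
    _ ≤ ENNReal.ofReal (Real.exp (-(N:ℝ))) * ∑' n, a' n := by
        refine mul_le_mul' le_rfl ?_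
        rw [← tsum_split a' (N + 1)]
        exact le_add_self
    _ ≤ ENNReal.ofReal (Real.exp (-(N:ℝ))) * ENNReal.ofReal (Real.exp B) := by gcongr
    _ = ENNReal.ofReal (Real.exp (B - N)) := by
        rw [← ENNReal.ofReal_mul (Real.exp_pos _).le, ← Real.exp_add]
        congr 2; ring
    _ ≤ ENNReal.ofReal (1 / 2) := by
        refine ENNReal.ofReal_le_ofReal ?_
        have h1 : Real.exp (B - N) ≤ Real.exp (-1) := Real.exp_le_exp.mpr (by linarith)
        have h2 : Real.exp (-1) ≤ 1 / 2 := by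
          rw [Real.exp_neg, inv_le_comm₀ (Real.exp_pos _) (by norm_num)]
          have := Real.add_one_le_exp (1:ℝ)
          norm_num at this ⊢
          linarith
        linarith

theorem Zc_ne_top {A κ : ℝ} {w : E3 → E3 → ℝ} (h : Att κ w) (hA : 0 < A) (hκ : κ ≤ A / 2)
    {s : ℝ} (hs : 0 ≤ s) (μ : ℝ) (n : ℕ) : Zc (box s) (Wt (pot A w) μ) n ≠ ⊤ :=
  ne_top_of_le_ne_top (Xi_ne_top h hA hκ hs μ) (ENNReal.le_tsum n)

theorem exists_n {A κ : ℝ} {w : E3 → E3 → ℝ} (h : Att κ w) (hA : 0 < A) (hκ : κ ≤ A / 2)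
    {s : ℝ} (hs : 0 < s) (μ : ℝ) :
    ∃ n : ℕ, n ≤ N0 A μ s ∧
      (Xi A w μ s).toReal ≤ 2 * (N0 A μ s + 1) * (Zc (box s) (Wt (pot A w) μ) n).toReal := by
  set N := N0 A μ s with hN
  have htail := tail_bound (a := fun n => Zc (box s) (Wt (pot A w) μ) n)
    (a' := fun n => Zc (box s) (Wt (pot A w) (μ + 1)) n)
    (B := (s + 1) ^ 3 * (1 + kk A (μ + 1))) (N := N)
    (fun n => by
      rw [Zc_shift (measurableSet_box s) (pot_meas h) μ (μ + 1)]
      congr 3; ring)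
    (by
      refine (Xi_le h hA hκ hs.le (μ + 1)).trans ?_
      refine ENNReal.ofReal_le_ofReal (Real.exp_le_exp.mpr ?_)
      have : s ^ 3 ≤ (s + 1) ^ 3 := by gcongr; linarith
      linarith)
    (by
      rw [hN]; unfold N0
      have := Nat.le_ceil ((s + 1) ^ 3 * (1 + kk A (μ + 1)))
      push_cast
      linarith)
  have hX : Xi A w μ s ≤ ∑ n ∈ Finset.range (N + 1), Zc (box s) (Wt (pot A w) μ) n
      + ENNReal.ofReal (1 / 2) := by
    unfold Xi GI
    rw [← tsum_split (fun n => Zc (box s) (Wt (pot A w) μ) n) (N + 1)]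
    exact add_le_add le_rfl htail
  have hfin : ∀ n, Zc (box s) (Wt (pot A w) μ) n ≠ ⊤ := Zc_ne_top h hA hκ hs.le μ
  have hX2 := ENNReal.toReal_mono (ENNReal.add_ne_top.mpr
    ⟨ENNReal.sum_ne_top.mpr fun n _ => hfin n, ENNReal.ofReal_ne_top⟩) hX
  rw [ENNReal.toReal_add (ENNReal.sum_ne_top.mpr fun n _ => hfin n) ENNReal.ofReal_ne_top,
    ENNReal.toReal_sum fun n _ => hfin n, ENNReal.toReal_ofReal (by norm_num)] at hX2
  have h1 := one_le_Xi_toReal h hA hκ hs.le μ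
  by_contra hcon
  push Not at hcon
  have h2 : ∑ n ∈ Finset.range (N + 1), (Zc (box s) (Wt (pot A w) μ) n).toReal
      ≤ ∑ n ∈ Finset.range (N + 1), (Xi A w μ s).toReal / (2 * (N + 1)) := by
    refine Finset.sum_le_sum fun n hn => ?_
    have := hcon n (by have := Finset.mem_range.mp hn; omega)
    rw [le_div_iff₀ (by positivity)]
    linarith
  have h3 : ∑ n ∈ Finset.range (N + 1), (Zc (box s) (Wt (pot A w) μ) n).toReal
      < ∑ n ∈ Finset.range (N + 1), (Xi A w μ s).toReal / (2 * (N + 1)) := by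
    refine Finset.sum_lt_sum_of_nonempty ⟨0, by simp⟩ fun n hn => ?_
    have := hcon n (by have := Finset.mem_range.mp hn; omega)
    rw [lt_div_iff₀ (by positivity)]
    linarith
  rw [Finset.sum_const, Finset.card_range, nsmul_eq_mul] at h3
  have h4 : ((N + 1 : ℕ) : ℝ) * ((Xi A w μ s).toReal / (2 * (N + 1))) = (Xi A w μ s).toReal / 2 := by
    push_cast
    field_simp
  rw [h4] at h3
  linarith

end Vale.Agent.P171
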