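import Vale.Agent.P171.Lower

open MeasureTheory ENNReal Finset Filter Topology

namespace Vale.Agent.P171

theorem sep_unique_aux {k : ℕ} {u v : ℝ} (huv : |u - v| ≤ 1 / k) (hk : 0 < k) {g : ℕ}
    (h1 : ⌊u - g / k⌋ ≠ ⌊v - g / k⌋) :
    ∃ z : ℤ, min (k * u) (k * v) < (z * k + g : ℤ) ∧ ((z * k + g : ℤ) : ℝ) ≤ max (k * u) (k * v) := by
  have hk0 : (0:ℝ) < k := by exact_mod_cast hk
  rcases lt_or_gt_of_ne h1 with h | h
  · refine ⟨⌊v - g / k⌋, ?_, ?_⟩
    · refine min_lt_of_left_lt ?_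
      have h2 : u - g / k < ⌊v - g / k⌋ := Int.floor_lt.mp h
      push_cast
      have h3 : (u - g / k) * k < ⌊v - g / k⌋ * k := by gcongr
      have h4 : (u - g / k) * k = k * u - g := by field_simp
      linarith
    · refine le_max_of_le_right ?_
      have h2 := Int.floor_le (v - g / k)
      push_cast
      have h3 : (⌊v - g / k⌋:ℝ) * k ≤ (v - g / k) * k := by gcongr
      have h4 : (v - g / k) * k = k * v - g := by field_simp
      linarith
  · refine ⟨⌊u - g / k⌋, ?_, ?_⟩
    · refine min_lt_of_right_lt ?_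
      have h2 : v - g / k < ⌊u - g / k⌋ := Int.floor_lt.mp h
      push_cast
      have h3 : (v - g / k) * k < ⌊u - g / k⌋ * k := by gcongr
      have h4 : (v - g / k) * k = k * v - g := by field_simp
      linarith
    · refine le_max_of_le_left ?_
      have h2 := Int.floor_le (u - g / k)
      push_cast
      have h3 : (⌊u - g / k⌋:ℝ) * k ≤ (u - g / k) * k := by gcongr
      have h4 : (u - g / k) * k = k * u - g := by field_simp
      linarith

theorem sep_unique {k : ℕ} {u v : ℝ} (huv : |u - v| ≤ 1 / k) (hk : 0 < k) {g g' : ℕ}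
    (hg : g < k) (hg' : g' < k) (h1 : ⌊u - g / k⌋ ≠ ⌊v - g / k⌋)
    (h2 : ⌊u - g' / k⌋ ≠ ⌊v - g' / k⌋) : g = g' := by
  obtain ⟨z, a1, a2⟩ := sep_unique_aux huv hk h1
  obtain ⟨z', b1, b2⟩ := sep_unique_aux huv hk h2
  have hk0 : (0:ℝ) < k := by exact_mod_cast hk
  have hlen : max (k * u) (k * v) - min (k * u) (k * v) ≤ 1 := by
    rw [max_sub_min_eq_abs]
    have : (k:ℝ) * v - k * u = k * (v - u) := by ring
    rw [this, abs_mul, abs_of_pos hk0, abs_sub_comm]
    calc (k:ℝ) * |u - v| ≤ k * (1 / k) := by gcongr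
      _ = 1 := by field_simp
  have c1 : (((z * k + g : ℤ) - (z' * k + g' : ℤ) : ℤ) : ℝ) < 1 := by push_cast at *; linarith
  have c2 : (((z' * k + g' : ℤ) - (z * k + g : ℤ) : ℤ) : ℝ) < 1 := by push_cast at *; linarith
  have d1 : (z * k + g : ℤ) - (z' * k + g' : ℤ) < 1 := by exact_mod_cast c1
  have d2 : (z' * k + g' : ℤ) - (z * k + g : ℤ) < 1 := by exact_mod_cast c2
  have e : (z * k + g : ℤ) = z' * k + g' := by omega
  have f1 : ((z * k + g : ℤ)) % (k : ℤ) = g := by
    rw [add_comm, Int.add_mul_emod_self_right]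
    exact Int.emod_eq_of_lt (by positivity) (by exact_mod_cast hg)
  have f2 : ((z' * k + g' : ℤ)) % (k : ℤ) = g' := by
    rw [add_comm, Int.add_mul_emod_self_right]
    exact Int.emod_eq_of_lt (by positivity) (by exact_mod_cast hg')
  rw [e, f2] at f1
  exact_mod_cast f1.symm

/-- Shift of the grid number `g`. -/
noncomputable def tg (s : ℝ) (k g : ℕ) : ℝ := g * (s / k)

open Classical in
/-- Same-cube indicator. -/
noncomputable def sg (s t : ℝ) (a b : E3) : ℝ := if cel s t a = cel s t b then 1 else 0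

theorem sg_nonneg (s t : ℝ) (a b : E3) : 0 ≤ sg s t a b := by unfold sg; split_ifs <;> norm_num
theorem sg_le_one (s t : ℝ) (a b : E3) : sg s t a b ≤ 1 := by unfold sg; split_ifs <;> norm_num
theorem sg_symm (s t : ℝ) (a b : E3) : sg s t a b = sg s t b a := by simp only [sg, eq_comm]
theorem sg_meas (s t : ℝ) : Measurable fun p : E3 × E3 => sg s t p.1 p.2 := by
  unfold sg
  refine Measurable.ite ?_ measurable_const measurable_const
  exact measurableSet_eq_fun ((measurable_cel s t).comp measurable_fst)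
    ((measurable_cel s t).comp measurable_snd)

theorem sum_sg_ge {s : ℝ} (hs : 0 < s) {k : ℕ} (hk : 0 < k) {a b : E3} (hab : dist a b ≤ s / k) :
    (k:ℝ) - 3 ≤ ∑ g ∈ Finset.range k, sg s (tg s k g) a b := by
  classical
  have hk0 : (0:ℝ) < k := by exact_mod_cast hk
  set Bad : Fin 3 → Finset ℕ := fun i => (Finset.range k).filter
    (fun g => cel s (tg s k g) a i ≠ cel s (tg s k g) b i) with hBad
  have hcard : ∀ i, (Bad i).card ≤ 1 := by
    intro i
    rw [Finset.card_le_one]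
    intro g hg g' hg'
    rw [hBad, Finset.mem_filter, Finset.mem_range] at hg hg'
    have key : ∀ (x : E3) (g : ℕ), cel s (tg s k g) x i = ⌊x i / s - g / k⌋ := by
      intro x g
      unfold cel tg
      congr 1
      field_simp
    rw [key, key] at hg hg'
    refine sep_unique (u := a i / s) (v := b i / s) ?_ hk hg.1 hg'.1 hg.2 hg'.2
    rw [← sub_div, abs_div, abs_of_pos hs, div_le_iff₀ hs]
    calc |a i - b i| ≤ dist a b := coord_le_dist a b i
      _ ≤ s / k := hab
      _ = 1 / k * s := by ring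
  have h1 : ∀ g ∈ Finset.range k, (1:ℝ) - ∑ i : Fin 3, (if g ∈ Bad i then (1:ℝ) else 0)
      ≤ sg s (tg s k g) a b := by
    intro g hg
    by_cases hc : cel s (tg s k g) a = cel s (tg s k g) b
    · unfold sg; rw [if_pos hc]
      have : (0:ℝ) ≤ ∑ i : Fin 3, (if g ∈ Bad i then (1:ℝ) else 0) :=
        Finset.sum_nonneg fun i _ => by split_ifs <;> norm_num
      linarith
    · obtain ⟨i, hi⟩ := Function.ne_iff.mp hc
      have h2 : g ∈ Bad i := by
        rw [hBad, Finset.mem_filter]; exact ⟨hg, hi⟩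
      have h3 : (1:ℝ) ≤ ∑ i : Fin 3, (if g ∈ Bad i then (1:ℝ) else 0) := by
        refine le_trans ?_ (Finset.single_le_sum (fun j _ => by split_ifs <;> norm_num)
          (Finset.mem_univ i))
        rw [if_pos h2]
      linarith [sg_nonneg s (tg s k g) a b]
  refine le_trans ?_ (Finset.sum_le_sum h1)
  rw [Finset.sum_sub_distrib, Finset.sum_comm]
  simp only [Finset.sum_const, Finset.card_range, nsmul_eq_mul, mul_one]
  have h4 : ∀ i : Fin 3, ∑ g ∈ Finset.range k, (if g ∈ Bad i then (1:ℝ) else 0) ≤ 1 := by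
    intro i
    rw [← Finset.sum_filter, Finset.sum_const, nsmul_eq_mul, mul_one]
    have : (Finset.range k).filter (fun g => g ∈ Bad i) ⊆ Bad i := by
      intro g hg; exact (Finset.mem_filter.mp hg).2
    exact_mod_cast (Finset.card_le_card this).trans (hcard i)
  have h5 : ∑ i : Fin 3, ∑ g ∈ Finset.range k, (if g ∈ Bad i then (1:ℝ) else 0) ≤ ∑ i : Fin 3, (1:ℝ) :=
    Finset.sum_le_sum fun i _ => h4 i
  simp at h5
  simp
  linarith

/-- Interaction inside one cube. -/
noncomputable def vv (A : ℝ) (w : E3 → E3 → ℝ) (eps c1 : ℝ) (a b : E3) : ℝ :=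
  A * nr 2 a b - (1 + eps) * w a b - c1

/-- Interaction decoupled along a grid. -/
noncomputable def ug (A : ℝ) (w : E3 → E3 → ℝ) (eps c1 s t : ℝ) (a b : E3) : ℝ :=
  sg s t a b * vv A w eps c1 a b

section
variable {A κ κ' : ℝ} {w : E3 → E3 → ℝ}

theorem vv_meas (h : Att κ w) (eps c1 : ℝ) : Measurable fun p : E3 × E3 => vv A w eps c1 p.1 p.2 :=
  (((nr_meas 2).const_mul A).sub (h.meas.const_mul (1 + eps))).sub_const c1

theorem vv_symm (h : Att κ w) (eps c1 : ℝ) (a b : E3) : vv A w eps c1 a b = vv A w eps c1 b a := by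
  unfold vv; rw [nr_symm, h.symm]

theorem ug_meas (h : Att κ w) (eps c1 s t : ℝ) :
    Measurable fun p : E3 × E3 => ug A w eps c1 s t p.1 p.2 := (sg_meas s t).mul (vv_meas h eps c1)

theorem ug_symm (h : Att κ w) (eps c1 s t : ℝ) (a b : E3) :
    ug A w eps c1 s t a b = ug A w eps c1 s t b a := by unfold ug; rw [sg_symm, vv_symm h]

/-- Bound of the long-range attraction by cell occupation numbers. -/
theorem nr_schur {s ℓ : ℝ} (hs : 0 < s) (hℓ : 0 ≤ ℓ) (t : ℝ) (m : Multiset E3) :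
    dS (nr ℓ) m m ≤ ((ℓ + 4 * s) ^ 3 * (Real.pi * 4 / 3) / s ^ 3) * dS (sg s t) m m := by
  classical
  have h1 := schur (cel s t) (Rup s t ℓ) (fun _ _ => Rup_symm)
    ((ℓ + 4 * s) ^ 3 * (Real.pi * 4 / 3) / s ^ 3)
    (fun q T => by rw [le_div_iff₀ (by positivity)]; exact count_up hs hℓ q T) m
  have h2 : dS (nr ℓ) m m ≤ dS (fun a b => if Rup s t ℓ (cel s t a) (cel s t b) then (1:ℝ) else 0) m m := by
    refine dS_le fun a _ b _ => ?_
    unfold nr
    by_cases hd : dist a b ≤ ℓ
    · rw [if_pos hd, if_pos]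
      exact ⟨a, (mem_cube_iff_cel hs _ _).mpr rfl, b, (mem_cube_iff_cel hs _ _).mpr rfl, hd⟩
    · rw [if_neg hd]; split_ifs <;> norm_num
  refine (h2.trans h1).trans (le_of_eq ?_)
  congr 1

theorem energy_ineq (h : Att κ w) (hA : 0 ≤ A) {r0 s ℓ bb : ℝ}
    (hr : ∀ a b, r0 < dist a b → w a b = 0) (hs : 0 < s) (hℓ : 0 ≤ ℓ) (hbb : 0 ≤ bb) {k : ℕ}
    (hk : 3 < k) (hrk : r0 ≤ s / k) (m : Multiset E3) :
    ∑ g ∈ Finset.range k, (1 / (k:ℝ)) * (En (ug A w (3 / ((k:ℝ) - 3))
        (bb * ((ℓ + 4 * s) ^ 3 * (Real.pi * 4 / 3) / s ^ 3)) s (tg s k g)) m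
        - (bb * ((ℓ + 4 * s) ^ 3 * (Real.pi * 4 / 3) / s ^ 3)) / 2 * m.card)
      ≤ En (pot A (fun a b => w a b + bb * nr ℓ a b)) m := by
  have hk3 : (3:ℝ) < k := by exact_mod_cast hk
  have hk0 : (0:ℝ) < k := by linarith
  set NU := (ℓ + 4 * s) ^ 3 * (Real.pi * 4 / 3) / s ^ 3 with hNU
  set eps := 3 / ((k:ℝ) - 3) with heps
  have hk3' : 0 < (k:ℝ) - 3 := by linarith
  have heps0 : 0 < eps := by rw [heps]; positivity
  have e1 : En (pot A fun a b => w a b + bb * nr ℓ a b) m
      = A * En (nr 2) m - En w m - bb * En (nr ℓ) m := by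
    rw [← En_fmul, ← En_fmul, ← En_fsub, ← En_fsub]
    congr 1
    funext a b
    unfold pot; ring
  have e2 : ∀ t, En (ug A w eps (bb * NU) s t) m = A * En (fun a b => sg s t a b * nr 2 a b) m
      - (1 + eps) * En (fun a b => sg s t a b * w a b) m - (bb * NU) * En (sg s t) m := by
    intro t
    rw [← En_fmul, ← En_fmul, ← En_fmul, ← En_fsub, ← En_fsub]
    congr 1
    funext a b
    unfold ug vv; ring
  rw [e1]
  simp_rw [e2]
  -- the three comparisons
  have c1 : ∀ t, En (fun a b => sg s t a b * nr 2 a b) m ≤ En (nr 2) m := fun t =>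
    En_mono fun a _ b _ => mul_le_of_le_one_left (nr_nonneg 2 a b) (sg_le_one s t a b)
  have c2 : En w m ≤ ∑ g ∈ Finset.range k, (1 / (k:ℝ)) * ((1 + eps) *
      En (fun a b => sg s (tg s k g) a b * w a b) m) := by
    have hfs : ∀ (S : Finset ℕ), En (fun a b => ∑ g ∈ S, (1 / (k:ℝ) * (1 + eps)) *
        (sg s (tg s k g) a b * w a b)) m = ∑ g ∈ S, (1 / (k:ℝ)) * ((1 + eps) *
        En (fun a b => sg s (tg s k g) a b * w a b) m) := by
      intro S
      induction S using Finset.induction_on with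
      | empty => simp [En, dS, dg]
      | insert g S hg ih =>
        simp_rw [Finset.sum_insert hg]
        rw [En_fadd, ih, En_fmul]; ring
    rw [← hfs]
    refine En_mono fun a _ b _ => ?_
    by_cases hw0 : w a b = 0
    · simp [hw0]
    · have hd : dist a b ≤ s / k := by
        by_contra hc
        push Not at hc
        exact hw0 (hr a b (lt_of_le_of_lt hrk hc))
      have h1 := sum_sg_ge hs (by omega : 0 < k) hd
      have h2 : ∑ g ∈ Finset.range k, (1 / (k:ℝ) * (1 + eps)) * (sg s (tg s k g) a b * w a b)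
          = (1 / (k:ℝ) * (1 + eps)) * w a b * ∑ g ∈ Finset.range k, sg s (tg s k g) a b := by
        rw [Finset.mul_sum]
        exact Finset.sum_congr rfl fun g _ => by ring
      rw [h2]
      have h3 : (1 / (k:ℝ) * (1 + eps)) * ((k:ℝ) - 3) = 1 := by
        rw [heps]; field_simp; ring
      have h4 : 0 ≤ (1 / (k:ℝ) * (1 + eps)) * w a b := by
        have := h.nonneg a b
        positivity
      calc w a b = (1 / (k:ℝ) * (1 + eps)) * w a b * ((k:ℝ) - 3) := by
            rw [mul_right_comm, h3, one_mul]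
        _ ≤ _ := mul_le_mul_of_nonneg_left h1 h4
  have c3 : ∀ t, bb * En (nr ℓ) m ≤ (bb * NU) * En (sg s t) m + (bb * NU) / 2 * m.card := by
    intro t
    have h1 := nr_schur hs hℓ t m
    rw [← hNU] at h1
    have h2 : dg (sg s t) m = m.card := by simp [dg, sg]
    have h3 : 0 ≤ dg (nr ℓ) m := dg_nonneg fun a _ => nr_nonneg _ _ _
    have h4 : En (nr ℓ) m ≤ NU * En (sg s t) m + NU / 2 * m.card := by
      unfold En; rw [h2]; linarith
    calc bb * En (nr ℓ) m ≤ bb * (NU * En (sg s t) m + NU / 2 * m.card) := by gcongr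
      _ = _ := by ring
  have c4 : ∑ g ∈ Finset.range k, (1 / (k:ℝ)) * (A * En (nr 2) m
        - (1 + eps) * En (fun a b => sg s (tg s k g) a b * w a b) m - bb * En (nr ℓ) m)
      ≤ A * En (nr 2) m - En w m - bb * En (nr ℓ) m := by
    have : ∀ g ∈ Finset.range k, (1 / (k:ℝ)) * (A * En (nr 2) m
        - (1 + eps) * En (fun a b => sg s (tg s k g) a b * w a b) m - bb * En (nr ℓ) m)
        = (1 / (k:ℝ)) * (A * En (nr 2) m - bb * En (nr ℓ) m) - (1 / (k:ℝ)) * ((1 + eps) *
      En (fun a b => sg s (tg s k g) a b * w a b) m) := fun g _ => by ring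
    rw [Finset.sum_congr rfl this, Finset.sum_sub_distrib, Finset.sum_const, Finset.card_range,
      nsmul_eq_mul]
    have h5 : (k:ℝ) * (1 / (k:ℝ) * (A * En (nr 2) m - bb * En (nr ℓ) m))
        = A * En (nr 2) m - bb * En (nr ℓ) m := by field_simp
    rw [h5]
    linarith
  refine le_trans (Finset.sum_le_sum fun g _ => ?_) c4
  have h6 := c3 (tg s k g)
  have h7 := mul_le_mul_of_nonneg_left (c1 (tg s k g)) hA
  refine mul_le_mul_of_nonneg_left ?_ (by positivity)
  linarith

end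
end Vale.Agent.P171
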