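import Vale.Agent.P171.Upper

open MeasureTheory ENNReal Finset Filter Topology

namespace Vale.Agent.P171

section
variable {A κ κ' : ℝ} {w : E3 → E3 → ℝ}

theorem vv_tinv (hw : Tinv w) (eps c1 : ℝ) : Tinv (vv A w eps c1) := fun a b τ => by
  unfold vv; rw [nr_tinv, hw]

/-- One-cube partition function. -/
noncomputable def QQ (A : ℝ) (w : E3 → E3 → ℝ) (eps c1 μ s : ℝ) : ℝ≥0∞ :=
  GI (box s) (Wt (vv A w eps c1) (μ + c1 / 2))

theorem one_le_QQ (A : ℝ) (w : E3 → E3 → ℝ) (eps c1 μ s : ℝ) : 1 ≤ QQ A w eps c1 μ s :=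
  one_le_GI (Wt_zero _ _)

theorem grid_bound (h : Att κ w) (hw : Tinv w) (eps c1 μ : ℝ) {s t L : ℝ} (hs : 0 < s)
    (ht0 : 0 ≤ t) (hts : t < s) :
    GI (box L) (Wt (ug A w eps c1 s t) (μ + c1 / 2)) ≤ (QQ A w eps c1 μ s) ^ ((⌈L / s⌉₊ + 1) ^ 3) := by
  classical
  set T : Finset I3 := Fintype.piFinset fun _ => Finset.Ico (-1 : ℤ) (⌈L / s⌉₊ : ℤ) with hT
  have hsub : box L ⊆ ⋃ q ∈ T, cube s t s q := by
    intro x hx
    simp only [Set.mem_iUnion]
    refine ⟨cel s t x, ?_, (mem_cube_iff_cel hs _ _).mpr rfl⟩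
    rw [hT, Fintype.mem_piFinset]
    intro i
    have hxi := hx i
    rw [Finset.mem_Ico]
    unfold cel
    constructor
    · rw [Int.le_floor]
      push_cast
      rw [le_div_iff₀ hs]
      linarith [hxi.1]
    · rw [Int.floor_lt]
      push_cast
      have h1 := Nat.le_ceil (L / s)
      refine lt_of_lt_of_le ?_ h1
      gcongr
      linarith [hxi.2]
  have hcard : T.card = (⌈L / s⌉₊ + 1) ^ 3 := by
    rw [hT, Fintype.card_piFinset]
    simp only [Int.card_Ico, Finset.prod_const, Finset.card_univ, Fintype.card_fin]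
    congr 1
  have h1 := GI_union_le (fun q => cube s t s q) (fun q => measurableSet_cube _ _ _ _)
    (fun q r hqr => cube_disjoint hs le_rfl hqr)
    (Wt (ug A w eps c1 s t) (μ + c1 / 2)) (measF_Wt (ug_meas h eps c1 s t) _) (by rw [Wt_zero]) ?_ T
  · have h2 : ∀ q : I3, GI (cube s t s q) (Wt (ug A w eps c1 s t) (μ + c1 / 2))
        = QQ A w eps c1 μ s := by
      intro q
      unfold QQ
      rw [← GI_cube_of_tinv (vv_tinv hw eps c1) (μ + c1 / 2) s t s q]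
      have hEn : ∀ m : Multiset E3, (∀ a ∈ m, a ∈ cube s t s q) →
          Wt (ug A w eps c1 s t) (μ + c1 / 2) m = Wt (vv A w eps c1) (μ + c1 / 2) m := by
        intro m hm
        unfold Wt
        congr 3
        have hpt : ∀ a ∈ m, ∀ b ∈ m, ug A w eps c1 s t a b = vv A w eps c1 a b := by
          intro a ha b hb
          unfold ug sg
          rw [if_pos, one_mul]
          rw [(mem_cube_iff_cel hs q a).mp (hm a ha), (mem_cube_iff_cel hs q b).mp (hm b hb)]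
        exact le_antisymm (En_mono fun a ha b hb => (hpt a ha b hb).le)
          (En_mono fun a ha b hb => (hpt a ha b hb).ge)
      exact le_antisymm (GI_mono subset_rfl fun m hm => (hEn m hm).le)
        (GI_mono subset_rfl fun m hm => (hEn m hm).ge)
    simp_rw [h2] at h1
    rw [Finset.prod_const, hcard] at h1
    exact (GI_mono hsub fun _ _ => le_rfl).trans h1
  · intro S q hq m₁ m₂ h1 h2
    refine Wt_add_le _ (ug_symm h eps c1 s t) _ m₁ m₂ fun a ha b hb => ?_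
    have h3 := h1 a ha
    simp only [Set.mem_iUnion] at h3
    obtain ⟨r, hr, h3⟩ := h3
    unfold ug sg
    rw [if_neg, zero_mul]
    rw [(mem_cube_iff_cel hs r a).mp h3, (mem_cube_iff_cel hs q b).mp (h2 b hb)]
    rintro rfl
    exact hq hr

theorem Xi_le_QQ (h : Att κ w) (hw : Tinv w) (hA : 0 ≤ A) (μ : ℝ) {r0 s ℓ bb : ℝ}
    (hr : ∀ a b, r0 < dist a b → w a b = 0) (hs : 0 < s) (hℓ : 0 ≤ ℓ) (hbb : 0 ≤ bb) {k : ℕ}
    (hk : 3 < k) (hrk : r0 ≤ s / k) (L : ℝ) :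
    Xi A (fun a b => w a b + bb * nr ℓ a b) μ L ≤
      (QQ A w (3 / ((k:ℝ) - 3)) (bb * ((ℓ + 4 * s) ^ 3 * (Real.pi * 4 / 3) / s ^ 3)) μ s)
        ^ ((⌈L / s⌉₊ + 1) ^ 3) := by
  have hk3 : (3:ℝ) < k := by exact_mod_cast hk
  have hk0 : (0:ℝ) < k := by linarith
  set c1 := bb * ((ℓ + 4 * s) ^ 3 * (Real.pi * 4 / 3) / s ^ 3) with hc1
  set eps := 3 / ((k:ℝ) - 3) with heps
  have hmeas : ∀ g, MeasF (Wt (ug A w eps c1 s (tg s k g)) (μ + c1 / 2)) := fun g =>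
    measF_Wt (ug_meas h eps c1 s _) _
  have hpt : ∀ m : Multiset E3, Wt (pot A (fun a b => w a b + bb * nr ℓ a b)) μ m
      ≤ ∑ g ∈ Finset.range k, ENNReal.ofReal (1 / (k:ℝ)) *
          Wt (ug A w eps c1 s (tg s k g)) (μ + c1 / 2) m := by
    intro m
    have h1 := energy_ineq h hA hr hs hℓ hbb hk hrk m
    rw [← hc1, ← heps] at h1
    unfold Wt
    have h2 : μ * m.card - En (pot A (fun a b => w a b + bb * nr ℓ a b)) m
        ≤ ∑ g ∈ Finset.range k, (1 / (k:ℝ)) • ((μ + c1 / 2) * m.card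
          - En (ug A w eps c1 s (tg s k g)) m) := by
      have h3 : ∑ g ∈ Finset.range k, (1 / (k:ℝ)) • ((μ + c1 / 2) * m.card
          - En (ug A w eps c1 s (tg s k g)) m) = μ * m.card - ∑ g ∈ Finset.range k, (1 / (k:ℝ)) *
            (En (ug A w eps c1 s (tg s k g)) m - c1 / 2 * m.card) := by
        have : ∀ g ∈ Finset.range k, (1 / (k:ℝ)) • ((μ + c1 / 2) * m.card
          - En (ug A w eps c1 s (tg s k g)) m) = (1 / (k:ℝ)) * (μ * m.card) - (1 / (k:ℝ)) *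
            (En (ug A w eps c1 s (tg s k g)) m - c1 / 2 * m.card) := fun g _ => by
          rw [smul_eq_mul]; ring
        rw [Finset.sum_congr rfl this, Finset.sum_sub_distrib, Finset.sum_const,
          Finset.card_range, nsmul_eq_mul]
        congr 1
        field_simp
      rw [h3]
      linarith
    have h4 := convexOn_exp.map_sum_le (t := Finset.range k) (w := fun _ => 1 / (k:ℝ))
      (p := fun g => (μ + c1 / 2) * m.card - En (ug A w eps c1 s (tg s k g)) m)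
      (fun _ _ => by positivity) (by
        rw [Finset.sum_const, Finset.card_range, nsmul_eq_mul]; field_simp)
      (fun _ _ => Set.mem_univ _)
    have h5 := (Real.exp_le_exp.mpr h2).trans h4
    refine (ENNReal.ofReal_le_ofReal h5).trans (le_of_eq ?_)
    rw [ENNReal.ofReal_sum_of_nonneg fun _ _ => by positivity]
    refine Finset.sum_congr rfl fun g _ => ?_
    rw [smul_eq_mul, ENNReal.ofReal_mul (by positivity)]
  unfold Xi
  calc GI (box L) (Wt (pot A (fun a b => w a b + bb * nr ℓ a b)) μ)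
      ≤ GI (box L) (fun m => ∑ g ∈ Finset.range k, ENNReal.ofReal (1 / (k:ℝ)) *
          Wt (ug A w eps c1 s (tg s k g)) (μ + c1 / 2) m) := GI_mono subset_rfl fun m _ => hpt m
    _ = ∑ g ∈ Finset.range k, ENNReal.ofReal (1 / (k:ℝ)) *
          GI (box L) (Wt (ug A w eps c1 s (tg s k g)) (μ + c1 / 2)) := by
        rw [GI_sum (measurableSet_box L) _ fun g => (hmeas g).const_mul _]
        exact Finset.sum_congr rfl fun g _ => GI_const_mul (measurableSet_box L) (hmeas g) _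
    _ ≤ ∑ g ∈ Finset.range k, ENNReal.ofReal (1 / (k:ℝ)) *
          (QQ A w eps c1 μ s) ^ ((⌈L / s⌉₊ + 1) ^ 3) := by
        refine Finset.sum_le_sum fun g hg => mul_le_mul' le_rfl ?_
        have hg' : (g:ℝ) < k := by exact_mod_cast Finset.mem_range.mp hg
        refine grid_bound h hw eps c1 μ hs (by unfold tg; positivity) ?_
        unfold tg
        calc (g:ℝ) * (s / k) < k * (s / k) := by gcongr
          _ = s := by field_simp
    _ = (QQ A w eps c1 μ s) ^ ((⌈L / s⌉₊ + 1) ^ 3) := by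
        rw [Finset.sum_const, Finset.card_range, nsmul_eq_mul, ← mul_assoc]
        have : (k:ℝ≥0∞) * ENNReal.ofReal (1 / (k:ℝ)) = 1 := by
          rw [← ENNReal.ofReal_natCast, ← ENNReal.ofReal_mul hk0.le, mul_one_div_cancel hk0.ne',
            ENNReal.ofReal_one]
        rw [this, one_mul]

/-- Superstability, sharper form. -/
theorem superstable' {A κ : ℝ} {w : E3 → E3 → ℝ} (h : Att κ w) (hA : 0 ≤ A)
    (m : Multiset E3) :
    (A / 2 - κ / 2) * SQ (cel 1 0) m - (A / 2) * m.card ≤ En (pot A w) m := by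
  unfold pot
  rw [En_fsub (fun a b => A * nr 2 a b) w, En_fmul]
  have h1 : SQ (cel 1 0) m ≤ dS (nr 2) m m := by
    refine dS_le fun a _ b _ => ?_
    split_ifs with hc
    · unfold nr
      rw [if_pos (same_cell_dist hc)]
    · exact nr_nonneg _ _ _
  have h2 : dg (nr 2) m = m.card := by
    simp [dg, nr]
  have h3 : 0 ≤ dg w m := dg_nonneg fun a _ => h.nonneg a a
  have h4 := h.dom m
  unfold En
  rw [h2]
  nlinarith

/-- Energy with an additional constant attraction. -/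
theorem En_vv (eps c1 : ℝ) (m : Multiset E3) :
    En (vv A w eps c1) m = En (pot A fun a b => (1 + eps) * w a b) m
      - c1 * (((m.card : ℝ) ^ 2 - m.card) / 2) := by
  have h1 : En (fun _ _ : E3 => (1:ℝ)) m = ((m.card : ℝ) ^ 2 - m.card) / 2 := by
    unfold En; rw [dS_one, dg_one]
  rw [← h1, ← En_fmul, ← En_fsub]
  congr 1
  funext a b
  unfold vv pot; ring

theorem vv_weight (h : Att κ w) (hA : 0 < A) {eps c1 : ℝ} (heps : 0 ≤ eps)
    (hκ : (1 + eps) * κ ≤ A / 4) {s : ℝ} (hs : 0 ≤ s) (hc1 : c1 * (s + 1) ^ 3 ≤ A / 4)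
    (hc0 : 0 ≤ c1) (μ : ℝ) {m : Multiset E3} (hm : ∀ a ∈ m, a ∈ box s) :
    (μ + c1 / 2) * m.card - En (vv A w eps c1) m ≤ (s + 1) ^ 3 * kk A μ := by
  rw [En_vv]
  have h1 := superstable' (h.smul (c := 1 + eps) (by linarith)) hA.le m
  have h0 := fun a ha => cell_mem hs (hm a ha)
  have h2 := card_sq_le (cel 1 0) m (ibox ⌈s⌉₊) h0
  have h3 : ((ibox ⌈s⌉₊).card : ℝ) ≤ (s + 1) ^ 3 := by
    rw [card_ibox]; push_cast
    have := (Nat.ceil_lt_add_one hs).le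
    gcongr
  have hSQ := SQ_nonneg m
  have h4 := linquad (cel 1 0) m (ibox ⌈s⌉₊) h0 (μ + A / 2) (A / 4) (by positivity)
  have h5 : (max (μ + A / 2) 0) ^ 2 / (4 * (A / 4)) = kk A μ := by
    unfold kk; congr 1; ring
  have h6 : 0 ≤ kk A μ := kk_nonneg hA μ
  rw [h5] at h4
  have h7 := mul_le_mul_of_nonneg_right h3 h6
  have h8 : c1 * (m.card : ℝ) ^ 2 ≤ (A / 4) * SQ (cel 1 0) m := by
    calc c1 * (m.card : ℝ) ^ 2 ≤ c1 * ((s + 1) ^ 3 * SQ (cel 1 0) m) := by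
          refine mul_le_mul_of_nonneg_left (h2.trans ?_) hc0
          exact mul_le_mul_of_nonneg_right h3 hSQ
      _ = (c1 * (s + 1) ^ 3) * SQ (cel 1 0) m := by ring
      _ ≤ _ := mul_le_mul_of_nonneg_right hc1 hSQ
  have h9 := mul_le_mul_of_nonneg_right hκ hSQ
  nlinarith

theorem QQ_le_exp (h : Att κ w) (hA : 0 < A) {eps c1 : ℝ} (heps : 0 ≤ eps)
    (hκ : (1 + eps) * κ ≤ A / 4) {s : ℝ} (hs : 0 ≤ s) (hc1 : c1 * (s + 1) ^ 3 ≤ A / 4)
    (hc0 : 0 ≤ c1) (μ : ℝ) :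
    QQ A w eps c1 μ s ≤ ENNReal.ofReal (Real.exp ((s + 1) ^ 3 * (1 + kk A μ))) := by
  refine (GI_le_exp (measurableSet_box s) (by positivity) (volume_box s hs) fun m hm =>
    ENNReal.ofReal_le_ofReal (Real.exp_le_exp.mpr (vv_weight h hA heps hκ hs hc1 hc0 μ hm))).trans ?_
  refine ENNReal.ofReal_le_ofReal (Real.exp_le_exp.mpr ?_)
  have : s ^ 3 ≤ (s + 1) ^ 3 := by gcongr; linarith
  linarith

theorem Zc_vv (h : Att κ w) (eps c1 μ : ℝ) (s : ℝ) (n : ℕ) :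
    Zc (box s) (Wt (vv A w eps c1) (μ + c1 / 2)) n = ENNReal.ofReal (Real.exp (c1 / 2 * (n:ℝ) ^ 2)) *
      Zc (box s) (Wt (pot A fun a b => (1 + eps) * w a b) μ) n := by
  have hmeas : Measurable fun p : E3 × E3 => pot A (fun a b => (1 + eps) * w a b) p.1 p.2 :=
    ((nr_meas 2).const_mul A).sub (h.meas.const_mul (1 + eps))
  rw [← Zc_const_mul (measurableSet_box s) (measF_Wt hmeas μ)]
  refine Zc_congr n fun m _ hm => ?_
  unfold Wt
  rw [← ENNReal.ofReal_mul (Real.exp_pos _).le, ← Real.exp_add, En_vv, hm]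
  congr 2
  ring

/-- One-cube bound. -/
theorem QQ_bound (h : Att κ w) (hA : 0 < A) {eps c1 : ℝ} (heps : 0 ≤ eps)
    (hκ : (1 + eps) * κ ≤ A / 4) {s : ℝ} (hs : 0 < s) (hc1 : c1 * (s + 1) ^ 3 ≤ A / 4)
    (hc0 : 0 ≤ c1) (μ X : ℝ) (hX0 : 0 ≤ X)
    (hX : ∀ n : ℕ, n ≤ N0 A μ s →
      lf A (fun a b => (1 + eps) * w a b) (μ + c1 * n) s - c1 / 2 * (n:ℝ) ^ 2 ≤ X) :
    Real.log (QQ A w eps c1 μ s).toReal ≤ Real.log (N0 A μ s + 2) + X := by
  have h' : Att ((1 + eps) * κ) (fun a b => (1 + eps) * w a b) := h.smul (by linarith)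
  have hκ' : (1 + eps) * κ ≤ A / 2 := by linarith
  set w1 : E3 → E3 → ℝ := fun a b => (1 + eps) * w a b with hw1
  set N := N0 A μ s with hN
  have htop : QQ A w eps c1 μ s ≠ ⊤ :=
    ne_top_of_le_ne_top ENNReal.ofReal_ne_top (QQ_le_exp h hA heps hκ hs.le hc1 hc0 μ)
  have htail := tail_bound (a := fun n => Zc (box s) (Wt (vv A w eps c1) (μ + c1 / 2)) n)
    (a' := fun n => Zc (box s) (Wt (vv A w eps c1) ((μ + 1) + c1 / 2)) n)
    (B := (s + 1) ^ 3 * (1 + kk A (μ + 1))) (N := N)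
    (fun n => by
      rw [Zc_shift (measurableSet_box s) (vv_meas h eps c1) (μ + c1 / 2) ((μ + 1) + c1 / 2)]
      congr 3; ring)
    (QQ_le_exp h hA heps hκ hs.le hc1 hc0 (μ + 1))
    (by
      rw [hN]; unfold N0
      have := Nat.le_ceil ((s + 1) ^ 3 * (1 + kk A (μ + 1)))
      push_cast
      linarith)
  have hterm : ∀ n ∈ Finset.range (N + 1), Zc (box s) (Wt (vv A w eps c1) (μ + c1 / 2)) n
      ≤ ENNReal.ofReal (Real.exp X) := by
    intro n hn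
    have hn' : n ≤ N := by have := Finset.mem_range.mp hn; omega
    rw [Zc_vv h, Zc_shift (measurableSet_box s) (pot_meas h') μ (μ + c1 * n), ← mul_assoc,
      ← ENNReal.ofReal_mul (Real.exp_pos _).le, ← Real.exp_add]
    have h1 : Zc (box s) (Wt (pot A w1) (μ + c1 * n)) n ≤ ENNReal.ofReal (Real.exp (lf A w1 (μ + c1 * n) s)) := by
      unfold lf
      rw [Real.exp_log (by linarith [one_le_Xi_toReal h' hA hκ' hs.le (μ + c1 * n)]),
        ENNReal.ofReal_toReal (Xi_ne_top h' hA hκ' hs.le _)]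
      exact ENNReal.le_tsum n
    refine (mul_le_mul' le_rfl h1).trans ?_
    rw [← ENNReal.ofReal_mul (Real.exp_pos _).le, ← Real.exp_add]
    refine ENNReal.ofReal_le_ofReal (Real.exp_le_exp.mpr ?_)
    have := hX n hn'
    nlinarith
  have hQ : QQ A w eps c1 μ s ≤ ENNReal.ofReal ((N + 2) * Real.exp X) := by
    unfold QQ GI
    rw [← tsum_split (fun n => Zc (box s) (Wt (vv A w eps c1) (μ + c1 / 2)) n) (N + 1)]
    refine (add_le_add (Finset.sum_le_sum hterm) htail).trans ?_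
    rw [Finset.sum_const, Finset.card_range, nsmul_eq_mul, ← ENNReal.ofReal_natCast,
      ← ENNReal.ofReal_mul (by positivity), ← ENNReal.ofReal_add (by positivity) (by norm_num)]
    refine ENNReal.ofReal_le_ofReal ?_
    have h2 : (1:ℝ) ≤ Real.exp X := Real.one_le_exp hX0
    push_cast
    nlinarith
  have h3 := ENNReal.toReal_mono ENNReal.ofReal_ne_top hQ
  rw [ENNReal.toReal_ofReal (by positivity)] at h3
  have h4 : 1 ≤ (QQ A w eps c1 μ s).toReal := by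
    have := ENNReal.toReal_mono htop (one_le_QQ A w eps c1 μ s)
    simpa using this
  have h5 := Real.log_le_log (by linarith) h3
  rwa [Real.log_mul (by positivity) (Real.exp_pos _).ne', Real.log_exp] at h5

theorem Pr_le_log_QQ (h : Att κ w) (hw : Tinv w) (hA : 0 < A) (μ : ℝ) {r0 s ℓ bb : ℝ}
    (h' : Att κ' (fun a b => w a b + bb * nr ℓ a b)) (hκ' : κ' ≤ A / 2)
    (hr : ∀ a b, r0 < dist a b → w a b = 0) (hs : 0 < s) (hℓ : 0 ≤ ℓ) (hbb : 0 ≤ bb) {k : ℕ}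
    (hk : 3 < k) (hrk : r0 ≤ s / k)
    (hQ : QQ A w (3 / ((k:ℝ) - 3)) (bb * ((ℓ + 4 * s) ^ 3 * (Real.pi * 4 / 3) / s ^ 3)) μ s ≠ ⊤) :
    Pr A (fun a b => w a b + bb * nr ℓ a b) μ ≤ (1 / s ^ 3) * Real.log
      (QQ A w (3 / ((k:ℝ) - 3)) (bb * ((ℓ + 4 * s) ^ 3 * (Real.pi * 4 / 3) / s ^ 3)) μ s).toReal := by
  set Q := QQ A w (3 / ((k:ℝ) - 3)) (bb * ((ℓ + 4 * s) ^ 3 * (Real.pi * 4 / 3) / s ^ 3)) μ s with hQdef
  have hw' : Tinv (fun a b => w a b + bb * nr ℓ a b) := fun a b τ => by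
    show w (a + τ) (b + τ) + bb * nr ℓ (a + τ) (b + τ) = _
    rw [hw, nr_tinv]
  have hQ1 : 1 ≤ Q.toReal := by
    have := ENNReal.toReal_mono hQ (one_le_QQ A w _ _ μ s)
    simpa using this
  have hlog : 0 ≤ Real.log Q.toReal := Real.log_nonneg hQ1
  have T1 := Pr_tendsto h' hw' hA hκ' μ
  have T2 : Tendsto (fun L : ℝ => ((L / s + 2) / L) ^ 3 * Real.log Q.toReal) atTop
      (𝓝 ((1 / s) ^ 3 * Real.log Q.toReal)) := by
    refine ((Tendsto.pow ?_ 3).mul_const _)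
    have h2 : Tendsto (fun L : ℝ => 1 / s + 2 / L) atTop (𝓝 (1 / s + 0)) :=
      tendsto_const_nhds.add (tendsto_const_nhds.div_atTop tendsto_id)
    rw [add_zero] at h2
    refine h2.congr' ?_
    filter_upwards [eventually_gt_atTop 0] with L hL
    field_simp
  have h2 : (1 / s) ^ 3 * Real.log Q.toReal = (1 / s ^ 3) * Real.log Q.toReal := by
    rw [one_div_pow]
  rw [← h2]
  refine le_of_tendsto_of_tendsto T1 T2 ?_
  filter_upwards [eventually_gt_atTop 0] with L hL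
  have h3 := Xi_le_QQ h hw hA.le μ hr hs hℓ hbb hk hrk L
  rw [← hQdef] at h3
  have h4 := ENNReal.toReal_mono (ENNReal.pow_ne_top hQ) h3
  rw [ENNReal.toReal_pow] at h4
  have h5 := Real.log_le_log (by linarith [one_le_Xi_toReal h' hA hκ' hL.le μ]) h4
  rw [Real.log_pow] at h5
  rw [div_pow, div_mul_eq_mul_div]
  unfold lf
  have h6 : (((⌈L / s⌉₊ + 1) ^ 3 : ℕ) : ℝ) ≤ (L / s + 2) ^ 3 := by
    push_cast
    have := (Nat.ceil_lt_add_one (a := L / s) (by positivity)).le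
    exact pow_le_pow_left₀ (by positivity) (by linarith) 3
  have h7 := mul_le_mul_of_nonneg_right h6 hlog
  gcongr
  exact h5.trans h7

theorem kk_mono (hA : 0 < A) {μ ν : ℝ} (h : μ ≤ ν) : kk A μ ≤ kk A ν := by
  unfold kk
  gcongr

theorem N0_log_tendsto (hA : 0 < A) (μ : ℝ) :
    Tendsto (fun s : ℝ => Real.log (N0 A μ s + 2) / s ^ 3) atTop (𝓝 0) := by
  set D := 3 + kk A (μ + 1) with hD
  have hD0 : 0 < D := by have := kk_nonneg hA (μ + 1); linarith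
  have h1 : Tendsto (fun x : ℝ => Real.log x / x) atTop (𝓝 0) := by
    have := Real.isLittleO_log_id_atTop.tendsto_div_nhds_zero
    simpa using this
  have h2 : Tendsto (fun s : ℝ => (8 * D + 2) * s ^ 3) atTop atTop := by
    refine Tendsto.const_mul_atTop (by positivity) ?_
    exact (tendsto_pow_atTop (by norm_num))
  have h3 := (h1.comp h2).const_mul (8 * D + 2)
  rw [mul_zero] at h3
  refine squeeze_zero' ?_ ?_ h3
  · filter_upwards [eventually_gt_atTop 0] with s hs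
    refine div_nonneg (Real.log_nonneg ?_) (by positivity)
    have : (0:ℝ) ≤ N0 A μ s := Nat.cast_nonneg _
    linarith
  · filter_upwards [eventually_ge_atTop 1] with s hs
    have hs0 : (0:ℝ) < s := by linarith
    have h4 := N0_le (μ := μ) hA hs0
    have h5 : ((N0 A μ s : ℝ) + 2) ≤ (8 * D + 2) * s ^ 3 := by
      have e1 : (s + 1) ^ 3 ≤ (2 * s) ^ 3 := pow_le_pow_left₀ (by positivity) (by linarith) 3
      have e2 : (1:ℝ) ≤ s ^ 3 := one_le_pow₀ (by linarith)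
      have e3 : (s + 1) ^ 3 * (3 + kk A (μ + 1)) ≤ (2 * s) ^ 3 * D := by
        rw [← hD]; gcongr
      nlinarith
    have h6 : (0:ℝ) < ((N0 A μ s : ℝ) + 2) := by positivity
    have h7 := Real.log_le_log h6 h5
    simp only [Function.comp]
    rw [div_le_iff₀ (by positivity)]
    refine h7.trans (le_of_eq ?_)
    field_simp

theorem ratio_tendsto (G : ℝ) :
    Tendsto (fun s : ℝ => (((s + 2) / s) ^ 3 - 1) * G) atTop (𝓝 0) := by
  have : Tendsto (fun s : ℝ => (((s + 2) / s) ^ 3 - 1) * G) atTop (𝓝 ((1 ^ 3 - 1) * G)) := by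
    refine (((Tendsto.pow ?_ 3).sub_const 1).mul_const G)
    have h2 : Tendsto (fun L : ℝ => 1 + 2 / L) atTop (𝓝 (1 + 0)) :=
      tendsto_const_nhds.add (tendsto_const_nhds.div_atTop tendsto_id)
    rw [add_zero] at h2
    refine h2.congr' ?_
    filter_upwards [eventually_gt_atTop 0] with L hL
    field_simp
  have h2 : ((1:ℝ) ^ 3 - 1) * G = 0 := by ring
  rwa [h2] at this

/-- Bound of the canonical terms in one cube. -/
theorem hX_lemma (h : Att κ w) (hw : Tinv w) (hA : 0 < A) (hκ0 : 0 ≤ κ) (hκ : κ ≤ A / 8)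
    {a : ℝ} (ha0 : 0 < a) (μ T : ℝ)
    (hT : ∀ ν, Pr A w ν - (ν - μ) ^ 2 / (2 * a) ≤ T) {eps s th c1 : ℝ} (heps0 : 0 < eps)
    (heps1 : eps ≤ 1) (hs0 : 0 < s) (hth1 : 1 ≤ th) (hth8 : th ≤ 8) (hc1' : c1 = a * th / s ^ 3)
    (hs8 : (s + 1) ^ 3 ≤ 8 * s ^ 3) (n : ℕ) (hn : n ≤ N0 A μ s) :
    lf A (fun a b => (1 + eps) * w a b) (μ + c1 * n) s - c1 / 2 * (n:ℝ) ^ 2
        ≤ s ^ 3 * T + ((s + 2) ^ 3 - s ^ 3) * (1 + kk A (μ + 64 * a * (3 + kk A (μ + 1))))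
          + (s + 2) ^ 3 * eps * (1 + kk A (μ + 64 * a * (3 + kk A (μ + 1))))
          + 4 * a * (N0 A μ s:ℝ) ^ 2 / s ^ 3 * (th - 1) := by
  have hκ1 : κ ≤ A / 2 := by linarith
  set D := 3 + kk A (μ + 1) with hD
  have hD0 : 0 < D := by have := kk_nonneg hA (μ + 1); linarith
  set G := 1 + kk A (μ + 64 * a * D) with hG
  have hG0 : 0 < G := by have := kk_nonneg hA (μ + 64 * a * D); linarith
  set N := N0 A μ s with hN
  have hc10 : 0 ≤ c1 := by rw [hc1']; positivity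
  have hc1s : c1 * (s + 1) ^ 3 ≤ 64 * a := by
    calc c1 * (s + 1) ^ 3 ≤ c1 * (8 * s ^ 3) := mul_le_mul_of_nonneg_left hs8 hc10
      _ = 8 * a * th := by rw [hc1']; field_simp
      _ ≤ 8 * a * 8 := by gcongr
      _ = 64 * a := by ring
  set ν := μ + c1 * n with hν
  have hn' : (n:ℝ) ≤ N := by exact_mod_cast hn
  have hnN : c1 * (n:ℝ) ≤ 64 * a * D := by
    calc c1 * (n:ℝ) ≤ c1 * ((s + 1) ^ 3 * D) := by
          refine mul_le_mul_of_nonneg_left (hn'.trans ?_) hc10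
          exact N0_le hA hs0
      _ = c1 * (s + 1) ^ 3 * D := by ring
      _ ≤ 64 * a * D := mul_le_mul_of_nonneg_right hc1s hD0.le
  have hkkν : 1 + kk A ν ≤ G := by
    rw [hG]
    have := kk_mono hA (show ν ≤ μ + 64 * a * D by linarith)
    linarith
  have hatt1 : Att ((1 + eps) * κ) (fun a b => (1 + eps) * w a b) := h.smul (by linarith)
  have hatt2 : Att (2 * κ) (fun a b => 2 * w a b) := h.smul (by norm_num)
  have ht1 : Tinv (fun a b => (1 + eps) * w a b) := fun a b τ => by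
    show (1 + eps) * w (a + τ) (b + τ) = _
    rw [hw]
  have ht2 : Tinv (fun a b => 2 * w a b) := fun a b τ => by
    show 2 * w (a + τ) (b + τ) = _
    rw [hw]
  have hκe : (1 + eps) * κ ≤ A / 2 := by nlinarith
  have p1 : Pr A (fun a b => (1 + eps) * w a b) ν ≤ Pr A w ν + eps * G := by
    have := Pr_convex hatt1 h hatt2 ht1 hw ht2 hA hκe hκ1 (by linarith)
      (p := 1 - eps) (q := eps) (by linarith) heps0.le (by ring)
      (fun a b => le_of_eq (by ring)) ν ν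
    rw [← add_mul, sub_add_cancel, one_mul] at this
    have h2 := Pr_le hatt2 hA (by linarith) ν
    have h3 := Pr_nonneg h hA hκ1 ν
    have h4 : eps * Pr A (fun a b => 2 * w a b) ν ≤ eps * G :=
      mul_le_mul_of_nonneg_left (h2.trans hkkν) heps0.le
    nlinarith
  have p2 := lf_le_Pr hatt1 hA hκe ν hs0
  have p3 : Pr A w ν ≤ G := (Pr_le h hA hκ1 ν).trans hkkν
  have p4 : Pr A w ν ≤ T + (c1 * n) ^ 2 / (2 * a) := by
    have h5 := hT ν
    have h6 : ν - μ = c1 * n := by rw [hν]; ring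
    rw [h6] at h5
    linarith
  have q1 : lf A (fun a b => (1 + eps) * w a b) ν s ≤ s ^ 3 * Pr A w ν
      + ((s + 2) ^ 3 - s ^ 3) * G + (s + 2) ^ 3 * eps * G := by
    have e1 : s ^ 3 ≤ (s + 2) ^ 3 := pow_le_pow_left₀ hs0.le (by linarith) 3
    have e2 : Pr A (fun a b => (1 + eps) * w a b) ν * (s + 2) ^ 3
        ≤ (Pr A w ν + eps * G) * (s + 2) ^ 3 := by gcongr
    have e3 : ((s + 2) ^ 3 - s ^ 3) * Pr A w ν ≤ ((s + 2) ^ 3 - s ^ 3) * G :=
      mul_le_mul_of_nonneg_left p3 (by linarith)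
    nlinarith
  have q2 : s ^ 3 * Pr A w ν ≤ s ^ 3 * T + s ^ 3 * ((c1 * n) ^ 2 / (2 * a)) := by
    rw [← mul_add]; exact mul_le_mul_of_nonneg_left p4 (by positivity)
  have q3 : s ^ 3 * ((c1 * n) ^ 2 / (2 * a)) - c1 / 2 * (n:ℝ) ^ 2
      = c1 / 2 * (n:ℝ) ^ 2 * (th - 1) := by
    rw [hc1']; field_simp
  have q4 : c1 / 2 * (n:ℝ) ^ 2 * (th - 1) ≤ 4 * a * (N:ℝ) ^ 2 / s ^ 3 * (th - 1) := by
    have e1 : c1 / 2 * (n:ℝ) ^ 2 ≤ 4 * a * (N:ℝ) ^ 2 / s ^ 3 := by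
      rw [hc1']
      have : a * th / s ^ 3 / 2 * (n:ℝ) ^ 2 = (a * (th / 2) * (n:ℝ) ^ 2) / s ^ 3 := by ring
      rw [this]
      have e4 : (n:ℝ) ^ 2 ≤ (N:ℝ) ^ 2 := by gcongr
      have e5 : a * (th / 2) ≤ 4 * a := by nlinarith
      gcongr
    exact mul_le_mul_of_nonneg_right e1 (by linarith)
  linarith

/-- Upper bound at a finite scale. -/
theorem upper_fin (h : Att κ w) (hw : Tinv w) (hA : 0 < A) {b : ℝ} (hb : 0 < b)
    (hκ0 : 0 ≤ κ) (hκ : κ + 27 * b ≤ A / 8) (hbA : 1100 * b ≤ A) {r0 : ℝ}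
    (hr : ∀ a b, r0 < dist a b → w a b = 0) (μ T : ℝ)
    (hT : ∀ ν, Pr A w ν - (ν - μ) ^ 2 / (2 * (b * (Real.pi * 4 / 3))) ≤ T) {s ℓ : ℝ} {k : ℕ}
    (hk6 : (6:ℝ) < k) (hs3 : 1 ≤ s) (hrk : r0 ≤ s / k) (hℓ2 : 4 * s ≤ ℓ) (hℓ3 : 3 ≤ ℓ) :
    s ^ 3 * Pr A (fun a b' => w a b' + (b * (ℓ ^ 3)⁻¹) * nr ℓ a b') μ ≤ Real.log (N0 A μ s + 2) +
      (s ^ 3 * T + ((s + 2) ^ 3 - s ^ 3) *
          (1 + kk A (μ + 64 * (b * (Real.pi * 4 / 3)) * (3 + kk A (μ + 1))))
          + (s + 2) ^ 3 * (3 / ((k:ℝ) - 3)) *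
            (1 + kk A (μ + 64 * (b * (Real.pi * 4 / 3)) * (3 + kk A (μ + 1))))
          + 4 * (b * (Real.pi * 4 / 3)) * (N0 A μ s:ℝ) ^ 2 / s ^ 3 * ((1 + 4 * s / ℓ) ^ 3 - 1)) := by
  have hκ1 : κ ≤ A / 2 := by linarith
  set a := b * (Real.pi * 4 / 3) with ha
  have hpi := Real.pi_pos
  have hpi3 := Real.pi_lt_d2
  have ha0 : 0 < a := by positivity
  have haA : 256 * a ≤ A := by rw [ha]; nlinarith
  have hT0 : 0 ≤ T := by
    have h1 := hT μ
    have h2 := Pr_nonneg h hA hκ1 μ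
    simp at h1
    linarith
  set G := 1 + kk A (μ + 64 * a * (3 + kk A (μ + 1))) with hG
  have hG0 : 0 < G := by
    have := kk_nonneg hA (μ + 64 * a * (3 + kk A (μ + 1))); linarith
  have hk3 : 3 < k := by
    have : (3:ℝ) < k := by linarith
    exact_mod_cast this
  set eps := 3 / ((k:ℝ) - 3) with heps
  have hk3' : 0 < (k:ℝ) - 3 := by linarith
  have heps0 : 0 < eps := by rw [heps]; positivity
  have heps1 : eps ≤ 1 := by rw [heps, div_le_one hk3']; linarith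
  have hs0 : (0:ℝ) < s := by linarith
  have hℓ0 : 0 < ℓ := by linarith
  have hatt : Att (κ + 27 * b) (fun a b' => w a b' + (b * (ℓ ^ 3)⁻¹) * nr ℓ a b') := by
    have := h.add ((att_nr hℓ3).smul (c := b * (ℓ ^ 3)⁻¹) (by positivity))
    refine this.mono (le_of_eq ?_)
    field_simp
  set th := (1 + 4 * s / ℓ) ^ 3 with hth
  have hth1 : 1 ≤ th := by
    rw [hth]; exact one_le_pow₀ (by have : 0 ≤ 4 * s / ℓ := by positivity
                                    linarith)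
  have hth8 : th ≤ 8 := by
    have h1 : 4 * s / ℓ ≤ 1 := by rw [div_le_one hℓ0]; exact hℓ2
    calc th ≤ (2:ℝ) ^ 3 := by
          rw [hth]; exact pow_le_pow_left₀ (by positivity) (by linarith) 3
      _ = 8 := by norm_num
  set c1 := b * (ℓ ^ 3)⁻¹ * ((ℓ + 4 * s) ^ 3 * (Real.pi * 4 / 3) / s ^ 3) with hc1
  have hc1' : c1 = a * th / s ^ 3 := by
    have : th = (ℓ + 4 * s) ^ 3 * (ℓ ^ 3)⁻¹ := by
      rw [hth, ← inv_pow, ← mul_pow]; congr 1; field_simp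
    rw [this, hc1, ha]; ring
  have hc10 : 0 ≤ c1 := by rw [hc1']; positivity
  have hs8 : (s + 1) ^ 3 ≤ 8 * s ^ 3 := by
    calc (s + 1) ^ 3 ≤ (2 * s) ^ 3 := pow_le_pow_left₀ (by positivity) (by linarith) 3
      _ = 8 * s ^ 3 := by ring
  have hc1s : c1 * (s + 1) ^ 3 ≤ 64 * a := by
    calc c1 * (s + 1) ^ 3 ≤ c1 * (8 * s ^ 3) := mul_le_mul_of_nonneg_left hs8 hc10
      _ = 8 * a * th := by rw [hc1']; field_simp
      _ ≤ 8 * a * 8 := by gcongr
      _ = 64 * a := by ring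
  have hκeps : (1 + eps) * κ ≤ A / 4 := by nlinarith
  have hX := hX_lemma h hw hA hκ0 (by linarith) ha0 μ T hT heps0 heps1 hs0 hth1 hth8 hc1' hs8
  rw [← hG] at hX
  have hX0 : 0 ≤ s ^ 3 * T + ((s + 2) ^ 3 - s ^ 3) * G + (s + 2) ^ 3 * eps * G
          + 4 * a * (N0 A μ s:ℝ) ^ 2 / s ^ 3 * (th - 1) := by
    have e1 : s ^ 3 ≤ (s + 2) ^ 3 := pow_le_pow_left₀ hs0.le (by linarith) 3
    have e2 : 0 ≤ (s + 2) ^ 3 - s ^ 3 := by linarith
    have e3 : 0 ≤ th - 1 := by linarith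
    positivity
  have hc1A : c1 * (s + 1) ^ 3 ≤ A / 4 := by linarith
  have hQtop : QQ A w eps c1 μ s ≠ ⊤ :=
    ne_top_of_le_ne_top ENNReal.ofReal_ne_top (QQ_le_exp h hA heps0.le hκeps hs0.le hc1A hc10 μ)
  have hfin := Pr_le_log_QQ h hw hA μ hatt (by linarith) hr hs0 hℓ0.le (bb := b * (ℓ ^ 3)⁻¹)
    (by positivity) hk3 hrk (by rw [← heps, ← hc1]; exact hQtop)
  rw [← heps, ← hc1] at hfin
  have hQb := QQ_bound h hA heps0.le hκeps hs0 hc1A hc10 μ _ hX0 hX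
  have hs30 : (0:ℝ) < s ^ 3 := by positivity
  rw [one_div, ← div_eq_inv_mul, le_div_iff₀ hs30, mul_comm] at hfin
  exact hfin.trans hQb

/-- Lebowitz–Penrose upper bound. -/
theorem upper_limit (h : Att κ w) (hw : Tinv w) (hA : 0 < A) {b : ℝ} (hb : 0 < b)
    (hκ0 : 0 ≤ κ) (hκ : κ + 27 * b ≤ A / 8) (hbA : 1100 * b ≤ A) {r0 : ℝ}
    (hr : ∀ a b, r0 < dist a b → w a b = 0) (μ T : ℝ)
    (hT : ∀ ν, Pr A w ν - (ν - μ) ^ 2 / (2 * (b * (Real.pi * 4 / 3))) ≤ T) {η : ℝ} (hη : 0 < η) :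
    ∀ᶠ ℓ : ℝ in atTop, Pr A (fun a b' => w a b' + (b * (ℓ ^ 3)⁻¹) * nr ℓ a b') μ ≤ T + η := by
  set G := 1 + kk A (μ + 64 * (b * (Real.pi * 4 / 3)) * (3 + kk A (μ + 1))) with hG
  have hG0 : 0 < G := by
    have := kk_nonneg hA (μ + 64 * (b * (Real.pi * 4 / 3)) * (3 + kk A (μ + 1))); linarith
  -- choose k
  obtain ⟨k, hk1⟩ := exists_nat_gt (max 6 (3 + 3 * 27 * G * 4 / η))
  have hk6 : (6:ℝ) < k := lt_of_le_of_lt (le_max_left _ _) hk1
  have hkG : 3 + 3 * 27 * G * 4 / η < k := lt_of_le_of_lt (le_max_right _ _) hk1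
  have hk3' : 0 < (k:ℝ) - 3 := by linarith
  have hepsG : 27 * (3 / ((k:ℝ) - 3)) * G ≤ η / 4 := by
    have h1 : 3 * 27 * G * 4 / η < k - 3 := by linarith
    rw [div_lt_iff₀ hη] at h1
    have : 27 * (3 / ((k:ℝ) - 3)) * G = (3 * 27 * G) / ((k:ℝ) - 3) := by ring
    rw [this, div_le_iff₀ hk3']
    linarith
  have hk0 : (0:ℝ) < k := by linarith
  -- choose s
  have hs1 := (N0_log_tendsto hA μ).add (ratio_tendsto G)
  rw [add_zero] at hs1
  obtain ⟨s, hs2, hs3, hs4⟩ := (((tendsto_order.mp hs1).2 (η / 4) (by linarith)).and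
    ((eventually_ge_atTop 1).and (eventually_ge_atTop (k * r0)))).exists
  have hs0 : (0:ℝ) < s := by linarith
  have hrk : r0 ≤ s / k := by
    rw [le_div_iff₀ hk0]; linarith
  -- error terms as ℓ → ∞
  have hE : Tendsto (fun ℓ : ℝ => 4 * (b * (Real.pi * 4 / 3)) * (N0 A μ s:ℝ) ^ 2 / s ^ 3 *
      ((1 + 4 * s / ℓ) ^ 3 - 1)) atTop
      (𝓝 (4 * (b * (Real.pi * 4 / 3)) * (N0 A μ s:ℝ) ^ 2 / s ^ 3 * ((1 + 0) ^ 3 - 1))) := by
    refine Filter.Tendsto.const_mul _ (((tendsto_const_nhds.add ?_).pow 3).sub_const 1)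
    exact tendsto_const_nhds.div_atTop tendsto_id
  have hE2 : (4 * (b * (Real.pi * 4 / 3)) * (N0 A μ s:ℝ) ^ 2 / s ^ 3 * (((1:ℝ) + 0) ^ 3 - 1)) = 0 := by
    ring
  rw [hE2] at hE
  filter_upwards [(tendsto_order.mp hE).2 (η / 4 * s ^ 3) (by positivity),
    eventually_ge_atTop (4 * s), eventually_ge_atTop 3] with ℓ hℓ1 hℓ2 hℓ3
  have hfin := upper_fin h hw hA hb hκ0 hκ hbA hr μ T hT hk6 hs3 hrk hℓ2 hℓ3
  rw [← hG] at hfin
  have hs30 : (0:ℝ) < s ^ 3 := by positivity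
  have r1 : Real.log (N0 A μ s + 2) + (((s + 2) ^ 3 - s ^ 3) * G) ≤ η / 4 * s ^ 3 := by
    have e1 : Real.log (N0 A μ s + 2) / s ^ 3 + (((s + 2) / s) ^ 3 - 1) * G
        = (Real.log (N0 A μ s + 2) + (((s + 2) ^ 3 - s ^ 3) * G)) / s ^ 3 := by
      field_simp
    rw [e1, div_lt_iff₀ hs30] at hs2
    exact hs2.le
  have r2 : (s + 2) ^ 3 * (3 / ((k:ℝ) - 3)) * G ≤ η / 4 * s ^ 3 := by
    have e1 : (s + 2) ^ 3 ≤ 27 * s ^ 3 := by
      calc (s + 2) ^ 3 ≤ (3 * s) ^ 3 := pow_le_pow_left₀ (by positivity) (by linarith) 3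
        _ = 27 * s ^ 3 := by ring
    have e0 : 0 ≤ 3 / ((k:ℝ) - 3) := by positivity
    calc (s + 2) ^ 3 * (3 / ((k:ℝ) - 3)) * G ≤ 27 * s ^ 3 * (3 / ((k:ℝ) - 3)) * G := by gcongr
      _ = (27 * (3 / ((k:ℝ) - 3)) * G) * s ^ 3 := by ring
      _ ≤ _ := mul_le_mul_of_nonneg_right hepsG hs30.le
  refine le_of_mul_le_mul_left ?_ hs30
  have e3 : s ^ 3 * (T + η) = s ^ 3 * T + η * s ^ 3 := by ring
  have e4 : 0 < η * s ^ 3 := by positivity
  linarith

end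
end Vale.Agent.P171
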